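import Vale.Agent.P129.Quot
import Mathlib.Order.Filter.Ultrafilter.Basic
import Mathlib.Data.Finsupp.Encodable
import Mathlib.Algebra.Order.Field.GeomSum
import Mathlib.Algebra.BigOperators.Field

/-! Preliminaries: transfinite choice, closure systems, Ramsey, parameters. -/

namespace Vale.Agent.P129

open Filter Topology Set

theorem exists_wf_rec {Ω A : Type*} [LinearOrder Ω] [WellFoundedLT Ω] [Nonempty A]
    (R : Ω → (Ω → A) → A → Prop)
    (hloc : ∀ δ D D', (∀ β < δ, D β = D' β) → ∀ a, R δ D a → R δ D' a)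
    (step : ∀ δ D, (∀ β < δ, R β D (D β)) → ∃ a, R δ D a) : ∃ D, ∀ δ, R δ D (D δ) := by
  classical
  let ext : (δ : Ω) → ((β : Ω) → β < δ → A) → Ω → A := fun δ ih β =>
    if h : β < δ then ih β h else Classical.arbitrary A
  let D : Ω → A := WellFoundedLT.fix fun δ ih => Classical.epsilon (R δ (ext δ ih))
  have hD : ∀ δ, D δ = Classical.epsilon (R δ (ext δ fun β _ => D β)) := fun δ =>
    WellFoundedLT.fix_eq _ δ
  refine ⟨D, fun δ => ?_⟩
  induction δ using WellFoundedLT.induction with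
  | _ δ ih =>
  have h1 : ∀ β < δ, D β = ext δ (fun β _ => D β) β := fun β h => by simp [ext, h]
  obtain ⟨a, ha⟩ := step δ D ih
  refine hloc δ _ _ (fun β h => (h1 β h).symm) _ ?_
  rw [hD]
  exact Classical.epsilon_spec ⟨a, hloc δ _ _ h1 a ha⟩

/-- A coherent system of finite closures. -/
class Clo (Ω : Type) [LinearOrder Ω] where
  C : ℕ → Ω → Finset Ω
  self : ∀ p α, α ∈ C p α
  coh : ∀ p α β, β ∈ C p α → ∀ γ, γ ∈ C p β ↔ γ ∈ C p α ∧ γ ≤ β
  ev : ∀ γ α, γ ≤ α → ∀ᶠ p in atTop, γ ∈ C p α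

theorem nonempty_clo {Ω : Type} [LinearOrder Ω] [WellFoundedLT Ω]
    (hc : ∀ α : Ω, (Iio α).Countable) : Nonempty (Clo Ω) := by
  classical
  obtain ⟨D, hD⟩ := exists_wf_rec (A := ℕ → Finset Ω) (fun α D a =>
    (∀ p, a p = {α} ∨ ∃ β < α, a p = insert α (D β p)) ∧ ∀ γ < α, ∀ᶠ p in atTop, γ ∈ a p)
    (fun δ D D' h a ha => ⟨fun p => (ha.1 p).imp_right fun ⟨β, hβ, e⟩ => ⟨β, hβ, h β hβ ▸ e⟩,
      ha.2⟩) (fun α D ih => by
      rcases (Iio α).eq_empty_or_nonempty with h | h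
      · exact ⟨fun _ => {α}, fun _ => Or.inl rfl, fun γ hγ => absurd (h ▸ hγ : γ ∈ (∅ : Set Ω))
          (notMem_empty γ)⟩
      obtain ⟨g, hg⟩ := (hc α).exists_eq_range h
      have hg' : ∀ i, g i < α := fun i => (hg ▸ mem_range_self i : g i ∈ Iio α)
      have h1 : ∀ n, ∃ β < α, ∃ k, ∀ p ≥ k, ∀ i ≤ n, g i ∈ D β p := by
        intro n
        obtain ⟨j, -, hj⟩ := (Finset.range (n + 1)).exists_max_image g ⟨0, by simp⟩
        refine ⟨g j, hg' j, eventually_atTop.1 ?_⟩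
        have : ∀ i ∈ Finset.range (n + 1), ∀ᶠ p in atTop, g i ∈ D (g j) p := by
          intro i hi
          rcases (hj i hi).lt_or_eq with h | h
          · exact (ih _ (hg' j)).2 _ h
          · refine Eventually.of_forall fun p => ?_
            rcases (ih _ (hg' j)).1 p with e | ⟨β, -, e⟩ <;> simp [e, h]
        filter_upwards [(Finset.eventually_all _).2 this] with p hp i hi
        exact hp i (by simp; omega)
      choose β hβ k hk using h1
      refine ⟨fun p => insert α (D (β (Nat.findGreatest (fun n => k n ≤ p) p)) p),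
        fun p => Or.inr ⟨_, hβ _, rfl⟩, fun γ hγ => ?_⟩
      obtain ⟨i, rfl⟩ : γ ∈ range g := hg ▸ hγ
      filter_upwards [eventually_ge_atTop (max i (k i))] with p hp
      have h2 : i ≤ p := (le_max_left _ _).trans hp
      have h3 : k i ≤ p := (le_max_right _ _).trans hp
      exact Finset.mem_insert_of_mem (hk _ p (Nat.findGreatest_spec (P := fun n => k n ≤ p) h2 h3)
        i (Nat.le_findGreatest h2 h3)))
  have hself : ∀ p α, α ∈ D α p := fun p α => by
    rcases (hD α).1 p with e | ⟨β, -, e⟩ <;> simp [e]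
  have hle : ∀ p α γ, γ ∈ D α p → γ ≤ α := by
    intro p α
    induction α using WellFoundedLT.induction with
    | _ α ih =>
    intro γ h
    rcases (hD α).1 p with e | ⟨β, hβ, e⟩ <;> rw [e] at h
    · exact (Finset.mem_singleton.1 h).le
    · rcases Finset.mem_insert.1 h with h | h
      · exact h.le
      · exact (ih β hβ γ h).trans hβ.le
  refine ⟨⟨fun p α => D α p, hself, fun p α => ?_, fun γ α h => ?_⟩⟩
  · induction α using WellFoundedLT.induction with
    | _ α ih =>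
    intro β h γ
    by_cases hβ : β = α
    · subst hβ
      exact ⟨fun h => ⟨h, hle _ _ _ h⟩, fun h => h.1⟩
    rcases (hD α).1 p with e | ⟨β', hβ', e⟩ <;> rw [e] at h ⊢
    · exact absurd (Finset.mem_singleton.1 h) hβ
    · have h1 := (Finset.mem_insert.1 h).resolve_left hβ
      rw [ih β' hβ' β h1 γ, Finset.mem_insert]
      refine ⟨fun h => ⟨Or.inr h.1, h.2⟩, fun h => ⟨h.1.resolve_left fun e => ?_, h.2⟩⟩
      exact absurd ((e ▸ h.2).trans (hle _ _ _ h1)) hβ'.not_ge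
  · rcases h.lt_or_eq with h | rfl
    · exact (hD α).2 γ h
    · exact Eventually.of_forall fun p => hself p γ

theorem ramsey_compact {K : Type*} [PseudoMetricSpace K] {S : Set K} (hS : IsCompact S)
    (χ : ℕ → ℕ → K) (hχ : ∀ i j, χ i j ∈ S) {ε : ℝ} (hε : 0 < ε) :
    ∃ φ : ℕ → ℕ, StrictMono φ ∧ ∃ a ∈ S, ∀ i j, i < j → dist (χ (φ i) (φ j)) a ≤ ε := by
  have hl : ∀ f : ℕ → K, (∀ i, f i ∈ S) → ∃ a ∈ S, Tendsto f (hyperfilter ℕ) (𝓝 a) :=
    fun f hf => hS.ultrafilter_le_nhds ((hyperfilter ℕ).map f)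
      (le_principal_iff.2 (mem_map.2 (Eventually.of_forall hf)))
  choose k hk hk' using fun i => hl (χ i) (hχ i)
  obtain ⟨a, ha, ha'⟩ := hl k hk
  obtain ⟨φ, hφ⟩ := exists_seq_hist (α := ℕ) (fun n f j => dist (k j) a < ε / 2 ∧
    ∀ l, f l < j ∧ dist (χ (f l) j) (k (f l)) < ε / 2) fun n f => by
      refine ((Metric.tendsto_nhds.1 ha' _ (half_pos hε)).and (eventually_all.2 fun l =>
        Eventually.and ?_ (Metric.tendsto_nhds.1 (hk' _) _ (half_pos hε)))).exists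
      exact (Nat.hyperfilter_le_atTop) (eventually_gt_atTop _)
  refine ⟨φ, fun i j h => ((hφ j).2 ⟨i, h⟩).1, a, ha, fun i j h => ?_⟩
  linarith [dist_triangle (χ (φ i) (φ j)) (k (φ i)) a, ((hφ j).2 ⟨i, h⟩).2, (hφ i).1]

theorem exists_dec : ∃ dec : ℕ → List ℕ × (ℕ →₀ ℚ) × ℕ, ∀ x B, ∃ c, B < c ∧ dec c = x := by
  obtain ⟨f, hf⟩ := exists_surjective_nat (List ℕ × (ℕ →₀ ℚ) × ℕ)
  refine ⟨fun c => f c.unpair.1, fun x B => ?_⟩
  obtain ⟨i, rfl⟩ := hf x
  exact ⟨Nat.pair i (B + 1), Nat.right_le_pair _ _, by simp⟩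

/-- Decoding of colours. -/
noncomputable def dec : ℕ → List ℕ × (ℕ →₀ ℚ) × ℕ := exists_dec.choose

theorem dec_spec (x) (B : ℕ) : ∃ c, B < c ∧ dec c = x := exists_dec.choose_spec x B

/-- Weights. -/
def wt (j : ℕ) : ℕ := 2 ^ (j + 2)

/-- Cumulated lengths. -/
def cum : ℕ → ℕ
  | 0 => 0
  | c + 1 => cum c + 6 * (2 * (cum c + 1)) ^ (c + 4)

/-- Lengths. -/
def len (c : ℕ) : ℕ := 6 * (2 * (cum c + 1)) ^ (c + 4)

theorem wt_pos (j : ℕ) : (0 : ℝ) < wt j := by unfold wt; positivity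

theorem len_pos (j : ℕ) : 0 < len j := by unfold len; positivity

theorem cum_mono : StrictMono cum := strictMono_nat_of_lt_succ fun c => by
  have := len_pos c
  unfold len at this
  simp only [cum]
  omega

theorem len_le_cum {j c : ℕ} (h : j < c) : len j ≤ cum c :=
  le_trans (by simp [cum, len]) (cum_mono.monotone (Nat.succ_le_of_lt h))

theorem pow_le_len {M J : ℕ} (h : M ≤ J) : M ^ (J + 4) ≤ len J := by
  have h1 : J ≤ cum J := cum_mono.le_apply
  have : M ^ (J + 4) ≤ (2 * (cum J + 1)) ^ (J + 4) := Nat.pow_le_pow_left (by omega) _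
  unfold len
  omega

theorem len_large (c : ℕ) : 6 * (cum c + 1) ^ (c + 2) * wt c ≤ len c := by
  unfold len wt
  rw [mul_assoc, ← mul_pow, mul_comm (cum c + 1)]
  exact Nat.mul_le_mul_left _ (Nat.pow_le_pow_right (by omega) (by omega))

theorem sum_inv_wt {s : Finset ℕ} {c : ℕ} (h : ∀ j ∈ s, c ≤ j) :
    ∑ j ∈ s, (1 : ℝ) / wt j ≤ 2 / wt c := by
  have h1 : s ⊆ Finset.Ico c (s.sup id + 1) := fun j hj =>
    Finset.mem_Ico.2 ⟨h j hj, Nat.lt_succ_of_le (Finset.le_sup (f := id) hj)⟩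
  refine (Finset.sum_le_sum_of_subset_of_nonneg h1 fun j _ _ => (one_div_pos.2 (wt_pos j)).le).trans ?_
  have e : ∀ j, (1 : ℝ) / wt j = (1 / 2) ^ j / 4 := fun j => by
    simp only [wt]; push_cast; rw [pow_add, one_div_pow]; field_simp; norm_num
  simp only [e, ← Finset.sum_div]
  have := geom_sum_Ico_le_of_lt_one (x := (1 / 2 : ℝ)) (m := c) (n := s.sup id + 1)
    (by norm_num) (by norm_num)
  rw [show (2 : ℝ) / wt c = 2 * (1 / wt c) by ring, e]
  rw [show (1 : ℝ) - 1 / 2 = 1 / 2 by norm_num, le_div_iff₀ (by norm_num)] at this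
  linarith

theorem exists_wt_ge (B : ℝ) : ∀ᶠ j in atTop, B ≤ wt j := by
  obtain ⟨n, hn⟩ := exists_nat_ge B
  filter_upwards [eventually_ge_atTop n] with j hj
  refine hn.trans (Nat.cast_le.2 ?_)
  have : j + 2 < 2 ^ (j + 2) := Nat.lt_two_pow_self
  unfold wt
  omega

end Vale.Agent.P129
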