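import Vale.Agent.P129.CHSmall

/-! Exact pairs and dependent sequences. -/

namespace Vale.Agent.P129

open Filter Topology Finset

variable {𝕜 : Type*} [RCLike 𝕜] {Ω : Type} [LinearOrder Ω] [Clo Ω]

omit [LinearOrder Ω] [Clo Ω] in
theorem norm_pair_signs {ι : Type} (T : Finset ι) (g : ι → Ω → ℚ) {ε : ι → ℚ}
    (h : ∀ l, ε l = 1 ∨ ε l = -1) (z : Ω →₀ 𝕜) :
    ‖pair (∑ l ∈ T, ε l • g l) z‖ ≤ ∑ l ∈ T, ‖pair (g l) z‖ := by
  rw [pair_sum]
  refine (norm_sum_le _ _).trans (sum_le_sum fun l _ => ?_)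
  rw [pair_smul]
  rcases h l with h | h <;> simp [h]

theorem high_part {u : ℕ → Ω →₀ 𝕜} {j : ℕ → ℕ} {c : ℕ} (hj : StrictMono j)
    (hu : ∀ i, N (u i) = 1 ∧ (∃ q, Avg q (u i) ∧ Small q (1 / ((j i + 1) * wt c)) (u i)) ∧
      ∀ p > j (i + 1), l1 (u i) * (2 / wt p) ≤ 1 / wt c)
    {ι : Type} {T : Finset ι} {σ : ι → Seg Ω} {ε : ι → ℚ} (h1 : ∀ l ∈ T, (σ l).OK (W Ω))
    (h2 : Disj T σ) (h3 : Big T σ T.card) (h4 : ∀ l, ε l = 1 ∨ ε l = -1) (h5 : Big T σ c)
    (R : Finset ℕ) : ∑ i ∈ R, ‖pair (∑ l ∈ T, ε l • (σ l).fn) (u i)‖ ≤ 9 / wt c * R.card + 1 := by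
  have hm := wt_pos c
  have key : ∀ i ∈ R, ‖pair (∑ l ∈ T, ε l • (σ l).fn) (u i)‖ ≤
      9 / wt c + if j i < T.card ∧ T.card ≤ j (i + 1) then 1 else 0 := by
    intro i _
    split_ifs with h
    · have := (le_N (sum_mem_W h1 h2 h3 h4) (u i)).trans (hu i).1.le
      have : (0 : ℝ) ≤ 9 / wt c := by positivity
      linarith
    rw [add_zero]
    refine (norm_pair_signs T _ h4 _).trans ?_
    rcases le_or_gt T.card (j i) with h6 | h6
    · obtain ⟨q, a1, a2⟩ := (hu i).2.1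
      have a3 := fam_low (σ := fun l => (σ l).cut (· ≤ q)) (fun l hl => (h1 l hl).cut_le q)
        (fun l hl l' hl' hne k hk k' hk' => h2 l hl l' hl' hne k (mem_filter.1 hk).1 k'
          (mem_filter.1 hk').1) (p := c) (fun l hl k hk => h5 l hl k (mem_filter.1 hk).1)
        (fun l _ k hk => (mem_filter.1 hk).2) a1
      have a4 := sum_le_card_nsmul T (fun l => ‖pair ((σ l).cut fun j => ¬ j ≤ q).fn (u i)‖) _
        fun l hl => a2 _ ((h1 l hl).cut_gt q) fun k hk => not_le.1 (mem_filter.1 hk).2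
      have a5 : T.card • (1 / ((j i + 1) * wt c : ℝ)) ≤ 1 / wt c := by
        have : (T.card : ℝ) ≤ j i := by exact_mod_cast h6
        rw [nsmul_eq_mul, mul_one_div, div_le_div_iff₀ (by positivity) hm]
        nlinarith
      have a6 := sum_le_sum (s := T) fun l _ => show ‖pair (σ l).fn (u i)‖ ≤
          ‖pair ((σ l).cut (· ≤ q)).fn (u i)‖ + ‖pair ((σ l).cut fun j => ¬ j ≤ q).fn (u i)‖ by
        conv_lhs => rw [(σ l).fn_cut (· ≤ q)]
        exact norm_pair_add_le _ _ _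
      rw [sum_add_distrib] at a6
      have : (9 : ℝ) / wt c = 4 * (2 / wt c) + 1 / wt c := by ring
      linarith
    · refine ((fam_tiny h1 h2 h3 _).trans ((hu i).2.2 _ (by omega))).trans ?_
      gcongr
      norm_num
  refine (sum_le_sum key).trans ?_
  rw [sum_add_distrib, sum_const, nsmul_eq_mul, mul_comm, sum_boole]
  gcongr
  exact_mod_cast card_le_one.2 fun a ha b hb => by
    obtain ⟨-, a1, a2⟩ := mem_filter.1 ha
    obtain ⟨-, b1, b2⟩ := mem_filter.1 hb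
    have := hj.lt_iff_lt.1 (a1.trans_le b2)
    have := hj.lt_iff_lt.1 (b1.trans_le a2)
    omega

theorem upper_est {u : ℕ → Ω →₀ 𝕜} {j : ℕ → ℕ} {c : ℕ} (hj : StrictMono j)
    (hs : ∀ i i', i < i' → Succ (u i) (u i'))
    (hu : ∀ i, N (u i) = 1 ∧ (∃ q, Avg q (u i) ∧ Small q (1 / ((j i + 1) * wt c)) (u i)) ∧
      ∀ p > j (i + 1), l1 (u i) * (2 / wt p) ≤ 1 / wt c) (d : ℕ) : ∀ f ∈ W Ω, ∀ R : Finset ℕ,
      ∑ i ∈ R, ‖pair f (u i)‖ ≤ ((1 / 2) ^ d + 18 / wt c) * R.card + 6 * (cum c + 1) ^ d := by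
  have hm := wt_pos c
  induction d with
  | zero =>
    intro f hf R
    have := sum_le_card_nsmul R _ _ fun i _ => (le_N hf (u i)).trans (hu i).1.le
    rw [nsmul_eq_mul] at this
    have : (0 : ℝ) ≤ 18 / wt c * R.card := by positivity
    simp only [pow_zero]
    linarith
  | succ d ih =>
    intro f hf R
    have hν : (1 : ℝ) ≤ (cum c + 1) ^ d := one_le_pow₀ (by simp)
    have hν' : (0 : ℝ) ≤ cum c := Nat.cast_nonneg _
    rcases mem_W.1 hf with ⟨α, ε, h1, rfl⟩ | ⟨ι, T, σ, ε, h1, h2, h3, h4, rfl⟩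
    · have h2 : ∑ i ∈ R, ‖pair (Pi.single α ε) (u i)‖ ≤ 1 := by
        by_cases h : ∃ i ∈ R, u i α ≠ 0
        · obtain ⟨i, hi, h⟩ := h
          rw [sum_eq_single_of_mem i hi fun i' _ hne => by
            rw [pair_single, show u i' α = 0 from not_not.1 fun h' => ?_, zero_mul, norm_zero]
            rcases lt_or_gt_of_ne hne with h3 | h3
            · exact lt_irrefl _ (hs _ _ h3 α α h' h)
            · exact lt_irrefl _ (hs _ _ h3 α α h h')]
          exact (le_N hf _).trans (hu i).1.le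
        · push Not at h
          rw [sum_eq_zero fun i hi => by rw [pair_single, h i hi, zero_mul, norm_zero]]
          exact zero_le_one
      have : (0 : ℝ) ≤ ((1 / 2) ^ (d + 1) + 18 / wt c) * R.card := by positivity
      rw [pow_succ (cum c + 1 : ℝ)]
      nlinarith
    set a : ℝ := (1 / 2) ^ d + 18 / wt c with ha
    have ha0 : 0 ≤ a := by positivity
    have ha6 : a ≤ 6 := by
      have b1 : ((1 : ℝ) / 2) ^ d ≤ 1 := pow_le_one₀ (by norm_num) (by norm_num)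
      have b2 : (18 : ℝ) / wt c ≤ 5 := by
        rw [div_le_iff₀ hm]
        have : (4 : ℝ) ≤ wt c := by
          exact_mod_cast (Nat.pow_le_pow_right (by norm_num) (by omega) : 2 ^ 2 ≤ 2 ^ (c + 2))
        linarith
      linarith
    have a1 := high_part hj hu (σ := fun l => (σ l).cut fun j => ¬ j < c)
      (fun l hl => (h1 l hl).cut _ fun _ _ _ h _ h' _ h'' => h' (h.trans_lt h''))
      (fun l hl l' hl' hne k hk k' hk' => h2 l hl l' hl' hne k (mem_filter.1 hk).1 k'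
        (mem_filter.1 hk').1) (fun l hl k hk => h3 l hl k (mem_filter.1 hk).1) h4
      (fun l _ k hk => not_lt.1 (mem_filter.1 hk).2) R
    have a2 := seg_sum_le (σ := fun l => (σ l).cut (· < c))
      (fun l hl => (h1 l hl).cut _ fun _ _ _ _ h _ h' => h.trans_lt h')
      (fun l hl l' hl' hne k hk k' hk' => h2 l hl l' hl' hne k (mem_filter.1 hk).1 k'
        (mem_filter.1 hk').1) (p := 0) (fun _ _ _ _ => Nat.zero_le _)
      (fun f => ∑ i ∈ R, ‖pair f (u i)‖) (by simp) (fun f g => by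
        rw [← sum_add_distrib]; exact sum_le_sum fun i _ => norm_pair_add_le _ _ _)
      (L := a * (R.card + cum c) + cum c * (6 * (cum c + 1) ^ d)) (by positivity)
      fun l hl k hk => by
        refine (node_bound hs ha0 (fun f hf T' _ => ih f hf T')
          (((h1 l hl).br.node k).indicator (h1 l hl).conn)).trans ?_
        have : (len ((σ l).c k) : ℝ) ≤ cum c := by exact_mod_cast len_le_cum (mem_filter.1 hk).2
        have := wt_pos ((σ l).c k)
        change _ ≤ _ / (wt ((σ l).c k) : ℝ)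
        gcongr
    have a3 : ∑ i ∈ R, ‖pair (∑ l ∈ T, ε l • (σ l).fn) (u i)‖ ≤
        ∑ i ∈ R, (∑ l ∈ T, ‖pair ((σ l).cut (· < c)).fn (u i)‖ +
          ‖pair (∑ l ∈ T, ε l • ((σ l).cut fun j => ¬ j < c).fn) (u i)‖) := by
      refine sum_le_sum fun i _ => ?_
      rw [sum_congr rfl fun l _ => by rw [(σ l).fn_cut (· < c), smul_add], sum_add_distrib]
      exact (norm_pair_add_le _ _ _).trans (add_le_add_left (norm_pair_signs _ _ h4 _) _)
    rw [sum_add_distrib, sum_comm] at a3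
    have a4 : ((1 : ℝ) / 2) ^ (d + 1) + 18 / wt c = a / 2 + 9 / wt c := by rw [ha]; ring
    rw [a4, pow_succ (cum c + 1 : ℝ)]
    rw [show (2 : ℝ) / wt 0 = 1 / 2 by norm_num [wt]] at a2
    nlinarith [mul_le_mul_of_nonneg_right ha6 hν', mul_le_mul_of_nonneg_left hν hν']

theorem Supply.exists_exact [Nonempty Ω] (S : Supply 𝕜 Ω) (a c : ℕ) :
    ∃ w b, a < b ∧ Node (W Ω) c w ∧ ∃ y ∈ S.V a b, (∀ γ, w γ ≠ 0 → γ ∈ hull y) ∧
      1 ≤ ‖pair w y‖ ∧ N y ≤ 40 := by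
  have hm := wt_pos c
  obtain ⟨u, j, -, h1, hs, hV⟩ := S.seq a (0 : ℕ) (fun j y j' => j < j' ∧ N y = 1 ∧
    (∃ q, Avg q y ∧ Small q (1 / ((j + 1) * wt c)) y) ∧
      ∀ p > j', l1 y * (2 / wt p) ≤ 1 / wt c) fun a j => by
    obtain ⟨b, hb, y, hy, h⟩ := S.exists_small a (θ := 1 / ((j + 1) * wt c)) (by positivity)
    obtain ⟨n, hn⟩ := eventually_atTop.1 (eventually_tiny (l1 y) (one_div_pos.2 hm))
    exact ⟨b, hb, y, hy, max n (j + 1), by simp, h.1, h.2,
      fun p hp => hn p ((le_max_left _ _).trans hp.le)⟩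
  have h2 := upper_est (strictMono_nat_of_lt_succ fun i => (h1 i).1) hs (fun i => (h1 i).2) (c + 2)
  choose f hf hf' using fun i => exists_norming (u i) (r := 1 / 2) (by rw [(h1 i).2.1]; norm_num)
  have hθ : ∀ i, ∃ θ : 𝕜, ‖θ‖ = 1 ∧ θ * pair (f i) (u i) = (‖pair (f i) (u i)‖ : ℝ) := fun i => by
    have h0 : pair (f i) (u i) ≠ 0 := norm_pos_iff.1 (lt_trans (by norm_num) (hf' i))
    exact ⟨(‖pair (f i) (u i)‖ : ℝ) / pair (f i) (u i), by simp [h0], div_mul_cancel₀ _ h0⟩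
  choose θ hθ hθ' using hθ
  obtain ⟨b, hb, hV⟩ := hV (len c)
  have hn : (0 : ℝ) < len c := by exact_mod_cast len_pos c
  let y : Ω →₀ 𝕜 := ((2 * wt c / len c : ℝ) : 𝕜) • ∑ i ∈ range (len c), θ i • u i
  refine ⟨(hull y).indicator ((1 / wt c : ℚ) • ∑ r ∈ range (len c), (hull (u r)).indicator (f r)),
    b, hb, Node.indicator ⟨_, fun r => indicator_mem_W (hf r) (hull_conn _), fun r r' h a b ha hb =>
      (hs r r' h).hull_lt (ne_of_ind ha).1 (ne_of_ind hb).1, rfl⟩ (hull_conn _), y,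
    Submodule.smul_mem _ _ (Submodule.sum_mem _ fun i hi => Submodule.smul_mem _ _
      (hV i (mem_range.1 hi))), fun γ h => (ne_of_ind h).1, ?_, N_le fun g hg => ?_⟩
  · rw [pair_congr fun γ h => Set.indicator_of_mem (mem_hull h) _, pair_smul, map_smul, pair_sum,
      sum_congr rfl fun r hr => by rw [← pair_rs, rs_hull_sum hs _ hr, map_smul, smul_eq_mul, hθ'],
      ← RCLike.ofReal_sum, smul_eq_mul, ← RCLike.ofReal_mul, ← RCLike.ofReal_ratCast,
      ← RCLike.ofReal_mul, RCLike.norm_ofReal]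
    refine le_trans ?_ (le_abs_self _)
    have := card_nsmul_le_sum (range (len c)) _ _ fun i _ => (hf' i).le
    rw [card_range, nsmul_eq_mul] at this
    push_cast
    rw [← mul_assoc, show (1 : ℝ) / wt c * (2 * wt c / len c) = 2 / len c by field_simp,
      div_mul_eq_mul_div, le_div_iff₀ hn]
    linarith
  · rw [map_smul, norm_smul, RCLike.norm_ofReal, abs_of_pos (by positivity), map_sum]
    have h3 : ‖∑ i ∈ range (len c), pair g (θ i • u i)‖ ≤ ∑ i ∈ range (len c), ‖pair g (u i)‖ :=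
      (norm_sum_le _ _).trans (sum_le_sum fun i _ => by rw [map_smul, norm_smul, hθ, one_mul])
    have h4 := h3.trans (h2 g hg _)
    have h5 : 6 * (cum c + 1 : ℝ) ^ (c + 2) * wt c ≤ len c := by exact_mod_cast len_large c
    have h6 : ((1 : ℝ) / 2) ^ (c + 2) = 1 / wt c := by simp [wt]
    rw [card_range, h6] at h4
    rw [div_mul_eq_mul_div, div_le_iff₀ hn]
    have h7 := mul_le_mul_of_nonneg_left h4 hm.le
    rw [mul_add, ← mul_assoc, show wt c * (1 / wt c + 18 / wt c : ℝ) = 19 by field_simp; ring]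
      at h7
    linarith

theorem Supply.exists_dep [Nonempty Ω] (S : Supply 𝕜 Ω) {c₀ : ℕ} (h0 : 1 ≤ c₀)
    (h0' : (dec c₀).1 = []) (d : ℕ → ℕ) : ∃ (w : ℕ → Ω → ℚ) (c pos : ℕ → ℕ) (y : ℕ → Ω →₀ 𝕜),
      IsBr (W Ω) w c ∧ c 0 = c₀ ∧ (∀ k, c (k + 1) ≠ d k) ∧ StrictMono pos ∧
      ∀ k, y k ∈ S.V (pos k) (pos (k + 1)) ∧ (∀ γ, w k γ ≠ 0 → γ ∈ hull (y k)) ∧
        1 ≤ ‖pair (w k) (y k)‖ ∧ N (y k) ≤ 40 := by
  obtain ⟨w, c, pos, h1, h2, -, h3, h4⟩ := exists_branch _ S.exists_exact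
    (fun a c w b h => ⟨h.2.1, h.1.le⟩) (fun a c w b a' c' w' b' ⟨_, _, y, hy, h, _⟩
      ⟨_, _, y', hy', h', _⟩ hb α β hα hβ => (S.succ hb hy hy').hull_lt (h α hα) (h' β hβ)) h0 h0' d
  choose y hy using fun k => (h3 k).2.2
  exact ⟨w, c, pos, y, h1, h2, h4, strictMono_nat_of_lt_succ fun k => (h3 k).1, hy⟩

end Vale.Agent.P129
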