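import Mathlib.Analysis.InnerProductSpace.PiL2
import Mathlib.Analysis.Normed.Module.FiniteDimension
import Mathlib.Analysis.Normed.Module.Dual
import Mathlib.Analysis.RCLike.Lemmas
import Mathlib.Analysis.InnerProductSpace.Dual

/-! The Dvoretzky-Rogers lemma. -/

namespace Vale.Agent.P129

open Module

variable {𝕜 E : Type*} [RCLike 𝕜] [NormedAddCommGroup E] [NormedSpace 𝕜 E]

theorem exists_max_det {H : Type*} [NormedAddCommGroup H] [NormedSpace 𝕜 H]
    [FiniteDimensional 𝕜 H] (J : H →L[𝕜] E) (hJ : Function.Injective J) :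
    ∃ A : H →L[𝕜] H, ‖J.comp A‖ ≤ 1 ∧ A.det ≠ 0 ∧
      ∀ B : H →L[𝕜] H, ‖J.comp B‖ ≤ 1 → ‖B.det‖ ≤ ‖A.det‖ := by
  obtain ⟨K, -, hK⟩ := (J : H →ₗ[𝕜] E).exists_antilipschitzWith (LinearMap.ker_eq_bot.2 hJ)
  have : ProperSpace (H →L[𝕜] H) := FiniteDimensional.proper_rclike 𝕜 _
  have hc : IsCompact {B : H →L[𝕜] H | ‖J.comp B‖ ≤ 1} := by
    refine Metric.isCompact_of_isClosed_isBounded (isClosed_le (by fun_prop) continuous_const) ?_
    refine (Metric.isBounded_closedBall (x := 0) (r := K)).subset fun B hB => ?_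
    rw [mem_closedBall_zero_iff]
    refine ContinuousLinearMap.opNorm_le_bound _ K.2 fun x => ?_
    have h1 := hK.le_mul_dist (B x) 0
    simp only [dist_zero_right, map_zero, ContinuousLinearMap.coe_coe] at h1
    have h2 := (J.comp B).le_of_opNorm_le hB x
    simp only [ContinuousLinearMap.comp_apply, one_mul] at h2
    exact h1.trans (mul_le_mul_of_nonneg_left h2 K.2)
  have hm : (((‖J‖ + 1)⁻¹ : ℝ) : 𝕜) • ContinuousLinearMap.id 𝕜 H ∈
      {B : H →L[𝕜] H | ‖J.comp B‖ ≤ 1} := by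
    simp only [Set.mem_ofPred_eq, ContinuousLinearMap.comp_smul, ContinuousLinearMap.comp_id,
      norm_smul, RCLike.norm_ofReal]
    rw [abs_of_pos (by positivity), inv_mul_le_iff₀ (by positivity)]
    linarith
  obtain ⟨A, hA, hmax⟩ := hc.exists_isMaxOn ⟨_, hm⟩
    (ContinuousLinearMap.continuous_det.norm.continuousOn)
  refine ⟨A, hA, fun h0 => ?_, fun B hB => hmax hB⟩
  have := hmax hm
  simp only [Set.mem_ofPred_eq, h0, norm_zero, norm_le_zero_iff, ContinuousLinearMap.det,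
    ContinuousLinearMap.toLinearMap_smul, LinearMap.det_smul, ContinuousLinearMap.coe_id,
    LinearMap.det_id, mul_one] at this
  have h2 : (((‖J‖ + 1)⁻¹ : ℝ) : 𝕜) ≠ 0 := by
    rw [RCLike.ofReal_ne_zero]; positivity
  exact pow_ne_zero _ h2 this

theorem exists_orth_large {N : ℕ} (T : EuclideanSpace 𝕜 (Fin (2 * N)) →L[𝕜] E) (hT : ‖T‖ ≤ 1)
    (hmax : ∀ S : EuclideanSpace 𝕜 (Fin (2 * N)) →L[𝕜] EuclideanSpace 𝕜 (Fin (2 * N)),
      ‖T.comp S‖ ≤ 1 → ‖S.det‖ ≤ 1) {k : ℕ} (hk : k < N)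
    (b : OrthonormalBasis (Fin (2 * N)) 𝕜 (EuclideanSpace 𝕜 (Fin (2 * N)))) :
    ∃ c, ‖c‖ = 1 ∧ (∀ i : Fin (2 * N), i.1 < k → inner 𝕜 (b i) c = 0) ∧ 1 / 4 ≤ ‖T c‖ := by
  by_contra hn
  push Not at hn
  let P : EuclideanSpace 𝕜 (Fin (2 * N)) →L[𝕜] EuclideanSpace 𝕜 (Fin (2 * N)) :=
    ∑ i with k ≤ i.1, (innerSL 𝕜 (b i)).smulRight (b i)
  have hP : ∀ c, P c = ∑ i with k ≤ i.1, inner 𝕜 (b i) c • b i := fun c => by simp [P]
  have hPi : ∀ c i, inner 𝕜 (b i) (P c) = if k ≤ i.1 then inner 𝕜 (b i) c else 0 := by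
    intro c i
    simp [hP, inner_sum, inner_smul_right, orthonormal_iff_ite.1 b.orthonormal]
  have hPn : ∀ c, ‖P c‖ ≤ ‖c‖ := by
    intro c
    refine abs_le_of_sq_le_sq' ?_ (norm_nonneg _) |>.2
    rw [← b.sum_sq_norm_inner_right, ← b.sum_sq_norm_inner_right]
    refine Finset.sum_le_sum fun i _ => ?_
    rw [hPi]
    split_ifs
    · exact le_rfl
    · simp
  have hTP : ∀ c, ‖T (P c)‖ ≤ 1 / 4 * ‖c‖ := by
    intro c
    by_cases h0 : P c = 0
    · simp [h0]
    have hpos : 0 < ‖P c‖ := norm_pos_iff.2 h0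
    have := hn (((‖P c‖⁻¹ : ℝ) : 𝕜) • P c) (by simp [norm_smul, hpos.ne']) (fun i hi => by
      rw [inner_smul_right, hPi, if_neg (by omega), mul_zero])
    rw [map_smul, norm_smul, RCLike.norm_ofReal, abs_of_pos (by positivity),
      inv_mul_lt_iff₀ hpos] at this
    nlinarith [hPn c]
  let S := ((4 / 5 : ℝ) : 𝕜) • (ContinuousLinearMap.id 𝕜 _ + P)
  have hS : ‖T.comp S‖ ≤ 1 := by
    refine ContinuousLinearMap.opNorm_le_bound _ zero_le_one fun c => ?_
    simp only [S, ContinuousLinearMap.comp_apply, smul_apply, add_apply,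
      ContinuousLinearMap.id_apply, map_smul, map_add, norm_smul, RCLike.norm_ofReal]
    have h1 := T.le_of_opNorm_le hT c
    have h2 := norm_add_le (T c) (T (P c))
    have h3 := hTP c
    rw [abs_of_pos (by norm_num)]
    linarith
  have hdet : S.det = ∏ i : Fin (2 * N), (((if k ≤ i.1 then 8 / 5 else 4 / 5 : ℝ)) : 𝕜) := by
    rw [ContinuousLinearMap.det, ← LinearMap.det_toMatrix b.toBasis, ← Matrix.det_diagonal]
    congr 1
    ext i j
    rw [LinearMap.toMatrix_apply, OrthonormalBasis.coe_toBasis_repr_apply,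
      OrthonormalBasis.repr_apply_apply, OrthonormalBasis.coe_toBasis, Matrix.diagonal_apply]
    simp only [S, ContinuousLinearMap.coe_coe, smul_apply, add_apply, ContinuousLinearMap.id_apply,
      inner_smul_right, inner_add_right, hPi, orthonormal_iff_ite.1 b.orthonormal]
    split_ifs <;> push_cast <;> norm_num
  have h1 := hmax S hS
  rw [hdet, norm_prod] at h1
  have h2 : ∏ i : Fin (2 * N), ‖(((if k ≤ i.1 then 8 / 5 else 4 / 5 : ℝ)) : 𝕜)‖ =
      ∏ i ∈ Finset.range (2 * N), (if k ≤ i then 8 / 5 else 4 / 5 : ℝ) := by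
    rw [← Fin.prod_univ_eq_prod_range (fun i => (if k ≤ i then 8 / 5 else 4 / 5 : ℝ))]
    refine Finset.prod_congr rfl fun i _ => ?_
    rw [RCLike.norm_ofReal, abs_of_pos]
    split_ifs <;> norm_num
  obtain ⟨d, hd⟩ : ∃ d, 2 * N = k + (k + (d + 1)) := ⟨2 * N - 2 * k - 1, by omega⟩
  rw [h2, hd, Finset.prod_range_add, Finset.prod_congr rfl (g := fun _ => (4 / 5 : ℝ))
    (fun i hi => if_neg (by simpa using hi)),
    Finset.prod_congr rfl (g := fun _ => (8 / 5 : ℝ)) (fun i _ => if_pos (by omega))] at h1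
  simp only [Finset.prod_const, Finset.card_range] at h1
  rw [pow_add, ← mul_assoc, ← mul_pow] at h1
  have h3 : (1 : ℝ) ≤ (4 / 5 * (8 / 5)) ^ k := one_le_pow₀ (by norm_num)
  have h4 : (1 : ℝ) < (8 / 5) ^ (d + 1) := one_lt_pow₀ (by norm_num) (by omega)
  nlinarith

theorem dvoretzky_rogers (hE : ¬ FiniteDimensional 𝕜 E) (N : ℕ) :
    ∃ f : Fin N → E, (∀ i, ‖f i‖ = 1) ∧
      ∀ φ : StrongDual 𝕜 E, ∑ i, ‖φ (f i)‖ ^ 2 ≤ 16 * ‖φ‖ ^ 2 := by
  obtain ⟨e, he⟩ : ∃ e : Fin (2 * N) → E, LinearIndependent 𝕜 e :=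
    exists_linearIndependent_of_le_rank (by
      by_contra h
      exact hE (Module.rank_lt_aleph0_iff.1 ((not_le.1 h).trans Cardinal.natCast_lt_aleph0)))
  let J : EuclideanSpace 𝕜 (Fin (2 * N)) →L[𝕜] E := LinearMap.toContinuousLinearMap
    ((Fintype.linearCombination 𝕜 e).comp (WithLp.linearEquiv 2 𝕜 _).toLinearMap)
  have hJ : Function.Injective J :=
    he.fintypeLinearCombination_injective.comp (WithLp.linearEquiv 2 𝕜 _).injective
  obtain ⟨A, hA, hA0, hmax⟩ := exists_max_det J hJ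
  have hmax' : ∀ S : EuclideanSpace 𝕜 (Fin (2 * N)) →L[𝕜] EuclideanSpace 𝕜 (Fin (2 * N)),
      ‖(J.comp A).comp S‖ ≤ 1 → ‖S.det‖ ≤ 1 := by
    intro S hS
    have := hmax (A.comp S) hS
    rw [ContinuousLinearMap.det, ContinuousLinearMap.toLinearMap_comp, LinearMap.det_comp,
      norm_mul] at this
    exact (mul_le_iff_le_one_right (norm_pos_iff.2 hA0)).1 this
  have key : ∀ k ≤ N, ∃ v : Fin (2 * N) → EuclideanSpace 𝕜 (Fin (2 * N)),
      Orthonormal 𝕜 ({i : Fin (2 * N) | i.1 < k}.domRestrict v) ∧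
        ∀ i, i.1 < k → 1 / 4 ≤ ‖J.comp A (v i)‖ := by
    intro k
    induction k with
    | zero => exact fun _ => ⟨0, by simp, by simp⟩
    | succ k ih =>
      intro hk
      obtain ⟨v, hv, hv'⟩ := ih (by omega)
      obtain ⟨b, hb⟩ := hv.exists_orthonormalBasis_extension_of_card_eq (by simp)
      obtain ⟨c, hc1, hc2, hc3⟩ := exists_orth_large _ hA hmax' (k := k) (by omega) b
      refine ⟨fun i => if i.1 < k then b i else c, ?_, fun i hi => ?_⟩
      · rw [orthonormal_iff_ite]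
        rintro ⟨i, hi⟩ ⟨j, hj⟩
        simp only [Set.mem_ofPred_eq] at hi hj
        simp only [Set.domRestrict_apply, Subtype.mk.injEq, Fin.ext_iff]
        split_ifs with h1 h2 h3 h4 h5 h6 h7
        · rw [orthonormal_iff_ite.1 b.orthonormal, if_pos (Fin.ext h3)]
        · rw [orthonormal_iff_ite.1 b.orthonormal, if_neg fun h => h3 (by rw [h])]
        · omega
        · exact hc2 i h1
        · omega
        · rw [← inner_conj_symm, hc2 j h5, map_zero]
        · rw [inner_self_eq_norm_sq_to_K, hc1]; simp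
        · omega
      · dsimp only
        split_ifs with h
        · rw [hb i h]; exact hv' i h
        · exact hc3
  obtain ⟨v, hv, hv'⟩ := key N le_rfl
  let ι : Fin N → {i : Fin (2 * N) | i.1 < N} := fun i => ⟨⟨i, by omega⟩, i.2⟩
  have hι : Function.Injective ι := fun i j h => by simpa [ι, Fin.ext_iff] using h
  have hu := hv.comp ι hι
  set T := J.comp A
  have hpos : ∀ i, 1 / 4 ≤ ‖T (v (ι i))‖ := fun i => hv' _ (ι i).2
  refine ⟨fun i => ((‖T (v (ι i))‖⁻¹ : ℝ) : 𝕜) • T (v (ι i)), fun i => ?_, fun φ => ?_⟩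
  · have := hpos i
    rw [norm_smul, RCLike.norm_ofReal, abs_of_pos (by positivity), inv_mul_cancel₀ (by linarith)]
  · let w := (InnerProductSpace.toDual 𝕜 _).symm (φ.comp T)
    have hw : ‖w‖ ≤ ‖φ‖ := by
      rw [LinearIsometryEquiv.norm_map]
      exact (φ.opNorm_comp_le T).trans (mul_le_of_le_one_right (norm_nonneg _) hA)
    have h1 := hu.sum_inner_products_le w (s := Finset.univ)
    calc _ ≤ ∑ i, 16 * ‖inner 𝕜 (v (ι i)) w‖ ^ 2 := Finset.sum_le_sum fun i _ => ?_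
      _ ≤ 16 * ‖w‖ ^ 2 := by
        rw [← Finset.mul_sum]; exact mul_le_mul_of_nonneg_left h1 (by norm_num)
      _ ≤ _ := by gcongr
    have := hpos i
    rw [map_smul, norm_smul, RCLike.norm_ofReal, abs_of_pos (by positivity), norm_inner_symm,
      InnerProductSpace.toDual_symm_apply, mul_pow]
    refine mul_le_mul_of_nonneg_right ?_ (by positivity)
    rw [inv_pow, inv_le_comm₀ (by positivity) (by norm_num)]
    nlinarith

end Vale.Agent.P129
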