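import Vale.Agent.P129.Crit
import Vale.Agent.P129.DR
import Mathlib.Analysis.Normed.Module.DoubleDual
import Mathlib.MeasureTheory.Measure.Prod
import Mathlib.MeasureTheory.Measure.Regular
import Mathlib.MeasureTheory.OuterMeasure.BorelCantelli
import Mathlib.MeasureTheory.Constructions.BorelSpace.Real
import Mathlib.MeasureTheory.Measure.Typeclasses.Probability

/-! Random selection of functionals and infinite free sets for null-set mappings. -/

namespace Vale.Agent.P129

open Filter Topology TopologicalSpace MeasureTheory Set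
open scoped ENNReal

theorem exists_small_cover (P : Measure ℝ) [IsFiniteMeasure P] (hP : ∀ x, P {x} = 0) {η : ℝ≥0∞}
    (hη : 0 < η) : ∃ (M : ℕ) (U : Fin M → Set ℝ), (∀ i, P (U i) ≤ η) ∧ ∀ x, ∃ i, x ∈ U i := by
  have h1 : ∀ x, ∃ U, IsOpen U ∧ x ∈ U ∧ P U ≤ η := fun x => by
    obtain ⟨U, hU, hUo, hUP⟩ := Set.exists_isOpen_lt_of_lt (μ := P) {x} η (by rwa [hP])
    exact ⟨U, hUo, hU rfl, hUP.le⟩
  choose U hUo hxU hUP using h1
  obtain ⟨K, -, hK, hKP⟩ := MeasurableSet.univ.exists_isCompact_sdiff_lt (μ := P)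
    (measure_ne_top _ _) hη.ne'
  obtain ⟨t, ht⟩ := hK.elim_finite_subcover U hUo fun x _ => mem_iUnion.2 ⟨x, hxU x⟩
  let e := t.equivFin
  refine ⟨t.card + 1, Fin.cons (univ \ K) fun i => U (e.symm i), fun i => ?_, fun x => ?_⟩
  · refine Fin.cases ?_ (fun i => ?_) i
    · exact hKP.le
    · exact hUP _
  · by_cases hx : x ∈ K
    · obtain ⟨y, hy, hxy⟩ := mem_iUnion₂.1 (ht hx)
      exact ⟨(e ⟨y, hy⟩).succ, by simpa using hxy⟩
    · exact ⟨0, by simpa using hx⟩

variable {𝕜 X : Type*} [RCLike 𝕜] [NormedAddCommGroup X] [NormedSpace 𝕜 X]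

theorem dual_infinite (hX : ¬ FiniteDimensional 𝕜 X) : ¬ FiniteDimensional 𝕜 (StrongDual 𝕜 X) :=
  fun _ => hX (FiniteDimensional.of_injective
    (NormedSpace.inclusionInDoubleDualLi 𝕜 (E := X)).toLinearMap
    (NormedSpace.inclusionInDoubleDualLi 𝕜 (E := X)).injective)

/-- A random normalized sequence of functionals which is almost surely summable at each point. -/
theorem exists_random_seq (hX : ¬ FiniteDimensional 𝕜 X) (P : Measure ℝ) [IsFiniteMeasure P]
    (hP : ∀ x, P {x} = 0) : ∃ g : ℝ → ℕ → StrongDual 𝕜 X, (∀ ω k, ‖g ω k‖ = 1) ∧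
      ∀ x, P {ω | ¬ Summable fun k => ‖g ω k x‖} = 0 := by
  choose M U hU hcov using fun k : ℕ => exists_small_cover P hP
    (η := ENNReal.ofReal ((1 / 8) ^ k)) (by simp)
  choose i hi using hcov
  choose f hf hf' using fun k => dvoretzky_rogers (dual_infinite hX) (M k)
  refine ⟨fun ω k => f k (i k ω), fun ω k => hf _ _, fun x => ?_⟩
  have h1 : ∀ k, P {ω | (1 / 2) ^ k < ‖f k (i k ω) x‖} ≤
      ENNReal.ofReal (16 * ‖x‖ ^ 2 * (1 / 2) ^ k) := by
    intro k
    let B : Finset (Fin (M k)) := {j | (1 / 2) ^ k < ‖f k j x‖}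
    have hB : (B.card : ℝ) * (1 / 4) ^ k ≤ 16 * ‖x‖ ^ 2 := by
      have h2 := hf' k (NormedSpace.inclusionInDoubleDualLi 𝕜 x)
      rw [LinearIsometry.norm_map] at h2
      refine le_trans ?_ h2
      calc (B.card : ℝ) * (1 / 4) ^ k = ∑ j ∈ B, (1 / 4) ^ k := by simp
        _ ≤ ∑ j ∈ B, ‖f k j x‖ ^ 2 := Finset.sum_le_sum fun j hj => by
          have : (1 / 2) ^ k < ‖f k j x‖ := by simpa [B] using hj
          calc (1 / 4 : ℝ) ^ k = ((1 / 2) ^ k) ^ 2 := by rw [← pow_mul, mul_comm, pow_mul]; norm_num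
            _ ≤ _ := by gcongr
        _ ≤ _ := Finset.sum_le_sum_of_subset_of_nonneg (Finset.subset_univ _)
          fun _ _ _ => by positivity
    calc _ ≤ P (⋃ j ∈ B, U k j) := measure_mono fun ω hω =>
          mem_iUnion₂.2 ⟨i k ω, by simpa [B] using hω, hi k ω⟩
      _ ≤ ∑ j ∈ B, P (U k j) := measure_biUnion_finset_le _ _
      _ ≤ ∑ j ∈ B, ENNReal.ofReal ((1 / 8) ^ k) := Finset.sum_le_sum fun j _ => hU k j
      _ = ENNReal.ofReal (B.card * (1 / 8) ^ k) := by
        rw [Finset.sum_const, nsmul_eq_mul, ENNReal.ofReal_mul (by positivity)]; simp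
      _ ≤ _ := ENNReal.ofReal_le_ofReal (by
        have : (1 / 8 : ℝ) ^ k = (1 / 4) ^ k * (1 / 2) ^ k := by rw [← mul_pow]; norm_num
        rw [this, ← mul_assoc]
        gcongr)
  have h2 : ∑' k, P {ω | (1 / 2) ^ k < ‖f k (i k ω) x‖} ≠ ∞ := by
    refine ne_top_of_le_ne_top ?_ (ENNReal.tsum_le_tsum h1)
    rw [← ENNReal.ofReal_tsum_of_nonneg (fun _ => by positivity)
      (summable_geometric_two.mul_left _)]
    exact ENNReal.ofReal_ne_top
  have h3 := ae_eventually_notMem h2
  rw [← compl_mem_ae_iff]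
  filter_upwards [h3] with ω h
  rw [mem_compl_iff, mem_ofPred_eq, not_not]
  refine Summable.of_norm_bounded_eventually_nat summable_geometric_two ?_
  filter_upwards [h] with k hk
  simpa using hk

section Free

variable {T : Type*} [MeasurableSpace T] [DiscreteMeasurableSpace T] (ν : Measure T)
  [IsProbabilityMeasure ν] (P : Measure ℝ) [IsFiniteMeasure P]

theorem null_swap {B : T → Set ℝ} (hB : ∀ t, P (B t) = 0) :
    ∀ᵐ x ∂P, ∀ᵐ t ∂ν, x ∉ B t := by
  have h1 : ∀ (n : ℕ) t, ∃ U, B t ⊆ U ∧ IsOpen U ∧ P U < (n : ℝ≥0∞)⁻¹ := fun n t =>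
    Set.exists_isOpen_lt_of_lt _ _ (by rw [hB]; simp)
  choose U hBU hUo hUP using h1
  have hm : MeasurableSet {p : ℝ × T | ¬ ∀ n, p.1 ∈ U n p.2} := by
    have e : {p : ℝ × T | ¬ ∀ n, p.1 ∈ U n p.2} =
        (⋂ n, ⋃ V ∈ countableBasis ℝ, V ×ˢ {t | V ⊆ U n t})ᶜ := by
      ext p
      simp only [mem_ofPred_eq, mem_compl_iff, mem_iInter, mem_iUnion, mem_prod, exists_prop]
      refine not_congr (forall_congr' fun n => ⟨fun h => ?_, fun ⟨V, _, h1, h2⟩ => h2 h1⟩)
      exact (isBasis_countableBasis ℝ).exists_subset_of_mem_open h (hUo n p.2)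
    rw [e]
    exact (MeasurableSet.iInter fun n => MeasurableSet.biUnion (countable_countableBasis ℝ)
      fun V hV => (isOpen_of_mem_countableBasis hV).measurableSet.prod
        MeasurableSet.of_discrete).compl
  have h2 : ∀ᵐ t ∂ν, ∀ᵐ x ∂P, ¬ ∀ n, x ∈ U n t := by
    refine Eventually.of_forall fun t => ?_
    rw [ae_iff]
    simp only [not_not]
    refine le_antisymm (le_of_forall_gt_imp_ge_of_dense fun a ha => ?_) bot_le
    obtain ⟨n, hn⟩ := ENNReal.exists_inv_nat_lt ha.ne'
    exact (measure_mono (t := U n t) fun x (hx : ∀ n, x ∈ U n t) => hx n).trans ((hUP n t).le.trans hn.le)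
  filter_upwards [(Measure.ae_ae_comm hm).2 h2] with x hx
  filter_upwards [hx] with t ht h
  exact ht fun n => hBU n t h

/-- Iterated almost-everywhere quantifier over the positions `k, …, k + m - 1`. -/
def AE : ℕ → ℕ → ((ℕ → T) → Prop) → (ℕ → T) → Prop
  | _, 0, φ, w => φ w
  | k, m + 1, φ, w => ∀ᵐ y ∂ν, AE (k + 1) m φ (Function.update w k y)

theorem exists_free (ι : T → ℝ) (hι : ∀ S, P S = 0 → ∀ᵐ t ∂ν, ι t ∉ S)
    (F : (A : Finset ℕ) → (A → T) → Set ℝ) (hF : ∀ A w, P (F A w) = 0) :
    ∃ s : ℕ → T, ∀ (A : Finset ℕ) j, j ∉ A → ι (s j) ∉ F A fun i => s i := by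
  -- the coordinate `j` is replaced by a free real variable
  have h1 : ∀ (A : Finset ℕ) m k w, ∀ᵐ x ∂P, AE ν k m (fun w' => x ∉ F A fun i => w' i) w := by
    intro A m
    induction m with
    | zero => intro k w; exact measure_eq_zero_iff_ae_notMem.1 (hF A _)
    | succ m ih =>
      intro k w
      have := null_swap ν P (B := fun t => {x | ¬ AE ν (k + 1) m
        (fun w' => x ∉ F A fun i => w' i) (Function.update w k t)}) fun t => ih _ _
      filter_upwards [this] with x hx
      filter_upwards [hx] with t ht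
      exact not_not.1 ht
  have h2 : ∀ (A : Finset ℕ) j, j ∉ A → ∀ y m k w, j < k →
      AE ν k m (fun w' => ι y ∉ F A fun i => w' i) w →
      AE ν k m (fun w' => ι (w' j) ∉ F A fun i => w' i) (Function.update w j y) := by
    intro A j hj y m
    induction m with
    | zero =>
      intro k w _ h
      simp only [AE, Function.update_self] at h ⊢
      have : (fun i : A => Function.update w j y i) = fun i : A => w i := by
        funext i
        exact Function.update_of_ne (fun h : (i : ℕ) = j => hj (h ▸ i.2)) _ _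
      rwa [this]
    | succ m ih =>
      intro k w hk h
      filter_upwards [h] with t ht
      rw [Function.update_comm hk.ne]
      exact ih _ _ (by omega) ht
  have h3 : ∀ (A : Finset ℕ) j, j ∉ A → ∀ m k w, k ≤ j → j < k + m →
      AE ν k m (fun w' => ι (w' j) ∉ F A fun i => w' i) w := by
    intro A j hj m
    induction m with
    | zero => intro k w h1 h2; omega
    | succ m ih =>
      intro k w hk hm
      rcases hk.lt_or_eq with hk | rfl
      · exact Eventually.of_forall fun y => ih _ _ hk (by omega)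
      · filter_upwards [hι _ (h1 A m (k + 1) w)] with y hy
        exact h2 A k hj y m _ _ (by omega) (not_not.1 hy)
  let Good : ℕ → (ℕ → T) → Prop := fun k w => ∀ (A : Finset ℕ) j, j ∉ A → ∀ m, j < k + m →
    AE ν k m (fun w' => ι (w' j) ∉ F A fun i => w' i) w
  have h4 : ∀ k w, ∃ y, Good k w → Good (k + 1) (Function.update w k y) := by
    intro k w
    have : ∀ᵐ y ∂ν, Good k w → Good (k + 1) (Function.update w k y) := by
      by_cases hg : Good k w
      · have : ∀ᵐ y ∂ν, ∀ (A : Finset ℕ) j m, j ∉ A → j < k + 1 + m →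
            AE ν (k + 1) m (fun w' => ι (w' j) ∉ F A fun i => w' i) (Function.update w k y) := by
          refine ae_all_iff.2 fun A => ae_all_iff.2 fun j => ae_all_iff.2 fun m => ?_
          by_cases h : j ∉ A ∧ j < k + 1 + m
          · filter_upwards [hg A j h.1 (m + 1) (by omega)] with y hy _ _
            exact hy
          · exact Eventually.of_forall fun y h1 h2 => absurd ⟨h1, h2⟩ h
        filter_upwards [this] with y hy _ A j hj m hm
        exact hy A j m hj hm
      · exact Eventually.of_forall fun y h => absurd h hg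
    exact this.exists
  choose y hy using h4
  obtain ⟨t₀⟩ : Nonempty T := nonempty_of_isProbabilityMeasure ν
  let w : ℕ → ℕ → T := fun k => Nat.rec (fun _ => t₀) (fun k w => Function.update w k (y k w)) k
  have hw : ∀ k, Good k (w k) := by
    intro k
    induction k with
    | zero => exact fun A j hj m hm => h3 A j hj m 0 _ (Nat.zero_le _) hm
    | succ k ih => exact hy k _ ih
  have hs : ∀ k i, i < k → w k i = w (i + 1) i := by
    intro k i hi
    induction k, hi using Nat.le_induction with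
    | base => rfl
    | succ k hk ih =>
      rw [← ih]
      exact Function.update_of_ne (by omega) _ _
  refine ⟨fun i => w (i + 1) i, fun A j hj => ?_⟩
  have := hw (A.sup id + j + 1) A j hj 0 (by omega)
  simp only [AE] at this
  have e : (fun i : A => w (A.sup id + j + 1) i) = fun i : A => w (i + 1) i := by
    funext i
    have : (i : ℕ) ≤ A.sup id := Finset.le_sup (f := id) i.2
    exact hs (A.sup id + j + 1) i (by omega)
  rwa [e, hs (A.sup id + j + 1) j (by omega)] at this

end Free

end Vale.Agent.P129
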