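import Vale.Agent.P129.CHRec
import Vale.Agent.P129.Free
import Mathlib.SetTheory.Cardinal.Continuum
import Mathlib.SetTheory.Cardinal.Finsupp
import Mathlib.Analysis.Real.Cardinality
import Mathlib.Topology.MetricSpace.UniformConvergence

/-! Under the continuum hypothesis there is an infinite-dimensional Banach space without
separable infinite-dimensional quotient. -/

namespace Vale.Agent.P129

open Filter Topology Cardinal

section

variable {𝕜 : Type*} [RCLike 𝕜] {Ω : Type} [LinearOrder Ω]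

theorem exists_bound {Y : Type*} [TopologicalSpace Y] [FrechetUrysohnSpace Y]
    (hb : ∀ s : ℕ → Ω, ∃ γ, ∀ n, s n < γ) {S : Ω → Set Y} (hm : Monotone S)
    (hcl : ∀ γ, IsClosed (S γ)) {A : Set Y} (hA : ∀ y ∈ A, ∃ γ, y ∈ S γ) {y : ℕ → Y}
    (hy : ∀ n, y n ∈ closure A) : ∃ γ, ∀ n, y n ∈ S γ := by
  have h1 : ∀ y : ℕ → Y, (∀ n, ∃ γ, y n ∈ S γ) → ∃ γ, ∀ n, y n ∈ S γ := fun y hy => by
    choose s hs using hy
    obtain ⟨γ, hγ⟩ := hb s
    exact ⟨γ, fun n => hm (hγ n).le (hs n)⟩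
  refine h1 y fun n => ?_
  obtain ⟨u, hu, hu'⟩ := mem_closure_iff_seq_limit.1 (hy n)
  obtain ⟨γ, hγ⟩ := h1 u fun k => hA _ (hu k)
  exact ⟨γ, (hcl γ).mem_of_tendsto hu' (Eventually.of_forall hγ)⟩

theorem exists_indep {V : Type*} [AddCommGroup V] [Module 𝕜 V] (h : ¬ FiniteDimensional 𝕜 V) :
    ∃ v : ℕ → V, LinearIndependent 𝕜 v := by
  let b := Module.Basis.ofVectorSpace 𝕜 V
  have : Infinite (Module.Basis.ofVectorSpaceIndex 𝕜 V) :=
    not_finite_iff_infinite.1 fun _ => h (Module.Finite.of_basis b)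
  exact ⟨_, b.linearIndependent.comp _ (Infinite.natEmbedding _).injective⟩

variable [Clo Ω] {g : Ω → ℕ → G 𝕜 Ω} {D : Ω → Dat 𝕜 Ω}

theorem Sp_mono {L L' : Set Ω} (h : L ⊆ L') : Sp D L ≤ Sp D L' :=
  Submodule.span_mono (Set.image_mono h)

theorem exists_rep' [WellFoundedLT Ω] [Nonempty Ω] (h : ∀ β, Inv g β D (D β))
    (Ψ : StrongDual 𝕜 (Sp D Set.univ).topologicalClosure) : ∃ z, ∀ φ, φ.1 z = Ψ φ := by
  obtain ⟨Φ, hΦ, -⟩ := exists_extension_norm_eq _ Ψ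
  obtain ⟨z, hz⟩ := exists_rep h Φ
  refine ⟨z, fun φ => (hΦ φ) ▸ ?_⟩
  refine closure_minimal (t := {φ | φ z = Φ φ}) (fun φ hφ => ?_)
    (isClosed_eq (by fun_prop) Φ.continuous) φ.2
  exact LinearMap.eqOn_span' (f := (ContinuousLinearMap.apply 𝕜 𝕜 z).toLinearMap)
    (g := Φ.toLinearMap) (by rintro _ ⟨γ, -, rfl⟩; exact hz γ) hφ

theorem infinite_X [Infinite Ω] (h : ∀ β, Inv g β D (D β)) :
    ¬ FiniteDimensional 𝕜 (Sp D Set.univ).topologicalClosure := fun hf => by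
  let T : (Ω →₀ 𝕜) →ₗ[𝕜] Module.Dual 𝕜 (Sp D Set.univ).topologicalClosure :=
    LinearMap.mk₂ 𝕜 (fun z φ => φ.1 (J z)) (by simp) (by simp) (by simp) (by simp)
  have := Subspace.instModuleDualFiniteDimensional (K := 𝕜) (V := (Sp D Set.univ).topologicalClosure)
  have : FiniteDimensional 𝕜 (Ω →₀ 𝕜) := FiniteDimensional.of_injective T
    ((injective_iff_map_eq_zero T).2 fun z hz => by
      have := unique_rep isLowerSet_univ (fun β _ => h β) (P_univ (J z)) fun β _ =>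
        DFunLike.congr_fun hz ⟨_, Submodule.le_topologicalClosure _ (mem_Sp trivial)⟩
      by_contra h0
      exact (N_pos h0).ne' (by rw [← norm_J, this, norm_zero]))
  exact Module.Finite.not_linearIndependent_of_infinite _
    (Finsupp.basisSingleOne (R := 𝕜) (ι := Ω)).linearIndependent

theorem not_sepQuot_abs {E : Type*} [NormedAddCommGroup E] [NormedSpace 𝕜 E]
    (X : Submodule 𝕜 (StrongDual 𝕜 E)) (hrep : ∀ Ψ : StrongDual 𝕜 X, ∃ z, ∀ φ : X, φ.1 z = Ψ φ)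
    (htask : ∀ z : ℕ → E, LinearIndependent 𝕜 z → ∀ d : ℕ → X, ∃ (v : ℕ → E) (C : ℝ) (x : X),
      (∀ j, v j ∈ Submodule.span 𝕜 (Set.range z) ∧ ‖v j‖ ≤ C ∧ 1 / 2 ≤ ‖x.1 (v j)‖) ∧
      ∀ Z : Submodule 𝕜 (StrongDual 𝕜 E), IsClosed (Z : Set (StrongDual 𝕜 E)) →
        (∀ φ, (∀ᶠ j in atTop, φ (v j) = 0) → φ ∈ Z) → ∀ n, (d n).1 ∈ Z) : ¬ HasSepQuot 𝕜 X := by
  rintro ⟨M, hM, hsep, hinf⟩
  obtain ⟨ψ, hψ⟩ := exists_indep (dual_infinite (𝕜 := 𝕜) (X := X ⧸ M) hinf)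
  choose z hz using fun n => hrep ((ψ n).comp M.mkQL)
  have h1 : LinearIndependent 𝕜 z := linearIndependent_iff'.2 fun s a ha =>
    linearIndependent_iff'.1 hψ s a (ContinuousLinearMap.ext fun q => by
      obtain ⟨φ, rfl⟩ := M.mkQ_surjective q
      simpa [hz] using congrArg φ.1 ha)
  obtain ⟨u, hu⟩ := TopologicalSpace.exists_dense_seq (X ⧸ M)
  choose d hd using fun n => M.mkQ_surjective (u n)
  obtain ⟨v, C, x, a1, a2⟩ := htask z h1 d
  let Z : Submodule 𝕜 (StrongDual 𝕜 E) :=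
    { carrier := {φ | Tendsto (fun j => φ (v j)) atTop (𝓝 0)}
      add_mem' := fun b1 b2 => by simpa using Tendsto.add b1 b2
      zero_mem' := tendsto_const_nhds
      smul_mem' := fun a _ b => by simpa using Tendsto.const_mul a b }
  have hC : 0 ≤ C := (norm_nonneg _).trans (a1 0).2.1
  have hZ : IsClosed (Z : Set (StrongDual 𝕜 E)) :=
    (LipschitzWith.uniformEquicontinuous (fun j (φ : StrongDual 𝕜 E) => φ (v j)) ⟨C, hC⟩
      fun j => LipschitzWith.of_dist_le_mul fun φ φ' => by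
        rw [dist_eq_norm, dist_eq_norm, ← sub_apply, mul_comm]
        exact (φ - φ').le_of_opNorm_le_of_le le_rfl (a1 j).2.1).equicontinuous.isClosed_setOfPred_tendsto
      continuous_const
  have b1 := a2 Z hZ fun φ hφ => tendsto_const_nhds.congr' (hφ.mono fun j hj => hj.symm)
  have b2 : ∀ φ ∈ M, φ.1 ∈ Z := fun φ hφ => tendsto_const_nhds.congr fun j =>
    (LinearMap.eqOn_span' (f := φ.1.toLinearMap) (g := 0) (by
      rintro _ ⟨n, rfl⟩
      simp [hz, (Submodule.Quotient.mk_eq_zero M).2 hφ]) (a1 j).1).symm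
  have b3 : x ∈ Subtype.val ⁻¹' (Z : Set (StrongDual 𝕜 E)) := closure_minimal (by
    rintro φ ⟨n, hn⟩
    have := Z.add_mem (b2 _ ((Submodule.Quotient.eq M).1 (hn.symm.trans (hd n).symm))) (b1 n)
    simpa using this) (hZ.preimage continuous_subtype_val)
    (hu.preimage M.isOpenQuotientMap_mkQL.isOpenMap x)
  obtain ⟨j, hj⟩ := (NormedAddGroup.tendsto_nhds_zero.1 b3 (1 / 2) (by norm_num)).exists
  exact hj.not_ge (a1 j).2.2

theorem bound_G [Nonempty Ω] (hb : ∀ s : ℕ → Ω, ∃ γ, ∀ n, s n < γ) (z : ℕ → G 𝕜 Ω) :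
    ∃ γ, ∀ n, P (Set.Iio γ) (z n) = z n :=
  exists_bound hb (S := fun γ => {z : G 𝕜 Ω | P (Set.Iio γ) z = z})
    (fun γ γ' hγ z hz => by
      rw [Set.mem_ofPred_eq, ← hz, P_P Set.ordConnected_Iio Set.ordConnected_Iio,
        Set.inter_eq_right.2 (Set.Iio_subset_Iio hγ)])
    (fun γ => isClosed_eq (P _).continuous continuous_id) (A := Set.range J) (by
      rintro _ ⟨y, rfl⟩
      obtain ⟨s, hs⟩ := Set.countable_iff_exists_subset_range.1 y.support.countable_toSet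
      obtain ⟨γ, hγ⟩ := hb s
      refine ⟨γ, (P_J Set.ordConnected_Iio y).trans (congrArg _ (rs_eq_self fun α hα => ?_))⟩
      obtain ⟨n, rfl⟩ := hs (Finsupp.mem_support_iff.2 hα)
      exact hγ n) fun n => dense_J (z n)

theorem bound_X [Nonempty Ω] (hb : ∀ s : ℕ → Ω, ∃ γ, ∀ n, s n < γ)
    (d : ℕ → (Sp D Set.univ).topologicalClosure) :
    ∃ γ, ∀ n, (d n).1 ∈ closure (Sp D (Set.Iio γ) : Set (StrongDual 𝕜 (G 𝕜 Ω))) :=
  exists_bound hb (S := fun γ => closure (Sp D (Set.Iio γ) : Set (StrongDual 𝕜 (G 𝕜 Ω))))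
    (fun γ γ' hγ => closure_mono (Sp_mono (Set.Iio_subset_Iio hγ))) (fun _ => isClosed_closure)
    (A := Sp D Set.univ) (fun φ hφ => by
      suffices ∃ γ, φ ∈ Sp D (Set.Iio γ) from let ⟨γ, h⟩ := this; ⟨γ, subset_closure (SetLike.mem_coe.2 h)⟩
      induction hφ using Submodule.span_induction with
      | mem φ hφ =>
        obtain ⟨β, -, rfl⟩ := hφ
        exact (hb fun _ => β).imp fun γ hγ => mem_Sp (hγ 0)
      | zero => exact ⟨Classical.arbitrary Ω, zero_mem _⟩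
      | add φ φ' _ _ a1 a2 =>
        obtain ⟨γ, a1⟩ := a1
        obtain ⟨γ', a2⟩ := a2
        exact ⟨max γ γ', add_mem (Sp_mono (Set.Iio_subset_Iio (le_max_left _ _)) a1)
          (Sp_mono (Set.Iio_subset_Iio (le_max_right _ _)) a2)⟩
      | smul a φ _ a1 => exact a1.imp fun γ h => Submodule.smul_mem _ a h) fun n => (d n).2

theorem not_sepQuot [WellFoundedLT Ω] [Nonempty Ω] (hb : ∀ s : ℕ → Ω, ∃ γ, ∀ n, s n < γ)
    (hg : ∀ u γ, ∃ δ ≥ γ, g δ = u) (h : ∀ β, Inv g β D (D β)) :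
    ¬ HasSepQuot 𝕜 (Sp D Set.univ).topologicalClosure := by
  refine not_sepQuot_abs _ (exists_rep' h) fun z h1 d => ?_
  obtain ⟨γ₁, h2⟩ := bound_G hb z
  obtain ⟨γ₂, h3⟩ := bound_X hb d
  obtain ⟨δ, hδ, rfl⟩ := hg z (max γ₁ γ₂)
  obtain ⟨v, C, a1, a2⟩ := (h δ).task (fun _ => Module.Finite.not_linearIndependent_of_infinite _
    (Module.Basis.span h1).linearIndependent) fun n => by
      rw [← h2 n, P_P Set.ordConnected_Iio Set.ordConnected_Iio,
        Set.inter_eq_right.2 (Set.Iio_subset_Iio ((le_max_left _ _).trans hδ))]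
  refine ⟨v, C, ⟨_, Submodule.le_topologicalClosure _ (mem_Sp (Set.mem_univ δ))⟩, a1,
    fun Z hZ hZ' n => closure_minimal (Submodule.span_le.2 ?_) hZ (h3 n)⟩
  rintro _ ⟨β, hβ, rfl⟩
  exact hZ' _ (a2 β (hβ.trans_le ((le_max_right _ _).trans hδ)))

end

theorem mk_G_le {𝕜 : Type} [RCLike 𝕜] {Ω : Type} [LinearOrder Ω] [Clo Ω] [Infinite Ω]
    (h : #Ω ≤ 𝔠) : #(G 𝕜 Ω) ≤ 𝔠 := by
  have h1 : #𝕜 ≤ 𝔠 := by
    simpa [mk_real] using mk_le_of_injective (f := fun x : 𝕜 => (RCLike.re x, RCLike.im x)) fun x y e =>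
      RCLike.ext (congrArg Prod.fst e) (congrArg Prod.snd e)
  choose u hu hu' using fun x : G 𝕜 Ω => mem_closure_iff_seq_limit.1 (dense_J x)
  choose z hz using hu
  refine (mk_le_of_injective (f := z) fun x y e => tendsto_nhds_unique (hu' x) ?_).trans ?_
  · rw [show u x = u y from funext fun n => by rw [← hz, ← hz, e]]
    exact hu' y
  · rw [← power_def, mk_finsupp_of_infinite, mk_nat, ← continuum_power_aleph0]
    exact power_le_power_right (max_le h h1)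

theorem exists_counterexample (CH : (𝔠 : Cardinal.{0}) = ℵ₁) (𝕜 : Type) [RCLike 𝕜] :
    ∃ (X : Type) (_ : NormedAddCommGroup X) (_ : NormedSpace 𝕜 X), CompleteSpace X ∧
      ¬ FiniteDimensional 𝕜 X ∧ ¬ HasSepQuot 𝕜 X := by
  let Ω := (ℵ₁ : Cardinal.{0}).ord.ToType
  have h1 : #Ω = ℵ₁ := mk_ord_toType _
  have hu : Uncountable Ω := aleph0_lt_mk_iff.1 (h1 ▸ aleph0_lt_aleph_one)
  have hc : ∀ δ : Ω, (Set.Iio δ).Countable := fun δ =>
    le_aleph0_iff_set_countable.1 (lt_aleph_one_iff.1 (by simpa [Ω] using mk_Iio_lt δ))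
  have hb : ∀ s : ℕ → Ω, ∃ γ, ∀ n, s n < γ := fun s => by
    by_contra! h
    refine Set.not_countable_univ ((Set.countable_iUnion fun n =>
      (hc (s n)).insert (s n)).mono fun γ _ => ?_)
    obtain ⟨n, hn⟩ := h γ
    exact Set.mem_iUnion.2 ⟨n, hn.eq_or_lt⟩
  obtain ⟨_⟩ := nonempty_clo hc
  obtain ⟨ι⟩ : Nonempty (Ω × (ℕ → G 𝕜 Ω) ↪ Ω) := (le_def _ _).1 (by
    rw [mk_prod, lift_id, lift_id, ← power_def, mk_nat, h1.trans CH.symm]
    refine (mul_le_mul_right (power_le_power_right (mk_G_le (h1.trans CH.symm).le)) _).trans ?_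
    simp)
  obtain ⟨D, hD⟩ := exists_data hc fun δ => (Function.invFun ι δ).2
  refine ⟨_, _, _, inferInstance, infinite_X hD, not_sepQuot hb (fun u γ => ?_) hD⟩
  by_contra! h
  refine Set.not_countable_univ (((hc γ).preimage_of_injOn (f := fun α => ι (α, u))
    fun α _ β _ e => congrArg Prod.fst (ι.injective e)).mono fun α _ => ?_)
  exact not_le.1 fun h' => h _ h' (congrArg Prod.snd (Function.leftInverse_invFun ι.injective (α, u)))

end Vale.Agent.P129
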