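import Vale.Agent.P129.CHW

/-! The norm, lower estimates and averages. -/

namespace Vale.Agent.P129

open Filter Topology Finset
open scoped ENNReal

variable {𝕜 : Type*} [RCLike 𝕜] {Ω : Type}

/-- The duality pairing. -/
noncomputable def pair (f : Ω → ℚ) : (Ω →₀ 𝕜) →ₗ[𝕜] 𝕜 :=
  Finsupp.linearCombination 𝕜 fun α => (f α : 𝕜)

theorem pair_apply (f : Ω → ℚ) (z : Ω →₀ 𝕜) : pair f z = ∑ α ∈ z.support, z α * f α := by
  simp [pair, Finsupp.linearCombination_apply, Finsupp.sum]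

theorem pair_congr {f g : Ω → ℚ} {z : Ω →₀ 𝕜} (h : ∀ α, z α ≠ 0 → f α = g α) :
    pair f z = pair g z := by
  rw [pair_apply, pair_apply]
  exact sum_congr rfl fun α hα => by rw [h α (Finsupp.mem_support_iff.1 hα)]

@[simp] theorem pair_zero (z : Ω →₀ 𝕜) : pair 0 z = 0 := by simp [pair_apply]

theorem pair_eq_zero {f : Ω → ℚ} {z : Ω →₀ 𝕜} (h : ∀ α, z α ≠ 0 → f α = 0) : pair f z = 0 :=
  (pair_congr h).trans (pair_zero z)

theorem pair_add (f g : Ω → ℚ) (z : Ω →₀ 𝕜) : pair (f + g) z = pair f z + pair g z := by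
  simp [pair_apply, mul_add, sum_add_distrib]

theorem pair_smul (q : ℚ) (f : Ω → ℚ) (z : Ω →₀ 𝕜) : pair (q • f) z = q * pair f z := by
  simp [pair_apply, mul_sum, mul_left_comm]

theorem pair_sum {ι : Type*} (T : Finset ι) (f : ι → Ω → ℚ) (z : Ω →₀ 𝕜) :
    pair (∑ l ∈ T, f l) z = ∑ l ∈ T, pair (f l) z := by
  simp only [pair_apply, Finset.sum_apply, Rat.cast_sum, mul_sum]
  exact sum_comm

theorem norm_pair_add_le (z : Ω →₀ 𝕜) (f g : Ω → ℚ) :
    ‖pair (f + g) z‖ ≤ ‖pair f z‖ + ‖pair g z‖ := by rw [pair_add]; exact norm_add_le _ _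

theorem pair_single [DecidableEq Ω] (α : Ω) (q : ℚ) (z : Ω →₀ 𝕜) :
    pair (Pi.single α q) z = z α * q := by
  rw [pair_apply, sum_eq_single α]
  · simp
  · intro b _ h; simp [h]
  · intro h; simp [Finsupp.notMem_support_iff.1 h]

/-- The `ℓ¹` norm. -/
noncomputable def l1 (z : Ω →₀ 𝕜) : ℝ := ∑ α ∈ z.support, ‖z α‖

theorem l1_nonneg (z : Ω →₀ 𝕜) : 0 ≤ l1 z := sum_nonneg fun _ _ => norm_nonneg _

theorem norm_ratCast (q : ℚ) : ‖(q : 𝕜)‖ = |(q : ℝ)| := by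
  rw [← RCLike.ofReal_ratCast, RCLike.norm_ofReal]

theorem norm_pair_le {f : Ω → ℚ} {K : ℝ} (h : ∀ α, |(f α : ℝ)| ≤ K) (z : Ω →₀ 𝕜) :
    ‖pair f z‖ ≤ l1 z * K := by
  rw [pair_apply, l1, sum_mul]
  refine (norm_sum_le _ _).trans (sum_le_sum fun α _ => ?_)
  rw [norm_mul, norm_ratCast]
  exact mul_le_mul_of_nonneg_left (h α) (norm_nonneg _)

open Classical in
/-- Restriction of a vector. -/
noncomputable def rs (E : Set Ω) : (Ω →₀ 𝕜) →ₗ[𝕜] (Ω →₀ 𝕜) where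
  toFun z := z.filter (· ∈ E)
  map_add' _ _ := Finsupp.filter_add
  map_smul' _ _ := Finsupp.filter_smul

theorem rs_of_mem {E : Set Ω} (z : Ω →₀ 𝕜) {α : Ω} (h : α ∈ E) : rs E z α = z α := by
  simp [rs, h]

theorem rs_of_notMem {E : Set Ω} (z : Ω →₀ 𝕜) {α : Ω} (h : α ∉ E) : rs E z α = 0 := by
  simp [rs, h]

theorem rs_eq_self {E : Set Ω} {z : Ω →₀ 𝕜} (h : ∀ α, z α ≠ 0 → α ∈ E) : rs E z = z := by
  ext α
  by_cases hα : α ∈ E
  · exact rs_of_mem z hα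
  · rw [rs_of_notMem z hα, not_not.1 fun h' => hα (h α h')]

theorem rs_eq_zero {E : Set Ω} {z : Ω →₀ 𝕜} (h : ∀ α, z α ≠ 0 → α ∉ E) : rs E z = 0 := by
  ext α
  by_cases hα : α ∈ E
  · rw [rs_of_mem z hα, not_not.1 fun h' => h α h' hα]; rfl
  · exact rs_of_notMem z hα

theorem pair_rs (E : Set Ω) (f : Ω → ℚ) (z : Ω →₀ 𝕜) :
    pair f (rs E z) = pair (E.indicator f) z := by
  rw [pair_apply, pair_apply, sum_subset (s₂ := z.support)]
  · refine sum_congr rfl fun α _ => ?_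
    by_cases hα : α ∈ E <;> simp [rs_of_mem, rs_of_notMem, hα]
  · intro α h
    by_contra h'
    by_cases hα : α ∈ E <;> simp_all [rs_of_mem, rs_of_notMem]
  · intro α _ h
    rw [Finsupp.notMem_support_iff.1 h, zero_mul]

theorem sum_norm_le_of_signs {ι : Type*} (T : Finset ι) (a : ι → 𝕜) {B : ℝ}
    (h : ∀ ε : ι → ℚ, (∀ l, ε l = 1 ∨ ε l = -1) → ‖∑ l ∈ T, (ε l : 𝕜) * a l‖ ≤ B) :
    ∑ l ∈ T, ‖a l‖ ≤ 2 * B := by
  have key : ∀ φ : 𝕜 →+ ℝ, (∀ x, |φ x| ≤ ‖x‖) → ∑ l ∈ T, |φ (a l)| ≤ B := by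
    intro φ hφ
    refine le_trans ?_ ((le_abs_self _).trans ((hφ _).trans (h (fun l => if 0 ≤ φ (a l) then 1
      else -1) fun l => by split_ifs <;> simp)))
    rw [map_sum]
    refine sum_le_sum fun l _ => ?_
    split_ifs with h
    · simp [abs_of_nonneg h]
    · simp [abs_of_neg (not_le.1 h)]
  have h1 := key RCLike.re RCLike.abs_re_le_norm
  have h2 := key RCLike.im RCLike.abs_im_le_norm
  have h3 : ∑ l ∈ T, ‖a l‖ ≤ ∑ l ∈ T, (|RCLike.re (a l)| + |RCLike.im (a l)|) := by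
    refine sum_le_sum fun l _ => ?_
    conv_lhs => rw [← RCLike.re_add_im (a l)]
    refine (norm_add_le _ _).trans ?_
    rw [norm_mul, RCLike.norm_ofReal, RCLike.norm_ofReal]
    have : ‖(RCLike.I : 𝕜)‖ ≤ 1 := by
      by_cases h : (RCLike.I : 𝕜) = 0
      · simp [h]
      · exact (RCLike.norm_I_of_ne_zero h).le
    nlinarith [abs_nonneg (RCLike.im (a l))]
  rw [sum_add_distrib] at h3
  linarith

theorem staircase (T R : Finset ℕ) (ρ : ℕ → ℕ → Prop) [DecidableRel ρ]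
    (h : ∀ i i' r r', i < i' → ρ i r → ρ i' r' → r ≤ r') :
    ∑ r ∈ R, (T.filter (ρ · r)).card ≤ T.card + R.card := by
  classical
  let T' : ℕ → Finset ℕ := fun r => T.filter fun i => ρ i r ∧ ∃ i₀ < i, ρ i₀ r
  have h1 : ∀ r, (T.filter (ρ · r)).card ≤ (T' r).card + 1 := by
    intro r
    rcases (T.filter (ρ · r)).eq_empty_or_nonempty with e | hne
    · simp [e]
    · refine le_trans (card_le_card fun i hi => ?_)
        (card_insert_le ((T.filter (ρ · r)).min' hne) (T' r))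
      rcases (min'_le _ i hi).lt_or_eq with h2 | h2
      · exact mem_insert_of_mem (mem_filter.2 ⟨(mem_filter.1 hi).1, (mem_filter.1 hi).2, _, h2,
          (mem_filter.1 (min'_mem _ hne)).2⟩)
      · exact h2 ▸ mem_insert_self _ _
  have h2 : ∑ r ∈ R, (T' r).card ≤ T.card := by
    rw [← card_biUnion]
    · exact card_le_card (biUnion_subset.2 fun r _ => filter_subset _ _)
    · intro r _ r' _ hne
      refine disjoint_left.2 fun i hi hi' => ?_
      obtain ⟨-, a1, i₀, a2, a3⟩ := mem_filter.1 hi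
      obtain ⟨-, b1, i₁, b2, b3⟩ := mem_filter.1 hi'
      exact hne (le_antisymm (h _ _ _ _ a2 a3 b1) (h _ _ _ _ b2 b3 a1))
  have := sum_le_sum fun r (_ : r ∈ R) => h1 r
  rw [sum_add_distrib] at this
  simp only [sum_const, smul_eq_mul, mul_one] at this
  omega

variable [LinearOrder Ω] [Clo Ω]

variable (𝕜 Ω) in
/-- The embedding into `ℓ^∞(W)`. -/
noncomputable def emb : (Ω →₀ 𝕜) →ₗ[𝕜] lp (fun _ : W Ω => 𝕜) ∞ where
  toFun z := ⟨fun f => pair f.1 z, memℓp_infty ⟨l1 z * 1, by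
    rintro _ ⟨f, rfl⟩; exact norm_pair_le (W_good f.2).2 z⟩⟩
  map_add' _ _ := lp.ext (funext fun _ => map_add _ _ _)
  map_smul' _ _ := lp.ext (funext fun _ => map_smul _ _ _)

/-- The norm. -/
noncomputable abbrev N (z : Ω →₀ 𝕜) : ℝ := ‖emb 𝕜 Ω z‖

theorem le_N {f : Ω → ℚ} (hf : f ∈ W Ω) (z : Ω →₀ 𝕜) : ‖pair f z‖ ≤ N z :=
  lp.norm_apply_le_norm ENNReal.top_ne_zero (emb 𝕜 Ω z) ⟨f, hf⟩

theorem N_le {z : Ω →₀ 𝕜} {B : ℝ} (h : ∀ f ∈ W Ω, ‖pair f z‖ ≤ B) : N z ≤ B :=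
  lp.norm_le_of_forall_le (by simpa using h 0 zero_mem_W) fun f => h f.1 f.2

theorem exists_norming (z : Ω →₀ 𝕜) {r : ℝ} (h : r < N z) : ∃ f ∈ W Ω, r < ‖pair f z‖ := by
  by_contra h'
  push Not at h'
  exact h.not_ge (N_le h')

theorem N_rs_le {E : Set Ω} (hE : E.OrdConnected) (z : Ω →₀ 𝕜) : N (rs E z) ≤ N z :=
  N_le fun _ hf => by rw [pair_rs]; exact le_N (indicator_mem_W hf hE) z

theorem coord_le_N (z : Ω →₀ 𝕜) (α : Ω) : ‖z α‖ ≤ N z := by
  simpa [pair_single] using le_N (single_mem_W α) z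

theorem N_pos {z : Ω →₀ 𝕜} (h : z ≠ 0) : 0 < N z := by
  obtain ⟨α, hα⟩ := Finsupp.ne_iff.1 h
  exact (norm_pos_iff.2 hα).trans_le (coord_le_N z α)

theorem N_normalize {z : Ω →₀ 𝕜} (h : 0 < N z) : N ((((N z)⁻¹ : ℝ) : 𝕜) • z) = 1 := by
  rw [N, map_smul, norm_smul, RCLike.norm_ofReal, abs_of_pos (inv_pos.2 h), inv_mul_cancel₀ h.ne']

theorem fam_bound {ι : Type} {T : Finset ι} {σ : ι → Seg Ω} (h1 : ∀ l ∈ T, (σ l).OK (W Ω))
    (h2 : Disj T σ) (h3 : Big T σ T.card) (z : Ω →₀ 𝕜) :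
    ∑ l ∈ T, ‖pair (σ l).fn z‖ ≤ 2 * N z :=
  sum_norm_le_of_signs T _ fun ε hε => by
    simpa only [pair_sum, pair_smul] using le_N (sum_mem_W h1 h2 h3 hε) z

theorem lower_est [Nonempty Ω] {J n : ℕ} (hJ : 1 ≤ J) (hJ' : (dec J).1 = []) (hn : n ≤ len J)
    {E : ℕ → Set Ω} (hE : ∀ r, (E r).OrdConnected)
    (hs : ∀ r r', r < r' → ∀ a ∈ E r, ∀ b ∈ E r', a < b) (z : Ω →₀ 𝕜) :
    ∑ r ∈ range n, N (rs (E r) z) ≤ 2 * (wt J * N z) := by
  refine le_of_forall_pos_le_add fun ε hε => ?_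
  have hε' : 0 < ε / (n + 1) := by positivity
  choose f hf hf' using fun r => exists_norming (rs (E r) z) (sub_lt_self _ hε')
  have h1 := sum_norm_le_of_signs (range n) (fun r => pair (f r) (rs (E r) z))
    (B := wt J * N z) fun s hs' => by
      have h2 := le_N (Node.mem_W (j := J) ⟨fun r => if r < n then s r • (E r).indicator (f r)
        else 0, fun r => by
          dsimp only
          split_ifs
          · exact sign_mem_W (indicator_mem_W (hf r) (hE r)) (hs' r)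
          · exact zero_mem_W, fun r r' h a b ha hb => by
          dsimp only at ha hb
          split_ifs at ha hb
          · exact hs r r' h a (ne_of_ind (right_ne_zero_of_mul ha)).1 b
              (ne_of_ind (right_ne_zero_of_mul hb)).1
          all_goals contradiction, rfl⟩ hJ hJ') z
      rw [pair_smul, ← sum_subset (range_mono hn) fun r _ hr => if_neg (by simpa using hr),
        sum_congr rfl fun r hr => if_pos (mem_range.1 hr), norm_mul, norm_ratCast] at h2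
      simp only [pair_sum, pair_smul, ← pair_rs] at h2
      push_cast at h2
      rwa [abs_of_pos (one_div_pos.2 (wt_pos J)), one_div, inv_mul_le_iff₀ (wt_pos J)] at h2
  have h2 := sum_le_sum fun r (_ : r ∈ range n) => (hf' r).le
  simp only [sum_sub_distrib, sum_const, card_range, nsmul_eq_mul] at h2
  have h3 : n * (ε / (n + 1)) ≤ ε := by
    rw [mul_div_assoc', div_le_iff₀ (by positivity)]; nlinarith
  linarith

theorem node_bound {u : ℕ → Ω →₀ 𝕜} (hu : ∀ i i', i < i' → Succ (u i) (u i')) {T : Finset ℕ}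
    {a K : ℝ} (ha : 0 ≤ a)
    (hB : ∀ f ∈ W Ω, ∀ T' ⊆ T, ∑ i ∈ T', ‖pair f (u i)‖ ≤ a * T'.card + K)
    {j : ℕ} {w : Ω → ℚ} (hw : Node (W Ω) j w) :
    ∑ i ∈ T, ‖pair w (u i)‖ ≤ (a * (T.card + len j) + len j * K) / wt j := by
  classical
  obtain ⟨f, h1, h2, rfl⟩ := hw
  have h3 := staircase T (range (len j)) (fun i r => ∃ α, u i α ≠ 0 ∧ f r α ≠ 0)
    fun i i' r r' h ⟨α, a1, a2⟩ ⟨β, b1, b2⟩ => not_lt.1 fun h' =>
      lt_asymm (hu i i' h α β a1 b1) (h2 r' r h' β α b2 a2)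
  have h4 : ∑ i ∈ T, ‖pair (∑ r ∈ range (len j), f r) (u i)‖ ≤
      ∑ r ∈ range (len j), (a * (T.filter fun i => ∃ α, u i α ≠ 0 ∧ f r α ≠ 0).card + K) := by
    refine (sum_le_sum (g := fun i => ∑ r ∈ range (len j), ‖pair (f r) (u i)‖)
      fun i _ => by rw [pair_sum]; exact norm_sum_le _ _).trans ?_
    rw [sum_comm]
    refine sum_le_sum fun r _ => le_trans (le_of_eq ?_) (hB _ (h1 r) _ (filter_subset _ _))
    refine (sum_filter_of_ne fun i _ hi => ?_).symm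
    by_contra h
    push Not at h
    exact hi (by rw [pair_eq_zero h, norm_zero])
  simp only [pair_smul, norm_mul, norm_ratCast, ← mul_sum]
  push_cast
  rw [abs_of_pos (one_div_pos.2 (wt_pos j)), one_div, ← div_eq_inv_mul]
  refine div_le_div_of_nonneg_right (h4.trans ?_) (wt_pos j).le
  rw [sum_add_distrib, ← mul_sum, sum_const, card_range, nsmul_eq_mul]
  rw [card_range] at h3
  have : ∑ r ∈ range (len j), (((T.filter fun i => ∃ α, u i α ≠ 0 ∧ f r α ≠ 0).card : ℕ) : ℝ) ≤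
      T.card + len j := by exact_mod_cast h3
  gcongr

/-- Nodes of small colour act weakly on `u`. -/
def Avg (q : ℕ) (u : Ω →₀ 𝕜) : Prop := ∀ j ≤ q, ∀ w, Node (W Ω) j w → ‖pair w u‖ ≤ 4 / wt j

omit [Clo Ω] in
theorem succ_sum {x : ℕ → Ω →₀ 𝕜} (hx : ∀ i i', i < i' → Succ (x i) (x i')) {s t : Finset ℕ}
    (h : ∀ i ∈ s, ∀ j ∈ t, i < j) : Succ ⇑(∑ i ∈ s, x i) ⇑(∑ i ∈ t, x i) := by
  intro a b ha hb
  rw [Finsupp.finsetSum_apply] at ha hb
  obtain ⟨i, hi, ha⟩ := exists_ne_zero_of_sum_ne_zero ha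
  obtain ⟨j, hj, hb⟩ := exists_ne_zero_of_sum_ne_zero hb
  exact hx i j (h i hi j hj) a b ha hb

theorem sum_Ico_blocks {A : Type*} [AddCommMonoid A] (x : ℕ → A) (s L M : ℕ) :
    ∑ i ∈ Ico s (s + M * L), x i = ∑ t ∈ range M, ∑ i ∈ Ico (s + t * L) (s + (t + 1) * L), x i := by
  induction M with
  | zero => simp
  | succ M ih =>
    rw [sum_range_succ, ← ih, sum_Ico_consecutive] <;> nlinarith

theorem krivine {x : ℕ → Ω →₀ 𝕜} (hx : ∀ i i', i < i' → Succ (x i) (x i')) (h1 : ∀ i, N (x i) ≤ 1)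
    {q M : ℕ} (hM : cum (q + 1) ≤ M) (k : ℕ) : ∀ s,
    N (∑ i ∈ Ico s (s + M ^ k), x i) ≤ (M / 2) ^ k ∨ ∃ s n, M ≤ n ∧ n ≤ M ^ k ∧
      0 < N (∑ i ∈ Ico s (s + n), x i) ∧
      Avg q ((((N (∑ i ∈ Ico s (s + n), x i))⁻¹ : ℝ) : 𝕜) • ∑ i ∈ Ico s (s + n), x i) := by
  have hM0 : 0 < M := (cum_mono (Nat.succ_pos q)).trans_le hM
  induction k with
  | zero => intro s; left; simpa using h1 s
  | succ k ih =>
    intro s
    by_cases h : ∀ s, N (∑ i ∈ Ico s (s + M ^ k), x i) ≤ (M / 2) ^ k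
    swap
    · obtain ⟨s', hs'⟩ := not_forall.1 h
      obtain ⟨s, n, a1, a2, a3⟩ := (ih s').resolve_left hs'
      exact Or.inr ⟨s, n, a1, a2.trans (Nat.pow_le_pow_right hM0 (by omega)), a3⟩
    refine or_iff_not_imp_left.2 fun h2 => ?_
    rw [not_le] at h2
    have hpos := lt_of_le_of_lt (by positivity) h2
    refine ⟨s, _, Nat.le_self_pow (by omega) _, le_rfl, hpos, fun j hj w hw => ?_⟩
    have h3 := node_bound (u := fun t => ∑ i ∈ Ico (s + t * M ^ k) (s + (t + 1) * M ^ k), x i)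
      (fun t t' h => succ_sum hx fun i hi j hj => by
        have := Nat.mul_le_mul_right (M ^ k) (show t + 1 ≤ t' from h)
        rw [mem_Ico] at hi hj
        omega) (T := range M) (a := (M / 2) ^ k) (K := 0) (by positivity) (fun f hf T' _ => by
        rw [add_zero, mul_comm, ← nsmul_eq_mul]
        refine sum_le_card_nsmul _ _ _ fun t _ => (le_N hf _).trans ?_
        rw [add_mul, one_mul, ← add_assoc]
        exact h _) hw
    rw [map_smul, norm_smul, RCLike.norm_ofReal, abs_of_pos (inv_pos.2 hpos),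
      inv_mul_le_iff₀ hpos]
    conv_lhs => rw [pow_succ', sum_Ico_blocks, map_sum]
    refine (norm_sum_le _ _).trans (h3.trans ?_)
    rw [mul_div_assoc']
    refine div_le_div_of_nonneg_right ?_ (wt_pos j).le
    have h4 : (len j : ℝ) ≤ M := by exact_mod_cast (len_le_cum (Nat.lt_succ_of_le hj)).trans hM
    rw [card_range, mul_zero, add_zero]
    rw [pow_succ] at h2
    have : (0 : ℝ) ≤ (M / 2) ^ k := by positivity
    nlinarith

/-- A supply of successive vectors. -/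
structure Supply (𝕜 : Type*) [RCLike 𝕜] (Ω : Type) [LinearOrder Ω] where
  V : ℕ → ℕ → Submodule 𝕜 (Ω →₀ 𝕜)
  mono : ∀ {a a' b b'}, a' ≤ a → b ≤ b' → V a b ≤ V a' b'
  succ : ∀ {a b a' b' y y'}, b ≤ a' → y ∈ V a b → y' ∈ V a' b' → Succ y y'
  ex : ∀ a, ∃ b, a < b ∧ ∃ y ∈ V a b, y ≠ 0

omit [Clo Ω] in
theorem Supply.seq (S : Supply 𝕜 Ω) {A : Type*} (a₀ : ℕ) (s₀ : A)
    (P : A → (Ω →₀ 𝕜) → A → Prop) (h : ∀ a s, ∃ b, a < b ∧ ∃ y ∈ S.V a b, ∃ s', P s y s') :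
    ∃ (x : ℕ → Ω →₀ 𝕜) (s : ℕ → A), s 0 = s₀ ∧ (∀ i, P (s i) (x i) (s (i + 1))) ∧
      (∀ i i', i < i' → Succ (x i) (x i')) ∧ ∀ n, ∃ b, a₀ < b ∧ ∀ i < n, x i ∈ S.V a₀ b := by
  choose b hb y hy s' hs' using h
  let st : ℕ → ℕ × A := fun n => Nat.rec (a₀, s₀) (fun _ p => (b p.1 p.2, s' p.1 p.2)) n
  have hm : StrictMono fun n => (st n).1 := strictMono_nat_of_lt_succ fun n => hb _ _
  refine ⟨fun i => y (st i).1 (st i).2, fun i => (st i).2, rfl, fun i => hs' _ _,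
    fun i i' h => S.succ (hm.monotone (Nat.succ_le_of_lt h)) (hy _ _) (hy _ _),
    fun n => ⟨(st (n + 1)).1, hm (Nat.succ_pos n), fun i hi => ?_⟩⟩
  exact S.mono (hm.monotone (Nat.zero_le i)) (hm.monotone (show i + 1 ≤ n + 1 by omega)) (hy _ _)

omit [Clo Ω] in
theorem rs_hull_sum {x : ℕ → Ω →₀ 𝕜} (hx : ∀ i i', i < i' → Succ (x i) (x i')) {T : Finset ℕ}
    (a : ℕ → 𝕜) {r : ℕ} (hr : r ∈ T) : rs (hull (x r)) (∑ i ∈ T, a i • x i) = a r • x r := by
  rw [map_sum, sum_eq_single_of_mem r hr, map_smul, rs_eq_self fun α h => mem_hull h]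
  intro i _ hne
  rw [map_smul, rs_eq_zero, smul_zero]
  intro α h1 h2
  rcases lt_or_gt_of_ne hne with h | h
  · exact lt_irrefl _ ((hx i r h).hull_lt (mem_hull h1) h2)
  · exact lt_irrefl _ ((hx r i h).hull_lt h2 (mem_hull h1))

theorem Supply.exists_avg [Nonempty Ω] (S : Supply 𝕜 Ω) (a q : ℕ) :
    ∃ b, a < b ∧ ∃ v ∈ S.V a b, N v = 1 ∧ Avg q v := by
  obtain ⟨x, -, -, h1, hx, h2⟩ := S.seq a () (fun _ y _ => N y = 1) fun a _ => by
    obtain ⟨b, hb, y, hy, h⟩ := S.ex a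
    exact ⟨b, hb, _, Submodule.smul_mem _ _ hy, (), N_normalize (N_pos h)⟩
  obtain ⟨J, hJ, hJ'⟩ := exists_root (cum (q + 1))
  rcases krivine hx (fun i => (h1 i).le) le_rfl (J + 4) 0 with h | ⟨s, n, -, -, h3, h4⟩
  · exfalso
    set M := cum (q + 1)
    have h3 := lower_est (by omega) hJ' (pow_le_len hJ.le) (fun r => hull_conn (x r))
      (fun r r' h _ ha _ hb => (hx r r' h).hull_lt ha hb) (∑ i ∈ range (M ^ (J + 4)), (1 : 𝕜) • x i)
    rw [sum_congr rfl fun r hr => by rw [rs_hull_sum hx _ hr, one_smul, h1]] at h3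
    simp only [one_smul, sum_const, card_range, nsmul_eq_mul, mul_one] at h3
    rw [zero_add, ← range_eq_Ico, div_pow] at h
    have hM : (0 : ℝ) < M ^ (J + 4) := by
      have : 0 < M := cum_mono (Nat.succ_pos q)
      positivity
    have h5 : (2 : ℝ) ^ (J + 4) = 4 * wt J := by simp only [wt]; push_cast; ring
    rw [h5, le_div_iff₀ (by have := wt_pos J; positivity)] at h
    push_cast at h3
    linarith
  · obtain ⟨b, hb, h5⟩ := h2 (s + n)
    exact ⟨b, hb, _, Submodule.smul_mem _ _ (Submodule.sum_mem _ fun i hi =>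
      h5 i (mem_Ico.1 hi).2), N_normalize h3, h4⟩

end Vale.Agent.P129
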