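import Vale.Agent.P129.CHTask

/-! The transfinite construction and the representation of functionals. -/

namespace Vale.Agent.P129

open Filter Topology Finset

variable {𝕜 : Type*} [RCLike 𝕜] {Ω : Type} [LinearOrder Ω] [Clo Ω]

variable (𝕜 Ω) in
/-- The data chosen at each stage. -/
structure Dat where
  x : StrongDual 𝕜 (G 𝕜 Ω)
  w : ℕ → Ω → ℚ
  c : ℕ → ℕ

/-- The span of the functionals with index in `L`. -/
noncomputable def Sp (D : Ω → Dat 𝕜 Ω) (L : Set Ω) : Submodule 𝕜 (StrongDual 𝕜 (G 𝕜 Ω)) :=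
  Submodule.span 𝕜 ((fun γ => (D γ).x) '' L)

/-- The invariant of the recursion. -/
structure Inv (g : Ω → ℕ → G 𝕜 Ω) (δ : Ω) (D : Ω → Dat 𝕜 Ω) (a : Dat 𝕜 Ω) : Prop where
  br : IsBr (W Ω) a.w a.c
  ne : ∀ β < δ, (D β).c ≠ a.c
  one : a.x (un δ) = 1
  supp : a.x ∈ Supp 𝕜 (Set.Iic δ)
  tail : ∀ ε > 0, ∀ᶠ n in atTop, ∃ ρ : StrongDual 𝕜 (G 𝕜 Ω), ‖ρ‖ ≤ ε ∧
    co δ + fn (tl a.w n) + ρ - a.x ∈ Sp D (Set.Iio δ)
  task : ¬ FiniteDimensional 𝕜 (Submodule.span 𝕜 (Set.range (g δ))) →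
    (∀ n, P (Set.Iio δ) (g δ n) = g δ n) → ∃ (h : ℕ → G 𝕜 Ω) (C : ℝ),
      (∀ j, h j ∈ Submodule.span 𝕜 (Set.range (g δ)) ∧ ‖h j‖ ≤ C ∧ 1 / 2 ≤ ‖a.x (h j)‖) ∧
      ∀ β < δ, ∀ᶠ j in atTop, (D β).x (h j) = 0

variable {g : Ω → ℕ → G 𝕜 Ω} {D : Ω → Dat 𝕜 Ω} {L : Set Ω}

theorem mem_Sp {β : Ω} (h : β ∈ L) : (D β).x ∈ Sp D L := Submodule.subset_span ⟨β, h, rfl⟩

theorem exists_lift (hL : IsLowerSet L) (h : ∀ β ∈ L, Inv g β D (D β)) {f : Ω → ℚ}
    (hf : f.support.Finite) (hfL : ∀ α, f α ≠ 0 → α ∈ L) {K : ℝ} (hK0 : 0 ≤ K)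
    (hK : ∀ α, |(f α : ℝ)| ≤ K) (z : G 𝕜 Ω) {ε : ℝ} (hε : 0 < ε) :
    ∃ r, fn f + r ∈ Sp D L ∧ ‖r‖ ≤ 2 * K + ε ∧ ‖r z‖ ≤ ε := by
  set T := hf.toFinset
  have hT : ∀ β ∈ T, β ∈ L := fun β hβ => hfL β (hf.mem_toFinset.1 hβ)
  obtain ⟨η, hη, h1⟩ : ∃ η > 0, T.card * K * (1 + ‖z‖) * η ≤ ε :=
    ⟨ε / (T.card * K * (1 + ‖z‖) + 1), by positivity, by
      rw [mul_div_assoc', div_le_iff₀ (by positivity)]; nlinarith⟩
  obtain ⟨n, a1, a2, a3⟩ := ((tails_bound (𝕜 := 𝕜) (T := T) (w := fun β => (D β).w)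
    (c := fun β => (D β).c) (fun β hβ => (h β (hT β hβ)).br) fun β hβ β' hβ' hne => by
      rcases lt_or_gt_of_ne hne with h3 | h3
      · exact (h β' (hT β' hβ')).ne β h3
      · exact ((h β (hT β hβ)).ne β' h3).symm).and
    (((eventually_all_finset T).2 fun β hβ => (h β (hT β hβ)).tail η hη).and
      ((eventually_all_finset T).2 fun β hβ => (h β (hT β hβ)).br.tendsto z hη))).exists
  choose! ρ b1 b2 using a2
  have key : ∀ x, ‖(∑ β ∈ T, (f β : 𝕜) • (fn (tl (D β).w n) + ρ β) : StrongDual 𝕜 _) x‖ ≤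
      K * (∑ β ∈ T, ‖fn (tl (D β).w n) x‖ + T.card * (η * ‖x‖)) := by
    intro x
    rw [_root_.sum_apply, ← nsmul_eq_mul, ← sum_const, ← sum_add_distrib, mul_sum]
    refine (norm_sum_le _ _).trans (sum_le_sum fun β hβ => ?_)
    rw [smul_apply, norm_smul, norm_ratCast, add_apply]
    exact mul_le_mul (hK β) ((norm_add_le _ _).trans (add_le_add_right
      ((ρ β).le_of_opNorm_le (b1 β hβ) x) _)) (norm_nonneg _) hK0
  have h2 : 0 ≤ T.card * K * η := by positivity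
  refine ⟨∑ β ∈ T, (f β : 𝕜) • (fn (tl (D β).w n) + ρ β), ?_,
    ContinuousLinearMap.opNorm_le_bound _ (by positivity) fun x => (key x).trans ?_,
    (key z).trans ?_⟩
  · rw [fn_eq_sum fun α hα => hf.mem_toFinset.2 hα, ← sum_add_distrib]
    refine Submodule.sum_mem _ fun β hβ => ?_
    have := (Sp D L).smul_mem (f β : 𝕜) (Submodule.add_mem _ (Submodule.span_mono (Set.image_mono
      fun γ hγ => hL (le_of_lt hγ) (hT β hβ)) (b2 β hβ)) (mem_Sp (hT β hβ)))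
    rwa [sub_add_cancel, add_assoc, smul_add] at this
  · have h3 : T.card * K * η ≤ ε := by nlinarith [norm_nonneg z]
    nlinarith [mul_le_mul_of_nonneg_left (a1 x) hK0, mul_le_mul_of_nonneg_right h3 (norm_nonneg x)]
  · have h3 := sum_le_card_nsmul _ _ _ a3
    rw [nsmul_eq_mul] at h3
    nlinarith [mul_le_mul_of_nonneg_left h3 hK0]

theorem Sp_le (hL : IsLowerSet L) (h : ∀ β ∈ L, Inv g β D (D β)) : Sp D L ≤ Supp 𝕜 L :=
  Submodule.span_le.2 (by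
    rintro _ ⟨β, hβ, rfl⟩
    exact Supp_mono Set.ordConnected_Iic hL.ordConnected (hL.Iic_subset hβ) (h β hβ).supp)

theorem exists_step [WellFoundedLT Ω] [Nonempty Ω] {δ : Ω} (hc : (Set.Iio δ).Countable)
    (h : ∀ β < δ, Inv g β D (D β)) : ∃ a, Inv g δ D a := by
  obtain ⟨e, he⟩ := Set.countable_iff_exists_subset_range.1 hc
  obtain ⟨w, c, a1, a2, a3, a4⟩ : ∃ w c, IsBr (W Ω) w c ∧ (∀ k, c (k + 1) ≠ (D (e k)).c (k + 1)) ∧
      (∀ k γ, w k γ ≠ 0 → γ < δ) ∧ (¬ FiniteDimensional 𝕜 (Submodule.span 𝕜 (Set.range (g δ))) →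
      (∀ y ∈ Submodule.span 𝕜 (Set.range (g δ)), P (Set.Iio δ) y = y) →
      ∃ (h : ℕ → G 𝕜 Ω) (C : ℝ), (∀ j, h j ∈ Submodule.span 𝕜 (Set.range (g δ)) ∧ ‖h j‖ ≤ C ∧
        3 / 4 ≤ ‖fn (tl w 0) (h j)‖) ∧ 3 * C * (2 / wt (c 0)) ≤ 1 / 4 ∧
        ∀ k, ∀ᶠ j in atTop, (D (e k)).x (h j) = 0) := by
    by_cases h' : ¬ FiniteDimensional 𝕜 (Submodule.span 𝕜 (Set.range (g δ))) ∧
      ∀ y ∈ Submodule.span 𝕜 (Set.range (g δ)), P (Set.Iio δ) y = y
    · obtain ⟨w, c, a1, a2, a3, a4⟩ := exists_task h'.1 h'.2 (fun k => (D (e k)).x)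
        fun k => (D (e k)).c (k + 1)
      exact ⟨w, c, a1, a2, a3, fun _ _ => a4⟩
    · obtain ⟨c, a1, a2⟩ := exists_zero_branch (Ω := Ω) fun k => (D (e k)).c (k + 1)
      exact ⟨0, c, a1, a2, fun _ _ h => absurd rfl h, fun b1 b2 => absurd ⟨b1, b2⟩ h'⟩
  have hp : ∀ k, (0 : ℝ) < 1 / wt (c k) := fun k => one_div_pos.2 (wt_pos _)
  choose r b1 b2 _ using fun k => exists_lift (isLowerSet_Iio δ) h (a1.node k).finite (a3 k)
    (hp k).le (a1.node k).abs_le 0 (hp k)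
  have b3 : ∀ s : Finset ℕ, ∑ k ∈ s, ‖r k‖ ≤ 3 * (2 / wt (c 0)) := fun s => by
    have := sum_inv_wt (s := s.image c) (c := c 0) fun j hj => by
      obtain ⟨k, -, rfl⟩ := mem_image.1 hj
      exact a1.mono.monotone (Nat.zero_le k)
    rw [sum_image fun _ _ _ _ h => a1.mono.injective h] at this
    refine (sum_le_sum (g := fun k => 3 * (1 / wt (c k) : ℝ)) fun k _ => by
      linarith [b2 k]).trans ?_
    rw [← mul_sum]
    linarith
  have b4 : Summable fun k => ‖r k‖ := summable_of_sum_le (fun _ => norm_nonneg _) b3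
  have b5 : ‖∑' k, r k‖ ≤ 3 * (2 / wt (c 0)) :=
    (norm_tsum_le_tsum_norm b4).trans (b4.tsum_le_of_sum_le b3)
  have b6 : fn (tl w 0) + ∑' k, r k ∈ Supp 𝕜 (Set.Iio δ) := by
    refine Submodule.add_mem _ (fn_mem_Supp (a1.bdd 0) Set.ordConnected_Iio fun γ hγ =>
      let ⟨k, hk⟩ := tl_ne_zero hγ; a3 k γ hk) (tsum_mem (isClosed_Supp _) fun k => ?_)
    rw [← add_sub_cancel_left (fn (w k)) (r k)]
    exact Submodule.sub_mem _ (Sp_le (isLowerSet_Iio δ) h (b1 k))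
      (fn_mem_Supp (bdd_fin (a1.node k).finite) Set.ordConnected_Iio (a3 k))
  refine ⟨⟨co δ + (fn (tl w 0) + ∑' k, r k), w, c⟩, a1, fun β hβ e' => ?_, ?_, ?_, fun ε hε => ?_,
    fun c1 c2 => ?_⟩
  · obtain ⟨k, rfl⟩ := he hβ
    exact a2 k (congrFun e' _).symm
  · change co δ (un δ) + (fn (tl w 0) + ∑' k, r k : StrongDual 𝕜 _) (un δ) = (1 : 𝕜)
    rw [← b6, P_un_of_notMem Set.ordConnected_Iio Set.self_notMem_Iio, map_zero, un, co_J]
    simp
  · exact Submodule.add_mem _ (Supp_mono Set.ordConnected_singleton Set.ordConnected_Iic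
      (by simp) (co_mem_Supp δ)) (Supp_mono Set.ordConnected_Iio Set.ordConnected_Iic
      Set.Iio_subset_Iic_self b6)
  · filter_upwards [NormedAddGroup.tendsto_nhds_zero.1 (tendsto_sum_nat_add r) ε hε] with n hn
    refine ⟨_, hn.le, ?_⟩
    have : co δ + fn (tl w n) + ∑' k, r (k + n) - (co δ + (fn (tl w 0) + ∑' k, r k)) =
        -∑ k ∈ range n, (fn (w k) + r k) := by
      rw [a1.fn_tl n, ← b4.of_norm.sum_add_tsum_nat_add n, sum_add_distrib]; abel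
    exact this ▸ Submodule.neg_mem _ (Submodule.sum_mem _ fun k _ => b1 k)
  · have c3 : ∀ y ∈ Submodule.span 𝕜 (Set.range (g δ)), P (Set.Iio δ) y = y := fun y hy =>
      LinearMap.eqOn_span' (f := (P (Set.Iio δ)).toLinearMap) (g := LinearMap.id)
        (by rintro _ ⟨n, rfl⟩; exact c2 n) hy
    obtain ⟨u, C, d1, d2, d3⟩ := a4 c1 c3
    refine ⟨u, C, fun j => ⟨(d1 j).1, (d1 j).2.1, ?_⟩, fun β hβ => ?_⟩
    · change _ ≤ ‖co δ (u j) + (fn (tl w 0) (u j) + (∑' k, r k) (u j))‖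
      rw [Supp.eq_zero Set.ordConnected_singleton Set.ordConnected_Iio (by simp) (co_mem_Supp δ)
        (c3 _ (d1 j).1), zero_add]
      have := ((∑' k, r k).le_of_opNorm_le b5 (u j)).trans (mul_le_mul_of_nonneg_left (d1 j).2.1
        ((norm_nonneg _).trans b5))
      linarith [(d1 j).2.2, norm_le_add_norm_add (fn (tl w 0) (u j)) ((∑' k, r k) (u j))]
    · obtain ⟨k, rfl⟩ := he hβ
      exact d3 k

theorem exists_data [WellFoundedLT Ω] [Nonempty Ω] (hc : ∀ δ : Ω, (Set.Iio δ).Countable)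
    (g : Ω → ℕ → G 𝕜 Ω) : ∃ D, ∀ δ, Inv g δ D (D δ) :=
  have : Nonempty (Dat 𝕜 Ω) := ⟨⟨0, 0, 0⟩⟩
  exists_wf_rec (Inv g) (fun δ D D' h a ha => ⟨ha.br, fun β hβ => h β hβ ▸ ha.ne β hβ, ha.one,
    ha.supp, by
      rw [show Sp D' (Set.Iio δ) = Sp D (Set.Iio δ) from
        congrArg _ (Set.image_congr fun β hβ => by rw [h β hβ])]
      exact ha.tail, fun c1 c2 => let ⟨u, C, d1, d2⟩ := ha.task c1 c2
      ⟨u, C, d1, fun β hβ => h β hβ ▸ d2 β hβ⟩⟩) fun δ _ h => exists_step (hc δ) h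

theorem norming (hL : IsLowerSet L) (h : ∀ β ∈ L, Inv g β D (D β)) {z : G 𝕜 Ω} (hz : P L z = z)
    {B : ℝ} (hB0 : 0 ≤ B) (hB : ∀ φ ∈ Sp D L, ‖φ z‖ ≤ B * ‖φ‖) : ‖z‖ ≤ 4 * B := by
  refine norm_le_of_fn fun f hf => le_of_forall_pos_le_add fun ε hε => ?_
  have hf' := indicator_mem_W hf hL.ordConnected
  obtain ⟨r, h1, h2, h3⟩ := exists_lift hL h (W_good hf').1 (fun α hα => (ne_of_ind hα).1)
    zero_le_one (W_good hf').2 z (lt_min hε one_pos)
  rw [← hz, fn_P (bdd_W hf) hL.ordConnected (bdd_W hf')]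
  have h4 : ‖(fn (L.indicator f) : StrongDual 𝕜 (G 𝕜 Ω))‖ ≤ 1 :=
    ContinuousLinearMap.opNorm_le_bound _ zero_le_one fun x => by
      rw [one_mul]; exact fn_le (le_N hf') x
  have h5 := (hB _ h1).trans (mul_le_mul_of_nonneg_left ((norm_add_le _ _).trans
    (add_le_add h4 h2)) hB0)
  rw [add_apply] at h5
  nlinarith [norm_le_add_norm_add (fn (L.indicator f) z) (r z), min_le_left ε 1, min_le_right ε 1]

theorem unique_rep (hL : IsLowerSet L) (h : ∀ β ∈ L, Inv g β D (D β)) {z : G 𝕜 Ω} (hz : P L z = z)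
    (h0 : ∀ β ∈ L, (D β).x z = 0) : z = 0 := by
  have := norming hL h hz le_rfl fun φ hφ => by
    rw [show φ z = 0 from LinearMap.eqOn_span' (f := (ContinuousLinearMap.apply 𝕜 𝕜 z).toLinearMap)
      (g := 0) (by rintro _ ⟨β, hβ, rfl⟩; exact h0 β hβ) hφ, norm_zero, zero_mul]
  exact norm_le_zero_iff.1 (by simpa using this)

theorem rep_limit [Nonempty Ω] (h : ∀ β, Inv g β D (D β)) (Φ : StrongDual 𝕜 (StrongDual 𝕜 (G 𝕜 Ω)))
    (hL : IsLowerSet L) (ih : ∀ β ∈ L, ∃ z, P (Set.Iic β) z = z ∧ ∀ γ ≤ β, (D γ).x z = Φ (D γ).x) :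
    ∃ z, P L z = z ∧ ∀ γ ∈ L, (D γ).x z = Φ (D γ).x := by
  rcases L.eq_empty_or_nonempty with rfl | hne
  · exact ⟨0, map_zero _, fun _ h => h.elim⟩
  have := hne.to_subtype
  choose z h1 h2 using fun β : L => ih β β.2
  have h3 : ∀ β, ‖z β‖ ≤ 4 * ‖Φ‖ := fun β =>
    norming (isLowerSet_Iic β.1) (fun γ _ => h γ) (h1 β) Φ.opNorm_nonneg fun φ hφ => by
      rw [show φ (z β) = Φ φ from LinearMap.eqOn_span'
        (f := (ContinuousLinearMap.apply 𝕜 𝕜 (z β)).toLinearMap) (g := Φ.toLinearMap)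
        (by rintro _ ⟨γ, hγ, rfl⟩; exact h2 β γ hγ) hφ]
      exact Φ.le_opNorm φ
  have h4 : ∀ β β', β ≤ β' → P (Set.Iic β.1) (z β') = z β := fun β β' hβ =>
    sub_eq_zero.1 (unique_rep (isLowerSet_Iic β.1) (fun γ _ => h γ) (by
      rw [map_sub, P_P Set.ordConnected_Iic Set.ordConnected_Iic, Set.inter_self, h1]) fun γ hγ => by
      rw [map_sub, Supp_mono Set.ordConnected_Iic Set.ordConnected_Iic (Set.Iic_subset_Iic.2 hγ)
        (h γ).supp, h2 β γ hγ, h2 β' γ (le_trans hγ hβ), sub_self])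
  have h5 : CauchySeq z := by
    rw [Metric.cauchySeq_iff']
    by_contra! hc
    obtain ⟨ε, hε, hc⟩ := hc
    choose s hs hs' using hc
    let β : ℕ → L := fun n => s^[n] (Classical.arbitrary L)
    have hβ : ∀ n, β (n + 1) = s (β n) := fun n => Function.iterate_succ_apply' _ _ _
    have hm : Monotone β := monotone_nat_of_le_succ fun n => hβ n ▸ hs _
    obtain ⟨n, hn⟩ := exists_nat_gt (8 * ‖Φ‖ / ε)
    obtain ⟨j, hj, hj'⟩ := exists_root n
    have c1 := lower_est' (by omega) hj' (E := fun r => Set.Ioc (β r).1 (β (r + 1)).1)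
      (fun _ => Set.ordConnected_Ioc) (fun r r' hr a ha b hb =>
        (ha.2.trans (hm hr)).trans_lt hb.1) (z (β (len j)))
    have c2 := card_nsmul_le_sum (range (len j))
      (fun r => ‖P (Set.Ioc (β r).1 (β (r + 1)).1) (z (β (len j)))‖) ε fun r hr => by
        have e' := Set.Iic_union_Ioc_eq_Iic (show (β r).1 ≤ (β (r + 1)).1 from hm r.le_succ)
        have e := P_union (E := Set.Iic (β r).1) (F := Set.Ioc (β r).1 (β (r + 1)).1)
          Set.ordConnected_Iic Set.ordConnected_Ioc (by rw [e']; exact Set.ordConnected_Iic)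
          (Set.disjoint_left.2 fun a h h' => h'.1.not_ge h) (z (β (len j)))
        rw [e', h4 _ _ (hm (mem_range.1 hr)),
          h4 _ _ (hm (mem_range.1 hr).le)] at e
        rw [← sub_eq_iff_eq_add'.2 e, ← dist_eq_norm, hβ]
        exact hs' _
    rw [card_range, nsmul_eq_mul] at c2
    have c3 : n * wt j ≤ len j := by
      refine le_trans (Nat.mul_le_mul_right _ ?_) (len_large j)
      have : j ≤ cum j := cum_mono.le_apply
      have : cum j + 1 ≤ (cum j + 1) ^ (j + 2) := Nat.le_self_pow (by omega) _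
      omega
    have c4 : (n : ℝ) * wt j ≤ len j := by exact_mod_cast c3
    rw [div_lt_iff₀ hε] at hn
    have := wt_pos j
    nlinarith [mul_le_mul_of_nonneg_left (h3 (β (len j))) this.le]
  obtain ⟨y, hy⟩ := cauchySeq_tendsto_of_complete h5
  refine ⟨y, tendsto_nhds_unique (((P L).continuous.tendsto y).comp hy) (hy.congr fun β => ?_),
    fun γ hγ => tendsto_nhds_unique (((D γ).x.continuous.tendsto y).comp hy)
      (tendsto_const_nhds.congr' ?_)⟩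
  · rw [Function.comp_apply, ← h1 β, P_P hL.ordConnected Set.ordConnected_Iic,
      Set.inter_eq_right.2 (hL.Iic_subset β.2)]
  · filter_upwards [eventually_ge_atTop (⟨γ, hγ⟩ : L)] with β hβ
    exact (h2 β γ hβ).symm

theorem exists_rep [WellFoundedLT Ω] [Nonempty Ω] (h : ∀ β, Inv g β D (D β))
    (Φ : StrongDual 𝕜 (StrongDual 𝕜 (G 𝕜 Ω))) : ∃ z, ∀ γ, (D γ).x z = Φ (D γ).x := by
  obtain ⟨z, -, hz⟩ := rep_limit h Φ isLowerSet_univ fun β _ => by
    induction β using WellFoundedLT.induction with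
    | _ β ih =>
    obtain ⟨z, h1, h2⟩ := rep_limit h Φ (isLowerSet_Iio β) fun γ hγ => ih γ hγ trivial
    refine ⟨z + (Φ (D β).x - (D β).x z) • un β, ?_, fun γ hγ => ?_⟩
    · rw [map_add, map_smul, P_un_of_mem Set.ordConnected_Iic Set.self_mem_Iic, ← h1,
        P_P Set.ordConnected_Iic Set.ordConnected_Iio, Set.inter_eq_right.2 Set.Iio_subset_Iic_self]
    · rw [map_add, map_smul]
      rcases hγ.lt_or_eq with hγ | rfl
      · rw [h2 γ hγ, ← (h γ).supp (un β), P_un_of_notMem Set.ordConnected_Iic hγ.not_ge]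
        simp
      · simp [(h γ).one]
  exact ⟨z, fun γ => hz γ trivial⟩

end Vale.Agent.P129
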