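import Vale.Agent.P129.CHNorm

/-! Averages on which segments of large colours are small. -/

namespace Vale.Agent.P129

open Filter Topology Finset

variable {𝕜 : Type*} [RCLike 𝕜] {Ω : Type} [LinearOrder Ω] [Clo Ω]

theorem fam_low {ι : Type} {T : Finset ι} {σ : ι → Seg Ω} (h1 : ∀ l ∈ T, (σ l).OK (W Ω))
    (h2 : Disj T σ) {p a : ℕ} (h3 : Big T σ p) (h4 : ∀ l ∈ T, ∀ k ∈ (σ l).A, (σ l).c k ≤ a)
    {v : Ω →₀ 𝕜} (hv : Avg a v) : ∑ l ∈ T, ‖pair (σ l).fn v‖ ≤ 4 * (2 / wt p) :=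
  seg_sum_le h1 h2 h3 (fun f => ‖pair f v‖) (by simp) (norm_pair_add_le v) (by norm_num)
    fun l hl k hk => hv _ (h4 l hl k hk) _ (((h1 l hl).br.node k).indicator (h1 l hl).conn)

theorem fam_tiny {ι : Type} {T : Finset ι} {σ : ι → Seg Ω} (h1 : ∀ l ∈ T, (σ l).OK (W Ω))
    (h2 : Disj T σ) {p : ℕ} (h3 : Big T σ p) (v : Ω →₀ 𝕜) :
    ∑ l ∈ T, ‖pair (σ l).fn v‖ ≤ l1 v * (2 / wt p) :=
  seg_sum_le h1 h2 h3 (fun f => ‖pair f v‖) (by simp) (norm_pair_add_le v) (l1_nonneg v)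
    fun l hl k _ => by
      rw [div_eq_mul_one_div]
      exact norm_pair_le (((h1 l hl).br.node k).indicator (h1 l hl).conn).abs_le v

theorem seg_low {s : Seg Ω} (h1 : s.OK (W Ω)) {p a : ℕ} (h3 : ∀ k ∈ s.A, p ≤ s.c k ∧ s.c k ≤ a)
    {v : Ω →₀ 𝕜} (hv : Avg a v) : ‖pair s.fn v‖ ≤ 4 * (2 / wt p) := by
  simpa using fam_low (T := {()}) (σ := fun _ => s) (fun _ _ => h1) (by simp [Disj])
    (fun _ _ k hk => (h3 k hk).1) (fun _ _ k hk => (h3 k hk).2) hv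

theorem seg_tiny {s : Seg Ω} (h1 : s.OK (W Ω)) {p : ℕ} (h3 : ∀ k ∈ s.A, p ≤ s.c k)
    (v : Ω →₀ 𝕜) : ‖pair s.fn v‖ ≤ l1 v * (2 / wt p) := by
  simpa using fam_tiny (T := {()}) (σ := fun _ => s) (fun _ _ => h1) (by simp [Disj])
    (fun _ _ k hk => h3 k hk) v

/-- Rapidly increasing sequences. -/
structure RIS (η : ℝ) (v : ℕ → Ω →₀ 𝕜) (a : ℕ → ℕ) : Prop where
  succ : ∀ i i', i < i' → Succ (v i) (v i')
  norm : ∀ i, N (v i) = 1
  avg : ∀ i, Avg (a i) (v i)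
  mono : StrictMono a
  tiny : ∀ i p, a (i + 1) ≤ p → l1 (v i) * (2 / wt p) ≤ η
  clo : ∀ i j, i ≤ j → ∀ p, a (j + 1) ≤ p → ∀ γ β, v i γ ≠ 0 → v j β ≠ 0 → γ ≤ β →
    γ ∈ Clo.C p β

theorem RIS.comp {η : ℝ} {v : ℕ → Ω →₀ 𝕜} {a : ℕ → ℕ} (h : RIS η v a) {φ : ℕ → ℕ}
    (hφ : StrictMono φ) : RIS η (fun i => v (φ i)) fun i => a (φ i) :=
  have h1 : ∀ i, a (φ i + 1) ≤ a (φ (i + 1)) := fun i =>
    h.mono.monotone (hφ (Nat.lt_succ_self i))
  ⟨fun _ _ hi => h.succ _ _ (hφ hi), fun _ => h.norm _, fun _ => h.avg _, h.mono.comp hφ,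
    fun i p hp => h.tiny _ p ((h1 i).trans hp),
    fun _ j hij p hp => h.clo _ _ (hφ.monotone hij) p ((h1 j).trans hp)⟩

theorem eventually_tiny (B : ℝ) {η : ℝ} (hη : 0 < η) : ∀ᶠ p in atTop, B * (2 / wt p) ≤ η := by
  filter_upwards [exists_wt_ge (B * 2 / η)] with p hp
  rw [mul_div_assoc', div_le_iff₀ (wt_pos p)]
  rw [div_le_iff₀ hη] at hp
  linarith

theorem Supply.exists_ris [Nonempty Ω] (S : Supply 𝕜 Ω) (a₀ w : ℕ) {η : ℝ} (hη : 0 < η) :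
    ∃ v a, RIS η v a ∧ a 0 = w ∧ ∀ n, ∃ b, a₀ < b ∧ ∀ i < n, v i ∈ S.V a₀ b := by
  classical
  obtain ⟨v, s, h0, h1, h2, h3⟩ := S.seq a₀ ((w, ∅) : ℕ × Finset Ω) (fun s y s' => N y = 1 ∧
    Avg s.1 y ∧ s.1 < s'.1 ∧ s'.2 = s.2 ∪ y.support ∧ ∀ p ≥ s'.1, l1 y * (2 / wt p) ≤ η ∧
      ∀ γ ∈ s'.2, ∀ β ∈ s'.2, γ ≤ β → γ ∈ Clo.C p β) fun a s => by
    obtain ⟨b, hb, y, hy, h1, h2⟩ := S.exists_avg a s.1
    obtain ⟨n, hn⟩ := eventually_atTop.1 ((eventually_tiny (l1 y) hη).and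
      ((eventually_all_finset (s.2 ∪ y.support)).2 fun γ _ =>
      (eventually_all_finset (s.2 ∪ y.support)).2 fun β _ => (show ∀ᶠ p in atTop,
        γ ≤ β → γ ∈ Clo.C p β from eventually_imp_distrib_left.2 (Clo.ev γ β))))
    exact ⟨b, hb, y, hy, (max n (s.1 + 1), _), h1, h2, by simp, rfl,
      fun p hp => hn p ((le_max_left _ _).trans hp)⟩
  have h4 : Monotone fun i => (s i).2 := monotone_nat_of_le_succ fun i => by
    rw [(h1 i).2.2.2.1]; exact subset_union_left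
  have h5 : ∀ i j, i ≤ j → ∀ γ, v i γ ≠ 0 → γ ∈ (s (j + 1)).2 := fun i j h γ hγ =>
    h4 (Nat.succ_le_succ h) (show γ ∈ (s (i + 1)).2 by
      rw [(h1 i).2.2.2.1]; exact mem_union_right _ (Finsupp.mem_support_iff.2 hγ))
  exact ⟨v, fun i => (s i).1, ⟨h2, fun i => (h1 i).1, fun i => (h1 i).2.1,
    strictMono_nat_of_lt_succ fun i => (h1 i).2.2.1, fun i p hp => ((h1 i).2.2.2.2 p hp).1,
    fun i j h p hp γ β hγ hβ => ((h1 j).2.2.2.2 p hp).2 γ (h5 i j h γ hγ) β (h5 j j le_rfl β hβ)⟩,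
    congrArg Prod.fst h0, h3⟩

/-- First colours above `a` of the segments which are large on `v`. -/
def Cls (a : ℕ) (η : ℝ) (v : Ω →₀ 𝕜) : Set ℕ :=
  {c | ∃ s : Seg Ω, s.OK (W Ω) ∧ (∀ k ∈ s.A, a < s.c k) ∧ η < ‖pair s.fn v‖ ∧
    ∃ k₀, s.c k₀ = c ∧ a < c ∧ ∀ k < k₀, s.c k ≤ a}

theorem width {a w : ℕ} {η : ℝ} {v : Ω →₀ 𝕜} (hv : N v = 1) (hw : 2 < w * η) (ha : w ≤ a) :
    ∃ cc : Fin w → ℕ, Cls a η v ⊆ Set.range cc := by
  classical
  have key : ∀ T : Finset ℕ, ↑T ⊆ Cls a η v → T.card ≠ w := by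
    intro T hT hc
    have : Nonempty (Seg Ω) := ⟨⟨0, 0, ∅, ∅⟩⟩
    choose! σ h1 h2 h3 k₀ h4 h5 h6 using fun l (hl : l ∈ T) => hT hl
    have h7 := fam_bound (T := T) (σ := σ) h1 (fun l hl l' hl' hne k hk k' hk' e => by
      obtain ⟨rfl, h8⟩ := (h1 _ hl).br.eq_of_col (h1 _ hl').br e
      have a1 : k₀ l ≤ k := not_lt.1 fun h => (h6 _ hl k h).not_gt (h2 _ hl k hk)
      have a2 : k₀ l' ≤ k := not_lt.1 fun h => (h6 _ hl' k h).not_gt (h2 _ hl' k hk')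
      have a3 : k₀ l' ≤ k₀ l := not_lt.1 fun h => (h6 _ hl' _ h).not_gt (by
        rw [← h8 _ a1, h4 _ hl]; exact h5 _ hl)
      have a4 : k₀ l ≤ k₀ l' := not_lt.1 fun h => (h6 _ hl _ h).not_gt (by
        rw [h8 _ a2, h4 _ hl']; exact h5 _ hl')
      exact hne (by rw [← h4 _ hl, h8 _ a1, le_antisymm a4 a3, h4 _ hl']))
      (fun l hl k hk => by rw [hc]; exact ha.trans (h2 _ hl k hk).le) v
    have h8 := card_nsmul_le_sum T _ η fun l hl => (h3 _ hl).le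
    rw [hc, nsmul_eq_mul] at h8
    linarith
  have hf : (Cls a η v).Finite := by
    by_contra h
    obtain ⟨T, hT, hc⟩ := Set.Infinite.exists_subset_card_eq h w
    exact key T hT hc
  have hlt : hf.toFinset.card < w := not_le.1 fun h => by
    obtain ⟨T, hT, hc⟩ := exists_subset_card_eq h
    exact key T (fun x hx => hf.mem_toFinset.1 (hT hx)) hc
  refine ⟨fun i => hf.toFinset.toList.getD i 0, fun x hx => ?_⟩
  obtain ⟨i, hi, e⟩ := List.getElem_of_mem (mem_toList.2 (hf.mem_toFinset.2 hx))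
  exact ⟨⟨i, by rw [length_toList] at hi; omega⟩, by simp [List.getElem?_eq_getElem hi, e]⟩

/-- The canonical past of a colour. -/
noncomputable def past (c : ℕ) : Ω → ℚ := fun γ => (dec c).2.1 (Clo.C (dec c).2.2 γ).card

theorem past_spec {η : ℝ} {v : ℕ → Ω →₀ 𝕜} {a : ℕ → ℕ} (h : RIS η v a) {q : ℕ}
    (hq : 4 * (2 / wt (q + 1) : ℝ) ≤ η) {s : Seg Ω} (hs : s.OK (W Ω)) (hs' : ∀ k ∈ s.A, q < s.c k)
    {b k₀ k₂ : ℕ} (h1 : b < s.c k₀) (h2 : ∀ k < k₀, s.c k ≤ b) (h3 : k₂ ∈ s.A) (h4 : b < s.c k₂) :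
    ∃ (u : ℕ) (E : Set Ω), E.OrdConnected ∧
      (∀ l < u, pair (s.cut (· ≤ b)).fn (v l) = pair (E.indicator (past (s.c k₀))) (v l)) ∧
      ∀ l > u, ‖pair (s.cut (· ≤ b)).fn (v l)‖ ≤ η := by
  have hA : ∀ k, k ∈ (s.cut (· ≤ b)).A ↔ k ∈ s.A ∧ k < k₀ := fun k => by
    simp only [Seg.cut, mem_filter]
    exact and_congr_right fun _ => ⟨fun h => hs.br.mono.lt_iff_lt.1 (h.trans_lt h1), h2 k⟩
  have hk₂ : k₀ ≤ k₂ := not_lt.1 fun h => (h2 _ h).not_gt h4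
  rcases k₀ with _ | k₁
  · refine ⟨0, ∅, Set.ordConnected_empty, by simp, fun l _ => ?_⟩
    exact (seg_low (hs.cut_le b) (fun k hk => absurd ((hA k).1 hk).2 (by simp)) (h.avg l)).trans hq
  have hex : ∃ l, s.c k₁ < a (l + 1) := ⟨s.c k₁, h.mono.le_apply⟩
  obtain ⟨α, hα⟩ := hs.br.code k₁
  set p := (dec (s.c (k₁ + 1))).2.2
  refine ⟨Nat.find hex, s.E ∩ {γ | ∀ k < k₁ + 1, k ∉ s.A → ∀ β, s.w k β ≠ 0 → β < γ} ∩
    {γ | ∃ l < Nat.find hex, ∃ β, v l β ≠ 0 ∧ β ∈ Clo.C p α ∧ γ ≤ β}, ?_, fun l hl => ?_,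
    fun l hl => ?_⟩
  · refine (hs.conn.inter ⟨fun x hx _ _ z hz => ?_⟩).inter ⟨fun _ _ y hy z hz => ?_⟩
    · exact fun k h1 h2 β hβ => (hx k h1 h2 β hβ).trans_le hz.1
    · obtain ⟨l, hl, β, a1, a2, a3⟩ := hy
      exact ⟨l, hl, β, a1, a2, hz.2.trans a3⟩
  · refine pair_congr fun γ hγ => ?_
    have e1 : (s.cut (· ≤ b)).fn γ = s.E.indicator (∑ k ∈ (s.cut (· ≤ b)).A, s.w k) γ := by
      by_cases h : γ ∈ s.E <;> simp [Seg.fn, Seg.cut, h]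
    rw [e1, ← Set.indicator_indicator, ← Set.indicator_indicator]
    by_cases hE : γ ∈ s.E
    swap
    · rw [Set.indicator_of_notMem hE, Set.indicator_of_notMem hE]
    rw [Set.indicator_of_mem hE, Set.indicator_of_mem hE, Finset.sum_apply]
    by_cases hU : γ ∈ {γ | ∀ k < k₁ + 1, k ∉ s.A → ∀ β, s.w k β ≠ 0 → β < γ}
    swap
    · rw [Set.indicator_of_notMem hU]
      simp only [Set.mem_ofPred_eq, not_forall, not_lt] at hU
      obtain ⟨k, a1, a2, β, a3, a4⟩ := hU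
      refine sum_eq_zero fun k' hk' => not_not.1 fun h' => ?_
      have hk := ((hA k').1 hk').1
      have : k < k' := not_le.1 fun h => a2 (hs.conv.out hk h3 ⟨h, by omega⟩)
      exact (hs.br.succ k k' this β γ a3 h').not_ge a4
    rw [Set.indicator_of_mem hU, sum_subset (s₂ := range (k₁ + 1))
      (fun k hk => mem_range.2 ((hA k).1 hk).2) fun k hk hk' => not_not.1 fun h' => lt_irrefl _
        (hU k (mem_range.1 hk) (fun h => hk' ((hA k).2 ⟨h, mem_range.1 hk⟩)) γ h'),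
      ← Finset.sum_apply, hα]
    split_ifs with hC
    · rw [Set.indicator_of_mem]
      · rfl
      · exact ⟨l, hl, γ, hγ, hC, le_rfl⟩
    · rw [Set.indicator_of_notMem]
      rintro ⟨l', hl', β, a1, a2, a3⟩
      have a4 : l ≤ l' := not_lt.1 fun h' => (h.succ l' l h' β γ a1 hγ).not_ge a3
      exact hC ((Clo.coh p α β a2 γ).1 (h.clo l l' a4 p ((not_lt.1 (Nat.find_min hex hl')).trans
        (hs.br.lev k₁)) γ β hγ a1 a3)).1
  · refine (seg_low (hs.cut_le b) (fun k hk => ⟨hs' k ((hA k).1 hk).1, ?_⟩) (h.avg l)).trans hq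
    exact (hs.br.mono.monotone (Nat.le_of_lt_succ ((hA k).1 hk).2)).trans
      ((Nat.find_spec hex).le.trans (h.mono.monotone hl))

open Classical in
/-- Truncation to the unit ball. -/
noncomputable def clamp (x : 𝕜) : 𝕜 := if ‖x‖ ≤ 1 then x else 0

theorem pattern {η : ℝ} {v : ℕ → Ω →₀ 𝕜} {a : ℕ → ℕ} (h : RIS η v a) {q w : ℕ}
    (hq : 4 * (2 / wt (q + 1) : ℝ) ≤ η) {cc : ℕ → Fin w → ℕ}
    (hcc : ∀ t, Cls (a t) η (v t) ⊆ Set.range (cc t)) {α : Fin w → 𝕜} (hα : ∀ i, ‖α i‖ ≤ 1)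
    (hom : ∀ l t, l < t → ∀ i, ‖clamp (pair (past (cc t i)) (v l)) - α i‖ ≤ η)
    {s : Seg Ω} (hs : s.OK (W Ω)) (hs' : ∀ k ∈ s.A, q < s.c k) (x y : ℕ) :
    ∃ (l₁ l₂ : ℕ) (β : 𝕜) (X : Finset ℕ), ‖β‖ ≤ 1 ∧ X.card ≤ 4 ∧ Ioo l₁ l₂ ⊆ Ico x y ∧
      ∀ l ∈ Ico x y, l ∉ X → ‖pair s.fn (v l) - if l ∈ Ioo l₁ l₂ then β else 0‖ ≤ 2 * η := by
  classical
  have hη : 0 ≤ η := le_trans (by have := wt_pos (q + 1); positivity) hq
  have hnl : ∀ l, ¬ η < ‖pair (s.cut fun j => ¬ j ≤ a l).fn (v l)‖ → ‖pair s.fn (v l)‖ ≤ 2 * η := by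
    intro l hl
    rw [s.fn_cut (· ≤ a l)]
    have := (seg_low (hs.cut_le (a l)) (p := q + 1) (fun k hk =>
      ⟨hs' k (mem_filter.1 hk).1, (mem_filter.1 hk).2⟩) (h.avg l)).trans hq
    linarith [norm_pair_add_le (v l) (s.cut (· ≤ a l)).fn (s.cut fun j => ¬ j ≤ a l).fn]
  rcases ((Ico x y).filter fun l =>
    η < ‖pair (s.cut fun j => ¬ j ≤ a l).fn (v l)‖).eq_empty_or_nonempty with hL | hL
  · refine ⟨0, 0, 0, ∅, by simp, by simp, by simp, fun l hl _ => ?_⟩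
    simpa using hnl l (filter_eq_empty_iff.1 hL hl)
  set t := max' _ hL
  have ht := (mem_filter.1 (max'_mem _ hL)).2
  obtain ⟨k₂, hk₂⟩ : (s.cut fun j => ¬ j ≤ a t).A.Nonempty := nonempty_iff_ne_empty.2 fun e => by
    rw [Seg.fn, e, sum_empty, pair_zero, norm_zero] at ht
    exact ht.not_ge hη
  have hex : ∃ k, a t < s.c k := ⟨k₂, not_le.1 (mem_filter.1 hk₂).2⟩
  obtain ⟨i, hi⟩ := hcc t (a := s.c (Nat.find hex)) ⟨_, hs.cut_gt (a t),
    fun k hk => not_le.1 (mem_filter.1 hk).2, ht, Nat.find hex, rfl, Nat.find_spec hex,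
    fun k hk => not_lt.1 (Nat.find_min hex hk)⟩
  obtain ⟨u, E, hE, h1, h2⟩ := past_spec h hq hs hs' (Nat.find_spec hex)
    (fun k hk => not_lt.1 (Nat.find_min hex hk)) (mem_filter.1 hk₂).1
    (not_le.1 (mem_filter.1 hk₂).2)
  rw [← hi] at h1
  have h3 : ∀ l < t, ‖pair s.fn (v l) - pair (s.cut (· ≤ a t)).fn (v l)‖ ≤ η := by
    intro l hl
    rw [s.fn_cut (· ≤ a t), pair_add, add_sub_cancel_left]
    exact (seg_tiny (hs.cut_gt (a t)) (fun k hk => (not_le.1 (mem_filter.1 hk).2).le) _).trans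
      (h.tiny l _ (h.mono.monotone hl))
  let M := (Ico x y).filter fun l => l < t ∧ l < u ∧ ∃ γ, v l γ ≠ 0 ∧ γ ∈ E
  obtain ⟨l₁, l₂, h4, h5⟩ : ∃ l₁ l₂, (∀ l ∈ M, l ∈ Ioo l₁ l₂ ∨ l = l₁ ∨ l = l₂) ∧
      ∀ l ∈ Ioo l₁ l₂, l₁ ∈ M ∧ l₂ ∈ M := by
    rcases M.eq_empty_or_nonempty with e | hM
    · exact ⟨0, 0, by simp [e], by simp⟩
    · refine ⟨M.min' hM, M.max' hM, fun l hl => ?_, fun _ _ => ⟨min'_mem _ _, max'_mem _ _⟩⟩
      have := min'_le _ l hl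
      have := le_max' _ l hl
      rw [mem_Ioo]
      omega
  refine ⟨l₁, l₂, α i, {t, u, l₁, l₂}, hα i, card_le_four, fun l hl => ?_, fun l hl hX => ?_⟩
  · have a1 := mem_Ico.1 (mem_filter.1 (h5 l hl).1).1
    have a2 := mem_Ico.1 (mem_filter.1 (h5 l hl).2).1
    rw [mem_Ioo] at hl
    rw [mem_Ico]
    omega
  simp only [mem_insert, mem_singleton, not_or] at hX
  split_ifs with hI
  · obtain ⟨-, -, -, γ₁, a1, a2⟩ := mem_filter.1 (h5 l hI).1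
    obtain ⟨-, b1, b2, γ₂, a3, a4⟩ := mem_filter.1 (h5 l hI).2
    rw [mem_Ioo] at hI
    have e : pair (s.cut (· ≤ a t)).fn (v l) = pair (past (cc t i)) (v l) := by
      rw [h1 l (by omega)]
      exact pair_congr fun γ hγ => Set.indicator_of_mem (hE.out a2 a4
        ⟨(h.succ _ _ hI.1 _ _ a1 hγ).le, (h.succ _ _ hI.2 _ _ hγ a3).le⟩) _
    have a5 := hom l t (by omega) i
    rw [← e, clamp, if_pos ((le_N (hs.cut_le (a t)).mem_W _).trans (h.norm l).le)] at a5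
    linarith [norm_sub_le_norm_sub_add_norm_sub (pair s.fn (v l))
      (pair (s.cut (· ≤ a t)).fn (v l)) (α i), h3 l (by omega)]
  rw [sub_zero]
  rcases lt_or_gt_of_ne hX.1 with hlt | hlt
  · have a1 := h3 l hlt
    have a2 : ‖pair (s.cut (· ≤ a t)).fn (v l)‖ ≤ η := by
      rcases lt_or_gt_of_ne hX.2.1 with hu | hu
      · rw [h1 l hu, pair_eq_zero, norm_zero]
        · exact hη
        · refine fun γ hγ => Set.indicator_of_notMem (fun hγ' => ?_) _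
          rcases h4 l (mem_filter.2 ⟨hl, hlt, hu, γ, hγ, hγ'⟩) with h | h | h
          · exact hI h
          · exact hX.2.2.1 h
          · exact hX.2.2.2 h
      · exact h2 l hu
    linarith [norm_le_norm_sub_add (pair s.fn (v l)) (pair (s.cut (· ≤ a t)).fn (v l))]
  · exact hnl l fun h' => (le_max' _ l (mem_filter.2 ⟨hl, h'⟩)).not_gt hlt

theorem alt_sum_le {S : ℕ → 𝕜} (hS : ∀ l, ‖S l‖ ≤ 1) {x n l₁ l₂ : ℕ} {β : 𝕜} {X : Finset ℕ} {η : ℝ}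
    (hη : 0 ≤ η) (hβ : ‖β‖ ≤ 1) (hX : X.card ≤ 4) (hI : Ioo l₁ l₂ ⊆ Ico x (x + n))
    (h : ∀ l ∈ Ico x (x + n), l ∉ X → ‖S l - if l ∈ Ioo l₁ l₂ then β else 0‖ ≤ η) :
    ‖∑ l ∈ Ico x (x + n), (-1) ^ l * S l‖ ≤ 10 + η * n := by
  have e : ∑ l ∈ Ico x (x + n), (-1) ^ l * S l = (∑ l ∈ Ioo l₁ l₂, (-1) ^ l) * β +
      ∑ l ∈ Ico x (x + n), (-1) ^ l * (S l - if l ∈ Ioo l₁ l₂ then β else 0) := by
    simp only [mul_sub, sum_sub_distrib, mul_ite, mul_zero, sum_ite_mem, inter_eq_right.2 hI,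
      sum_mul]
    ring
  have h1 : ‖∑ l ∈ Ioo l₁ l₂, (-1 : 𝕜) ^ l‖ ≤ 2 := by
    have : ∀ m, ‖∑ l ∈ range m, (-1 : 𝕜) ^ l‖ ≤ 1 := fun m => by
      rw [neg_one_geom_sum]; split_ifs <;> simp
    rw [← Ico_add_one_left_eq_Ioo]
    rcases le_total (l₁ + 1) l₂ with h | h
    · rw [sum_Ico_eq_sub _ h]
      linarith [norm_sub_le (∑ l ∈ range l₂, (-1 : 𝕜) ^ l) (∑ l ∈ range (l₁ + 1), (-1) ^ l),
        this l₂, this (l₁ + 1)]
    · simp [Ico_eq_empty_of_le h]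
  have h2 : ∑ l ∈ Ico x (x + n), ‖(-1) ^ l * (S l - if l ∈ Ioo l₁ l₂ then β else 0)‖ ≤
      ∑ l ∈ Ico x (x + n), (η + if l ∈ X then 2 else 0) := by
    refine sum_le_sum fun l hl => ?_
    rw [norm_mul, norm_pow, norm_neg, norm_one, one_pow, one_mul]
    by_cases hX : l ∈ X
    · rw [if_pos hX]
      have : ‖if l ∈ Ioo l₁ l₂ then β else 0‖ ≤ 1 := by split_ifs <;> simp [hβ]
      linarith [norm_sub_le (S l) (if l ∈ Ioo l₁ l₂ then β else 0), hS l]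
    · rw [if_neg hX, add_zero]; exact h l hl hX
  rw [sum_add_distrib, sum_ite_mem] at h2
  simp only [sum_const, Nat.card_Ico, add_tsub_cancel_left, nsmul_eq_mul] at h2
  have h3 : (((Ico x (x + n) ∩ X).card : ℕ) : ℝ) ≤ 4 := by
    exact_mod_cast (card_le_card inter_subset_right).trans hX
  rw [e]
  refine (norm_add_le _ _).trans ?_
  have h4 := norm_sum_le (Ico x (x + n))
    fun l => (-1) ^ l * (S l - if l ∈ Ioo l₁ l₂ then β else 0)
  have h5 := mul_le_mul h1 hβ (norm_nonneg _) zero_le_two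
  rw [norm_mul]
  linarith

/-- Segments of large colours are small on `u`. -/
def Small (q : ℕ) (η : ℝ) (u : Ω →₀ 𝕜) : Prop :=
  ∀ s : Seg Ω, s.OK (W Ω) → (∀ k ∈ s.A, q < s.c k) → ‖pair s.fn u‖ ≤ η

theorem Supply.exists_small [Nonempty Ω] (S : Supply 𝕜 Ω) (a₀ : ℕ) {θ : ℝ} (hθ : 0 < θ) :
    ∃ b, a₀ < b ∧ ∃ u ∈ S.V a₀ b, N u = 1 ∧ ∃ q, Avg q u ∧ Small q θ u := by
  obtain ⟨η, hη, h1, h2⟩ : ∃ η > 0, η ≤ θ / 2 ∧ η ≤ θ ^ 2 / 16 :=
    ⟨min _ _, by positivity, min_le_left _ _, min_le_right _ _⟩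
  obtain ⟨w, hw⟩ := exists_nat_gt (2 / η)
  rw [div_lt_iff₀ hη] at hw
  obtain ⟨v, a, h, h0, hV⟩ := S.exists_ris a₀ w hη
  by_cases hc : ∃ t, Small (a t) θ (v t)
  · obtain ⟨t, ht⟩ := hc
    obtain ⟨b, hb, h3⟩ := hV (t + 1)
    exact ⟨b, hb, v t, h3 t (by omega), h.norm t, a t, h.avg t, ht⟩
  choose cc hcc using fun t => width (η := η) (h.norm t) hw (h0 ▸ h.mono.monotone (Nat.zero_le t))
  obtain ⟨φ, hφ, α, hα, hom⟩ := ramsey_compact (isCompact_closedBall (0 : Fin w → 𝕜) 1)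
    (fun l t i => clamp (pair (past (cc t i)) (v l))) (fun l t => by
      rw [mem_closedBall_zero_iff, pi_norm_le_iff_of_nonneg zero_le_one]
      intro i
      unfold clamp
      split_ifs with h <;> simp [h]) hη
  obtain ⟨q, hq⟩ := ((tendsto_add_atTop_nat 1).eventually (eventually_tiny 4 hη)).exists
  obtain ⟨k, hk⟩ := pow_unbounded_of_one_lt (4 / θ) one_lt_two
  obtain ⟨M, hM, hM'⟩ := ((eventually_ge_atTop (cum (q + 1))).and
    (tendsto_natCast_atTop_atTop.eventually_ge_atTop (80 / θ ^ 2))).exists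
  let ψ : ℕ → ℕ := fun l => φ (l + M ^ k)
  have hψ : StrictMono ψ := fun _ _ h => hφ (by omega)
  have h' := h.comp hψ
  let x : ℕ → Ω →₀ 𝕜 := fun l => (-1 : 𝕜) ^ l • v (ψ l)
  have hx : ∀ i i', i < i' → Succ (x i) (x i') := fun i i' hi a b ha hb =>
    h'.succ i i' hi a b (right_ne_zero_of_mul ha) (right_ne_zero_of_mul hb)
  have hlow : ∀ s n, n ≤ M ^ k → θ / 4 * n ≤ N (∑ i ∈ Ico s (s + n), x i) := by
    intro s n hn
    simp only [Small, not_exists, not_forall, not_le] at hc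
    choose σ b1 b2 b3 using hc
    have b4 := fam_bound (T := Ico s (s + n)) (σ := fun l => ((σ (ψ l)).cut
      (· ≤ a (ψ (l + 1)))).res (hull (v (ψ l))))
      (fun l _ => ((b1 _).cut_le _).res (hull_conn _)) (fun l _ l' _ hne k hk k' hk' e => by
        have c1 := b2 _ k (mem_filter.1 hk).1
        have c2 := b2 _ k' (mem_filter.1 hk').1
        have c3 := (mem_filter.1 hk).2
        have c4 := (mem_filter.1 hk').2
        change (σ _).c k = (σ _).c k' at e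
        rcases lt_or_gt_of_ne hne with h3 | h3
        · have := h'.mono.monotone (show l + 1 ≤ l' from h3)
          omega
        · have := h'.mono.monotone (show l' + 1 ≤ l from h3)
          omega) (fun l _ k' hk => by
        have c1 := b2 _ k' (mem_filter.1 hk).1
        have c2 : ψ l ≤ a (ψ l) := h.mono.le_apply
        have c3 : l + M ^ k ≤ ψ l := hφ.le_apply
        change _ ≤ (σ _).c k'
        rw [Nat.card_Ico]
        omega) (∑ i ∈ Ico s (s + n), x i)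
    have b5 := card_nsmul_le_sum (Ico s (s + n)) (fun l => ‖pair (((σ (ψ l)).cut
      (· ≤ a (ψ (l + 1)))).res (hull (v (ψ l)))).fn (∑ i ∈ Ico s (s + n), x i)‖) (θ / 2)
      fun l hl => by
        rw [Seg.fn_res, ← pair_rs, rs_hull_sum h'.succ _ hl, map_smul, norm_smul, norm_pow,
          norm_neg, norm_one, one_pow, one_mul]
        have c1 := b3 (ψ l)
        rw [(σ (ψ l)).fn_cut (· ≤ a (ψ (l + 1)))] at c1
        have c2 := (seg_tiny ((b1 (ψ l)).cut_gt (a (ψ (l + 1))))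
          (fun k hk => (not_le.1 (mem_filter.1 hk).2).le) (v (ψ l))).trans (h'.tiny l _ le_rfl)
        linarith [c1.trans_le (norm_pair_add_le _ _ _)]
    rw [Nat.card_Ico, add_tsub_cancel_left, nsmul_eq_mul] at b5
    linarith
  have hM0 : (0 : ℝ) < M := lt_of_lt_of_le (by positivity) hM'
  rcases krivine hx (fun i => by
    simp only [x, N, map_smul, norm_smul, norm_pow, norm_neg, norm_one, one_pow, one_mul]
    exact (h'.norm i).le) hM k 0 with h3 | ⟨s, n, h3, h4, h5, h6⟩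
  · exfalso
    have := (hlow 0 _ le_rfl).trans h3
    rw [div_pow, le_div_iff₀ (by positivity)] at this
    rw [div_lt_iff₀ hθ] at hk
    push_cast at this
    nlinarith [pow_pos hM0 k]
  obtain ⟨b, hb, h7⟩ := hV (ψ (s + n))
  refine ⟨b, hb, _, Submodule.smul_mem _ _ (Submodule.sum_mem _ fun i hi => Submodule.smul_mem _ _
    (h7 _ (hψ (mem_Ico.1 hi).2))), N_normalize h5, q, h6, fun σ b1 b2 => ?_⟩
  obtain ⟨l₁, l₂, β, X, c1, c2, c3, c4⟩ := pattern h' hq (cc := fun t => cc (ψ t))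
    (fun t => hcc _) (α := α) (fun i => (norm_le_pi_norm α i).trans (mem_closedBall_zero_iff.1 hα))
    (fun l t hl i => by
      have := hom (l + M ^ k) (t + M ^ k) (by omega)
      rw [dist_eq_norm] at this
      exact (norm_le_pi_norm _ i).trans this) b1 b2 s (s + n)
  have c5 := alt_sum_le (fun l => (le_N b1.mem_W _).trans (h'.norm l).le) (by positivity)
    c1 c2 c3 c4
  rw [map_smul, norm_smul, RCLike.norm_ofReal, abs_of_pos (inv_pos.2 h5), inv_mul_le_iff₀ h5,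
    map_sum]
  simp only [x, map_smul, smul_eq_mul]
  refine c5.trans (le_trans ?_ (mul_le_mul_of_nonneg_right (hlow s n h4) hθ.le))
  have c6 : (M : ℝ) ≤ n := by exact_mod_cast h3
  rw [div_le_iff₀ (by positivity)] at hM'
  nlinarith [sq_pos_of_pos hθ]

end Vale.Agent.P129
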