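import Vale.Agent.P129.CHExact
import Mathlib.Analysis.Normed.Operator.Extend
import Mathlib.Algebra.BigOperators.Finprod

/-! The completed space, projections, functionals and tails. -/

namespace Vale.Agent.P129

open Filter Topology Finset
open scoped ENNReal

variable {𝕜 : Type*} [RCLike 𝕜] {Ω : Type} [LinearOrder Ω] [Clo Ω]

variable (𝕜 Ω) in
/-- The completion of the finitely supported vectors. -/
def G := ↥(LinearMap.range (emb 𝕜 Ω)).topologicalClosure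

noncomputable instance : NormedAddCommGroup (G 𝕜 Ω) :=
  inferInstanceAs (NormedAddCommGroup (LinearMap.range (emb 𝕜 Ω)).topologicalClosure)

noncomputable instance : NormedSpace 𝕜 (G 𝕜 Ω) :=
  inferInstanceAs (NormedSpace 𝕜 (LinearMap.range (emb 𝕜 Ω)).topologicalClosure)

instance : CompleteSpace (G 𝕜 Ω) :=
  inferInstanceAs (CompleteSpace (LinearMap.range (emb 𝕜 Ω)).topologicalClosure)

/-- The dense embedding. -/
noncomputable def J : (Ω →₀ 𝕜) →ₗ[𝕜] G 𝕜 Ω :=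
  (emb 𝕜 Ω).codRestrict _ fun z => Submodule.le_topologicalClosure _ ⟨z, rfl⟩

theorem norm_J (z : Ω →₀ 𝕜) : ‖J z‖ = N z := rfl

theorem dense_J : DenseRange (J : (Ω →₀ 𝕜) → G 𝕜 Ω) := fun x => by
  refine closure_subtype.2 (closure_mono ?_ x.2)
  rintro _ ⟨z, rfl⟩
  exact ⟨J z, ⟨z, rfl⟩, rfl⟩

section ext

variable {F : Type*} [NormedAddCommGroup F] [NormedSpace 𝕜 F] [CompleteSpace F]

/-- Extension by density. -/
noncomputable def xt (f : (Ω →₀ 𝕜) →ₗ[𝕜] F) : G 𝕜 Ω →L[𝕜] F := f.extendOfNorm J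

theorem xt_J {f : (Ω →₀ 𝕜) →ₗ[𝕜] F} (h : ∃ C, ∀ z, ‖f z‖ ≤ C * ‖J z‖) (z : Ω →₀ 𝕜) :
    xt f (J z) = f z :=
  LinearMap.extendOfNorm_eq (f := f) (e := J) (dense_J (𝕜 := 𝕜) (Ω := Ω)) h z

theorem xt_le {f : (Ω →₀ 𝕜) →ₗ[𝕜] F} (h : ∀ z, ‖f z‖ ≤ N z) (x : G 𝕜 Ω) : ‖xt f x‖ ≤ ‖x‖ := by
  have := LinearMap.norm_extendOfNorm_apply_le (f := f) (e := J) (dense_J (𝕜 := 𝕜) (Ω := Ω)) 1
    (fun z => by rw [one_mul]; exact h z) x
  rwa [one_mul] at this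

end ext

variable (𝕜) in
/-- Bounded functionals. -/
def Bdd (t : Ω → ℚ) : Prop := ∃ C, ∀ z : Ω →₀ 𝕜, ‖pair t z‖ ≤ C * ‖J z‖

/-- The functional given by a family of coefficients. -/
noncomputable def fn (t : Ω → ℚ) : StrongDual 𝕜 (G 𝕜 Ω) := xt (pair t)

theorem fn_J {t : Ω → ℚ} (h : Bdd 𝕜 t) (z : Ω →₀ 𝕜) : fn t (J z) = pair t z := xt_J h z

theorem bdd_of_le {t : Ω → ℚ} (h : ∀ z : Ω →₀ 𝕜, ‖pair t z‖ ≤ N z) : Bdd 𝕜 t :=
  ⟨1, fun z => by rw [one_mul]; exact h z⟩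

theorem fn_le {t : Ω → ℚ} (h : ∀ z : Ω →₀ 𝕜, ‖pair t z‖ ≤ N z) (x : G 𝕜 Ω) : ‖fn t x‖ ≤ ‖x‖ :=
  xt_le h x

theorem bdd_W {f : Ω → ℚ} (h : f ∈ W Ω) : Bdd 𝕜 f := bdd_of_le (le_N h)

theorem Bdd.add {s t : Ω → ℚ} (hs : Bdd 𝕜 s) (ht : Bdd 𝕜 t) : Bdd 𝕜 (s + t) :=
  let ⟨C, hC⟩ := hs
  let ⟨D, hD⟩ := ht
  ⟨C + D, fun z => (norm_pair_add_le z s t).trans (by rw [add_mul]; exact add_le_add (hC z) (hD z))⟩

theorem dual_ext {F : Type*} [NormedAddCommGroup F] [NormedSpace 𝕜 F] {φ ψ : G 𝕜 Ω →L[𝕜] F}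
    (h : ∀ z, φ (J z) = ψ (J z)) : φ = ψ :=
  ContinuousLinearMap.ext fun x => congrFun (dense_J.equalizer φ.continuous ψ.continuous
    (funext h)) x

theorem fn_add {s t : Ω → ℚ} (hs : Bdd 𝕜 s) (ht : Bdd 𝕜 t) :
    (fn (s + t) : StrongDual 𝕜 (G 𝕜 Ω)) = fn s + fn t :=
  dual_ext fun z => by rw [add_apply, fn_J hs, fn_J ht, fn_J (hs.add ht), pair_add]

/-- Coordinate functionals. -/
noncomputable def co (α : Ω) : StrongDual 𝕜 (G 𝕜 Ω) := fn (Pi.single α 1)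

theorem co_J (α : Ω) (z : Ω →₀ 𝕜) : co α (J z) = z α := by
  rw [co, fn_J (bdd_W (single_mem_W α)), pair_single]; simp

omit [Clo Ω] in
theorem pair_eq_sum {f : Ω → ℚ} {T : Finset Ω} (h : ∀ α, f α ≠ 0 → α ∈ T) (z : Ω →₀ 𝕜) :
    pair f z = ∑ α ∈ T, f α * z α := by
  rw [pair_apply, ← sum_subset (s₁ := T ∩ z.support) inter_subset_right fun α h1 h2 => by
    rw [not_not.1 fun h' => h2 (mem_inter.2 ⟨h α h', h1⟩)]; simp,
    sum_subset inter_subset_left fun α h1 h2 => by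
    rw [not_not.1 fun h' => h2 (mem_inter.2 ⟨h1, Finsupp.mem_support_iff.2 h'⟩)]; simp]
  exact sum_congr rfl fun _ _ => mul_comm _ _

theorem bdd_fin {f : Ω → ℚ} (h : f.support.Finite) : Bdd 𝕜 f :=
  ⟨∑ α ∈ h.toFinset, ‖(f α : 𝕜)‖, fun z => by
    rw [pair_eq_sum fun α hα => h.mem_toFinset.2 hα, sum_mul]
    refine (norm_sum_le _ _).trans (sum_le_sum fun α _ => ?_)
    rw [norm_mul]
    exact mul_le_mul_of_nonneg_left (coord_le_N z α) (norm_nonneg _)⟩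

theorem fn_eq_sum {f : Ω → ℚ} {T : Finset Ω} (h : ∀ α, f α ≠ 0 → α ∈ T) :
    (fn f : StrongDual 𝕜 (G 𝕜 Ω)) = ∑ α ∈ T, (f α : 𝕜) • co α :=
  dual_ext fun z => by
    rw [fn_J (bdd_fin (T.finite_toSet.subset h)), pair_eq_sum h]
    simp [co_J]

theorem norm_le_of_fn {x : G 𝕜 Ω} {B : ℝ} (h : ∀ f ∈ W Ω, ‖fn f x‖ ≤ B) : ‖x‖ ≤ B := by
  refine lp.norm_le_of_forall_le (f := x.1) ((norm_nonneg _).trans (h 0 zero_mem_W)) fun f => ?_
  have : fn f.1 = (lp.evalCLM 𝕜 (fun _ : W Ω => 𝕜) ∞ f).comp (Submodule.subtypeL _) :=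
    dual_ext fun z => fn_J (bdd_W f.2) z
  exact (le_of_eq (by rw [this]; rfl)).trans (h f.1 f.2)

/-- Projections onto intervals. -/
noncomputable def P (E : Set Ω) : G 𝕜 Ω →L[𝕜] G 𝕜 Ω := xt (J ∘ₗ rs E)

theorem P_J {E : Set Ω} (hE : E.OrdConnected) (z : Ω →₀ 𝕜) : P E (J z) = J (rs E z) :=
  xt_J ⟨1, fun z => by rw [one_mul]; exact N_rs_le hE z⟩ z

theorem P_le {E : Set Ω} (hE : E.OrdConnected) (x : G 𝕜 Ω) : ‖P E x‖ ≤ ‖x‖ :=
  xt_le (N_rs_le hE) x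

theorem P_P {E F : Set Ω} (hE : E.OrdConnected) (hF : F.OrdConnected) (x : G 𝕜 Ω) :
    P E (P F x) = P (E ∩ F) x := by
  refine DFunLike.congr_fun (dual_ext (φ := (P E).comp (P F)) fun z => ?_) x
  rw [ContinuousLinearMap.comp_apply, P_J hF, P_J hE, P_J (hE.inter hF)]
  congr 1
  ext α
  by_cases h : α ∈ E <;> by_cases h' : α ∈ F <;> simp [rs_of_mem, rs_of_notMem, h, h']

theorem P_union {E F : Set Ω} (hE : E.OrdConnected) (hF : F.OrdConnected)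
    (h : (E ∪ F).OrdConnected) (hd : Disjoint E F) (x : G 𝕜 Ω) :
    P (E ∪ F) x = P E x + P F x := by
  refine DFunLike.congr_fun (dual_ext (ψ := P E + P F) fun z => ?_) x
  rw [add_apply, P_J hF, P_J hE, P_J h, ← map_add]
  congr 1
  ext α
  have : α ∈ E → α ∉ F := fun h => Set.disjoint_left.1 hd h
  by_cases h : α ∈ E <;> by_cases h' : α ∈ F <;> simp_all [rs_of_mem, rs_of_notMem]

theorem P_empty (x : G 𝕜 Ω) : P ∅ x = 0 := by
  refine DFunLike.congr_fun (dual_ext (ψ := 0) fun z => ?_) x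
  rw [P_J Set.ordConnected_empty, rs_eq_zero fun _ _ => Set.notMem_empty _]; simp

theorem P_univ (x : G 𝕜 Ω) : P Set.univ x = x := by
  refine DFunLike.congr_fun (dual_ext (ψ := ContinuousLinearMap.id 𝕜 _) fun z => ?_) x
  rw [P_J Set.ordConnected_univ, rs_eq_self fun _ _ => Set.mem_univ _]; rfl

/-- Unit vectors. -/
noncomputable def un (α : Ω) : G 𝕜 Ω := J (Finsupp.single α 1)

theorem P_singleton (α : Ω) (x : G 𝕜 Ω) : P {α} x = co α x • un α := by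
  refine DFunLike.congr_fun (dual_ext (ψ := (co α).smulRight (un α)) fun z => ?_) x
  rw [P_J Set.ordConnected_singleton, ContinuousLinearMap.smulRight_apply, co_J, un, ← map_smul]
  congr 1
  ext β
  by_cases h : β = α
  · subst h; simp [rs_of_mem]
  · simp [rs_of_notMem, h]

theorem P_un_of_mem {E : Set Ω} (hE : E.OrdConnected) {α : Ω} (h : α ∈ E) :
    P E (un α : G 𝕜 Ω) = un α := by
  rw [un, P_J hE, rs_eq_self fun β hβ => by rwa [(Finsupp.single_apply_ne_zero.1 hβ).1]]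

theorem P_un_of_notMem {E : Set Ω} (hE : E.OrdConnected) {α : Ω} (h : α ∉ E) :
    P E (un α : G 𝕜 Ω) = 0 := by
  rw [un, P_J hE, rs_eq_zero fun β hβ => by rwa [(Finsupp.single_apply_ne_zero.1 hβ).1], map_zero]

theorem P_Iic (α : Ω) (x : G 𝕜 Ω) : P (Set.Iic α) x = P (Set.Iio α) x + co α x • un α := by
  rw [← Set.Iio_union_right, P_union Set.ordConnected_Iio Set.ordConnected_singleton
    (by rw [Set.Iio_union_right]; exact Set.ordConnected_Iic) (by simp), P_singleton]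

variable (𝕜) in
/-- Functionals supported by `E`. -/
def Supp (E : Set Ω) : Submodule 𝕜 (StrongDual 𝕜 (G 𝕜 Ω)) where
  carrier := {φ | ∀ x, φ (P E x) = φ x}
  add_mem' h h' x := by simp [h x, h' x]
  zero_mem' _ := rfl
  smul_mem' c _ h x := by simp [h x]

theorem isClosed_Supp (E : Set Ω) : IsClosed (Supp 𝕜 E : Set (StrongDual 𝕜 (G 𝕜 Ω))) := by
  have : (Supp 𝕜 E : Set (StrongDual 𝕜 (G 𝕜 Ω))) = ⋂ x, {φ | φ (P E x) = φ x} := by
    ext φ; simp only [Set.mem_iInter]; rfl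
  rw [this]
  exact isClosed_iInter fun x => isClosed_eq (by fun_prop) (by fun_prop)

theorem Supp_mono {E F : Set Ω} (hE : E.OrdConnected) (hF : F.OrdConnected) (h : E ⊆ F) :
    Supp 𝕜 E ≤ Supp 𝕜 F := fun φ hφ x => by
  rw [← hφ, P_P hE hF, Set.inter_eq_left.2 h, hφ]

theorem fn_P {t : Ω → ℚ} (ht : Bdd 𝕜 t) {E : Set Ω} (hE : E.OrdConnected)
    (ht' : Bdd 𝕜 (E.indicator t)) (x : G 𝕜 Ω) : fn t (P E x) = fn (E.indicator t) x := by
  refine DFunLike.congr_fun (dual_ext (φ := (fn t).comp (P E)) fun z => ?_) x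
  rw [ContinuousLinearMap.comp_apply, P_J hE, fn_J ht, fn_J ht', pair_rs]

theorem fn_mem_Supp {t : Ω → ℚ} (ht : Bdd 𝕜 t) {E : Set Ω} (hE : E.OrdConnected)
    (h : ∀ α, t α ≠ 0 → α ∈ E) : fn t ∈ Supp 𝕜 E := fun x => by
  have := Set.indicator_eq_self.2 (show t.support ⊆ E from h)
  rw [fn_P ht hE (by rwa [this]), this]

theorem co_mem_Supp (α : Ω) : co α ∈ Supp 𝕜 {α} :=
  fn_mem_Supp (bdd_W (single_mem_W α)) Set.ordConnected_singleton Pi.support_single_subset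

theorem Supp.eq_zero {E F : Set Ω} (hE : E.OrdConnected) (hF : F.OrdConnected) (h : Disjoint E F)
    {φ : StrongDual 𝕜 (G 𝕜 Ω)} (hφ : φ ∈ Supp 𝕜 E) {x : G 𝕜 Ω} (hx : P F x = x) : φ x = 0 := by
  rw [← hφ, ← hx, P_P hE hF, h.inter_eq, P_empty, map_zero]

theorem lower_est' [Nonempty Ω] {j : ℕ} (hJ : 1 ≤ j) (hJ' : (dec j).1 = [])
    {E : ℕ → Set Ω} (hE : ∀ r, (E r).OrdConnected)
    (hs : ∀ r r', r < r' → ∀ a ∈ E r, ∀ b ∈ E r', a < b) (x : G 𝕜 Ω) :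
    ∑ r ∈ range (len j), ‖P (E r) x‖ ≤ 2 * (wt j * ‖x‖) :=
  dense_J.induction_on x (isClosed_le (by fun_prop) (by fun_prop)) fun z => by
    simpa only [P_J (hE _), norm_J] using lower_est hJ hJ' le_rfl hE hs z

/-- Tails of a sequence. -/
noncomputable def tl (w : ℕ → Ω → ℚ) (n : ℕ) (γ : Ω) : ℚ := ∑ᶠ k, if n ≤ k then w k γ else 0

section tails

variable {w : ℕ → Ω → ℚ} {c : ℕ → ℕ}

theorem IsBr.ev_zero (h : IsBr (W Ω) w c) (γ : Ω) : ∀ᶠ m in atTop, ∀ k ≥ m, w k γ = 0 := by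
  by_cases h' : ∃ k, w k γ ≠ 0
  · obtain ⟨k, hk⟩ := h'
    filter_upwards [eventually_gt_atTop k] with m hm l hl
    exact not_not.1 fun h' => lt_irrefl _ (h.succ k l (by omega) γ γ hk h')
  · push Not at h'
    exact Eventually.of_forall fun _ k _ => h' k

theorem IsBr.tl_eq (h : IsBr (W Ω) w c) (γ : Ω) :
    ∀ᶠ m in atTop, ∀ n, tl w n γ = (∑ k ∈ Ico n m, w k) γ := by
  filter_upwards [h.ev_zero γ] with m hm n
  rw [tl, finsum_eq_sum_of_support_subset (s := Ico n m), Finset.sum_apply]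
  · exact sum_congr rfl fun k hk => if_pos (mem_Ico.1 hk).1
  · intro k hk
    simp only [Function.mem_support, ne_eq, ite_eq_right_iff, not_forall] at hk
    exact mem_coe.2 (mem_Ico.2 ⟨hk.1, not_le.1 fun h => hk.2 (hm k h)⟩)

theorem IsBr.pair_tl (h : IsBr (W Ω) w c) (z : Ω →₀ 𝕜) :
    ∀ᶠ m in atTop, ∀ n, pair (tl w n) z = pair (Seg.fn ⟨w, c, Set.univ, Ico n m⟩) z := by
  filter_upwards [(eventually_all_finset z.support).2 fun γ _ => h.tl_eq γ] with m hm n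
  exact pair_congr fun γ hγ => by simpa [Seg.fn] using hm γ (Finsupp.mem_support_iff.2 hγ) n

theorem IsBr.ok (h : IsBr (W Ω) w c) (n m : ℕ) : Seg.OK (W Ω) ⟨w, c, Set.univ, Ico n m⟩ :=
  ⟨h, Set.ordConnected_univ, by simpa using Set.ordConnected_Ico⟩

theorem IsBr.tl_le (h : IsBr (W Ω) w c) (n : ℕ) (z : Ω →₀ 𝕜) : ‖pair (tl w n) z‖ ≤ N z := by
  obtain ⟨m, hm⟩ := (h.pair_tl z).exists
  rw [hm]
  exact le_N (h.ok n m).mem_W z

theorem IsBr.bdd (h : IsBr (W Ω) w c) (n : ℕ) : Bdd 𝕜 (tl w n) := bdd_of_le (h.tl_le n)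

theorem IsBr.fn_tl (h : IsBr (W Ω) w c) (n : ℕ) : (fn (tl w 0) : StrongDual 𝕜 (G 𝕜 Ω)) =
    ∑ k ∈ range n, fn (w k) + fn (tl w n) := by
  induction n with
  | zero => simp
  | succ n ih =>
    rw [ih, sum_range_succ, add_assoc, ← fn_add (bdd_fin (h.node n).finite) (h.bdd _)]
    congr 2
    funext γ
    obtain ⟨m, hm, hm'⟩ := ((h.tl_eq γ).and (eventually_gt_atTop n)).exists
    rw [Pi.add_apply, hm, hm, sum_eq_sum_Ico_succ_bot hm', Pi.add_apply]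

theorem IsBr.tendsto (h : IsBr (W Ω) w c) (x : G 𝕜 Ω) {ε : ℝ} (hε : 0 < ε) :
    ∀ᶠ n in atTop, ‖fn (tl w n) x‖ ≤ ε := by
  obtain ⟨z, hz⟩ := dense_J.exists_dist_lt x hε
  filter_upwards [(eventually_all_finset z.support).2 fun γ _ => h.ev_zero γ] with n hn
  have h1 : fn (tl w n) (J z) = 0 := by
    rw [fn_J (h.bdd n)]
    refine pair_eq_zero fun γ hγ => finsum_eq_zero_of_forall_eq_zero fun k => ?_
    split_ifs with hk
    · exact hn γ (Finsupp.mem_support_iff.2 hγ) k hk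
    · rfl
  rw [← sub_zero (fn _ x), ← h1, ← map_sub]
  exact (fn_le (h.tl_le n) _).trans (by rw [← dist_eq_norm]; exact hz.le)

omit [LinearOrder Ω] [Clo Ω] in
theorem tl_ne_zero {n : ℕ} {γ : Ω} (h : tl w n γ ≠ 0) : ∃ k, w k γ ≠ 0 := by
  by_contra h'
  push Not at h'
  exact h (finsum_eq_zero_of_forall_eq_zero fun k => by simp [h'])

omit [LinearOrder Ω] [Clo Ω] in
theorem tl_zero_eq {k : ℕ} {γ : Ω} (h : ∀ l ≠ k, w l γ = 0) : tl w 0 γ = w k γ := by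
  rw [tl, finsum_eq_single _ k fun l hl => by simp [h l hl]]; simp

theorem tails_bound {T : Finset Ω} {w : Ω → ℕ → Ω → ℚ} {c : Ω → ℕ → ℕ}
    (h : ∀ β ∈ T, IsBr (W Ω) (w β) (c β)) (hc : ∀ β ∈ T, ∀ β' ∈ T, β ≠ β' → c β ≠ c β') :
    ∀ᶠ n in atTop, ∀ x : G 𝕜 Ω, ∑ β ∈ T, ‖fn (tl (w β) n) x‖ ≤ 2 * ‖x‖ := by
  have h1 : ∀ β ∈ T, ∀ β' ∈ T, ∀ᶠ n in atTop, β ≠ β' → ∀ k ≥ n, ∀ k', c β k ≠ c β' k' := by
    intro β hβ β' hβ'
    refine eventually_imp_distrib_left.2 fun hne => ?_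
    obtain ⟨i, hi⟩ := Function.ne_iff.1 (hc β hβ β' hβ' hne)
    filter_upwards [eventually_ge_atTop i] with n hn k hk k' e
    exact hi (((h β hβ).eq_of_col (h β' hβ') e).2 i (hn.trans hk))
  filter_upwards [(eventually_all_finset T).2 fun β hβ => (eventually_all_finset T).2 (h1 β hβ),
    eventually_ge_atTop T.card] with n hn hn' x
  refine dense_J.induction_on x (isClosed_le (by fun_prop) (by fun_prop)) fun z => ?_
  obtain ⟨m, hm⟩ := ((eventually_all_finset T).2 fun β hβ => (h β hβ).pair_tl z).exists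
  rw [sum_congr rfl fun β hβ => by rw [fn_J ((h β hβ).bdd n), hm β hβ]]
  exact fam_bound (σ := fun β => ⟨w β, c β, Set.univ, Ico n m⟩) (fun β hβ => (h β hβ).ok n m)
    (fun β hβ β' hβ' hne k hk k' _ => hn β hβ β' hβ' hne k (mem_Ico.1 hk).1 k')
    (fun β hβ k hk => hn'.trans ((mem_Ico.1 hk).1.trans (h β hβ).mono.le_apply)) z

end tails

end Vale.Agent.P129
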