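import Vale.Agent.P129.CHSpace

/-! The diagonalization step. -/

namespace Vale.Agent.P129

open Filter Topology Finset

variable {𝕜 : Type*} [RCLike 𝕜] {Ω : Type} [LinearOrder Ω] [Clo Ω]

theorem inf_ker_infinite {V F : Type*} [AddCommGroup V] [Module 𝕜 V] [AddCommGroup F] [Module 𝕜 F]
    [FiniteDimensional 𝕜 F] {Y : Submodule 𝕜 V} (hY : ¬ FiniteDimensional 𝕜 Y) (f : V →ₗ[𝕜] F) :
    ¬ FiniteDimensional 𝕜 ↥(Y ⊓ LinearMap.ker f) := fun h =>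
  hY (Module.Finite.iff_fg.2 (Submodule.fg_of_fg_map_of_fg_inf_ker f
    (Module.Finite.iff_fg.1 inferInstance) (Module.Finite.iff_fg.1 h)))

theorem exists_blocks [WellFoundedLT Ω] {Y : Submodule 𝕜 (G 𝕜 Ω)} (hY : ¬ FiniteDimensional 𝕜 Y)
    {δ : Ω} (hδ : ∀ y ∈ Y, P (Set.Iio δ) y = y) (φ : ℕ → StrongDual 𝕜 (G 𝕜 Ω)) :
    ∃ l ≤ δ, ∃ Y' ≤ Y, ∃ κ > 0, (∀ y ∈ Y', κ * ‖y‖ ≤ ‖P (Set.Iio l) y‖) ∧
      ∃ (h : ℕ → G 𝕜 Ω) (y : ℕ → Ω →₀ 𝕜) (μ : ℕ → Ω), Monotone μ ∧ ∀ i, μ i < l ∧ h i ∈ Y' ∧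
        (∀ k < i, φ k (h i) = 0) ∧ (∀ γ, y i γ ≠ 0 → μ i < γ ∧ γ ≤ μ (i + 1)) ∧
        ‖J (y i) - P (Set.Iio l) (h i)‖ ≤ κ / 640 * (1 / 2) ^ i ∧ κ / 2 ≤ N (y i) := by
  obtain ⟨l, ⟨Y', hY', h1, κ, hκ, h2⟩, hl⟩ := wellFounded_lt.has_min {l : Ω | ∃ Y' ≤ Y,
    ¬ FiniteDimensional 𝕜 Y' ∧ ∃ κ > 0, ∀ y ∈ Y', κ * ‖y‖ ≤ ‖P (Set.Iio l) y‖}
    ⟨δ, Y, le_rfl, hY, 1, one_pos, fun y hy => by rw [hδ y hy, one_mul]⟩
  refine ⟨l, not_lt.1 (hl δ ⟨Y, le_rfl, hY, 1, one_pos, fun y hy => by rw [hδ y hy, one_mul]⟩),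
    Y', hY', κ, hκ, h2, ?_⟩
  obtain ⟨μ₀, h0⟩ : (Set.Iio l).Nonempty := Set.nonempty_iff_ne_empty.2 fun e => h1 (by
    rw [show Y' = ⊥ from (Submodule.eq_bot_iff _).2 fun y hy => by
      have := h2 y hy
      rw [e, P_empty, norm_zero] at this
      exact norm_le_zero_iff.1 (nonpos_of_mul_nonpos_right this hκ)]
    infer_instance)
  have step : ∀ (i : ℕ) (μ : Set.Iio l), ∃ (h : G 𝕜 Ω) (y : Ω →₀ 𝕜) (μ' : Set.Iio l), μ ≤ μ' ∧
      h ∈ Y' ∧ (∀ k < i, φ k h = 0) ∧ (∀ γ, y γ ≠ 0 → μ.1 < γ ∧ γ ≤ μ'.1) ∧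
      ‖J y - P (Set.Iio l) h‖ ≤ κ / 640 * (1 / 2) ^ i ∧ κ / 2 ≤ N y := by
    intro i μ
    have hε : 0 < κ / 1280 * (1 / 2) ^ i := by positivity
    have h3 := fun h => hl μ h μ.2
    simp only [Set.mem_ofPred_eq, not_exists, not_and, not_forall, not_le, imp_false] at h3
    obtain ⟨x, ⟨⟨a1, a2⟩, a3⟩, a4⟩ := h3 _ ((inf_le_left.trans inf_le_left).trans hY')
      (inf_ker_infinite (inf_ker_infinite h1 (LinearMap.pi fun k : Fin i => (φ k).toLinearMap))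
        (co μ.1).toLinearMap) _ hε
    have hx : 0 < ‖x‖ := pos_of_mul_pos_right ((norm_nonneg _).trans_lt a4) hε.le
    let h : G 𝕜 Ω := ((‖x‖⁻¹ : ℝ) : 𝕜) • x
    have hh : ∀ T : G 𝕜 Ω →L[𝕜] G 𝕜 Ω, ‖T h‖ = ‖x‖⁻¹ * ‖T x‖ := fun T => by
      rw [map_smul, norm_smul, RCLike.norm_ofReal, abs_of_pos (inv_pos.2 hx)]
    have b1 : ‖h‖ = 1 := (hh (ContinuousLinearMap.id 𝕜 _)).trans (inv_mul_cancel₀ hx.ne')
    have b2 : ‖P (Set.Iic μ.1) h‖ ≤ κ / 1280 * (1 / 2) ^ i := by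
      rw [hh, P_Iic, show co μ.1 x = 0 from a3, zero_smul, add_zero, inv_mul_le_iff₀ hx, mul_comm]
      exact a4.le
    obtain ⟨z, hz⟩ := dense_J.exists_dist_lt h hε
    obtain ⟨m, hm, hm'⟩ := (insert μ.1 (rs (Set.Ioo μ.1 l) z).support).exists_max_image id
      (insert_nonempty _ _)
    have b3 : ∀ γ, rs (Set.Ioo μ.1 l) z γ ≠ 0 → γ ∈ Set.Ioo μ.1 l :=
      fun γ hγ => not_not.1 fun h => hγ (rs_of_notMem z h)
    have b4 : ‖J (rs (Set.Ioo μ.1 l) z) - P (Set.Iio l) h‖ ≤ κ / 640 * (1 / 2) ^ i := by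
      have e := P_union (E := Set.Iic μ.1) (F := Set.Ioo μ.1 l) Set.ordConnected_Iic
        Set.ordConnected_Ioo (by rw [Set.Iic_union_Ioo_eq_Iio μ.2]; exact Set.ordConnected_Iio)
        (Set.disjoint_left.2 fun a h h' => h'.1.not_ge h) h
      rw [Set.Iic_union_Ioo_eq_Iio μ.2] at e
      rw [e, ← P_J Set.ordConnected_Ioo, add_comm, ← sub_sub, ← map_sub]
      have := P_le (E := Set.Ioo μ.1 l) Set.ordConnected_Ioo (J z - h)
      rw [dist_comm, dist_eq_norm] at hz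
      linarith [norm_sub_le (P (Set.Ioo μ.1 l) (J z - h)) (P (Set.Iic μ.1) h)]
    refine ⟨h, rs (Set.Ioo μ.1 l) z, ⟨m, ?_⟩, hm' _ (mem_insert_self _ _), Y'.smul_mem _ a1,
      fun k hk => ?_, fun γ hγ => ⟨(b3 γ hγ).1,
        hm' _ (mem_insert_of_mem (Finsupp.mem_support_iff.2 hγ))⟩, b4, ?_⟩
    · rcases mem_insert.1 hm with rfl | hm
      · exact μ.2
      · exact (b3 m (Finsupp.mem_support_iff.1 hm)).2
    · rw [map_smul, show φ k x = 0 from congrFun a2 ⟨k, hk⟩, smul_zero]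
    · have c1 := h2 h (Y'.smul_mem _ a1)
      have c2 : ((1 : ℝ) / 2) ^ i ≤ 1 := pow_le_one₀ (by norm_num) (by norm_num)
      have c3 := norm_le_norm_sub_add (P (Set.Iio l) h) (J (rs (Set.Ioo μ.1 l) z))
      rw [norm_sub_rev, norm_J] at c3
      rw [b1] at c1
      nlinarith
  choose h y μ' hs using step
  let μ : ℕ → Set.Iio l := fun n => Nat.rec ⟨μ₀, h0⟩ μ' n
  exact ⟨fun i => h i (μ i), fun i => y i (μ i), fun i => (μ i).1,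
    monotone_nat_of_le_succ fun i => (hs i (μ i)).1, fun i => ⟨(μ i).2, (hs i (μ i)).2⟩⟩

theorem exists_task [WellFoundedLT Ω] [Nonempty Ω] {Y : Submodule 𝕜 (G 𝕜 Ω)}
    (hY : ¬ FiniteDimensional 𝕜 Y) {δ : Ω} (hδ : ∀ y ∈ Y, P (Set.Iio δ) y = y)
    (φ : ℕ → StrongDual 𝕜 (G 𝕜 Ω)) (d : ℕ → ℕ) :
    ∃ w c, IsBr (W Ω) w c ∧ (∀ k, c (k + 1) ≠ d k) ∧ (∀ k γ, w k γ ≠ 0 → γ < δ) ∧
      ∃ (h : ℕ → G 𝕜 Ω) (C : ℝ), (∀ j, h j ∈ Y ∧ ‖h j‖ ≤ C ∧ 3 / 4 ≤ ‖fn (tl w 0) (h j)‖) ∧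
        3 * C * (2 / wt (c 0)) ≤ 1 / 4 ∧ ∀ k, ∀ᶠ j in atTop, φ k (h j) = 0 := by
  obtain ⟨l, hl, Y', hY', κ, hκ, h1, h, y, μ, hμ, h2⟩ := exists_blocks hY hδ φ
  have hs : ∀ i i', i < i' → Succ (y i) (y i') := fun i i' hi a b ha hb =>
    (((h2 i).2.2.2.1 a ha).2.trans (hμ hi)).trans_lt ((h2 i').2.2.2.1 b hb).1
  have hsup : ∀ {a b} {t : ℕ →₀ 𝕜}, t ∈ Finsupp.supported 𝕜 𝕜 (Set.Ico a b) → ∀ γ,
      Finsupp.linearCombination 𝕜 y t γ ≠ 0 → μ a < γ ∧ γ ≤ μ b := by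
    intro a b t ht γ hγ
    rw [Finsupp.linearCombination_apply, Finsupp.sum, Finsupp.finsetSum_apply] at hγ
    obtain ⟨i, hi, hγ⟩ := exists_ne_zero_of_sum_ne_zero hγ
    have := (h2 i).2.2.2.1 γ (right_ne_zero_of_mul hγ)
    exact ⟨(hμ (ht hi).1).trans_lt this.1, this.2.trans (hμ (ht hi).2)⟩
  let S : Supply 𝕜 Ω := ⟨fun a b => (Finsupp.supported 𝕜 𝕜 (Set.Ico a b)).map
    (Finsupp.linearCombination 𝕜 y),
    fun ha hb => Submodule.map_mono (Finsupp.supported_mono (Set.Ico_subset_Ico ha hb)), by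
      rintro a b a' b' _ _ hb ⟨t, ht, rfl⟩ ⟨t', ht', rfl⟩ α β hα hβ
      exact ((hsup ht α hα).2.trans (hμ hb)).trans_lt (hsup ht' β hβ).1,
    fun a => ⟨a + 1, by omega, y a, ⟨Finsupp.single a 1, Finsupp.single_mem_supported _ _
      (by simp), by simp⟩, fun e => by
        have := (h2 a).2.2.2.2.2
        rw [e, N, map_zero, norm_zero] at this
        linarith⟩⟩
  obtain ⟨n, hn⟩ := eventually_atTop.1 (eventually_tiny (3 * (41 / κ)) (η := 1 / 4) (by norm_num))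
  obtain ⟨c₀, hc, hc'⟩ := exists_root n
  obtain ⟨w, c, pos, v, a1, a2, a3, a4, a5⟩ := S.exists_dep (by omega) hc' d
  choose t ht ht' using fun k => (a5 k).1
  have a6 : ∀ k γ, w k γ ≠ 0 → μ (pos k) < γ ∧ γ ≤ μ (pos (k + 1)) := fun k γ hγ => by
    obtain ⟨α, β, b1, b2, b3, b4⟩ := (a5 k).2.1 γ hγ
    rw [← ht'] at b1 b2
    exact ⟨(hsup (ht k) α b1).1.trans_le b3, b4.trans (hsup (ht k) β b2).2⟩
  have a7 : ∀ k γ, w k γ ≠ 0 → γ < l := fun k γ hγ => (a6 k γ hγ).2.trans_lt (h2 _).1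
  refine ⟨w, c, a1, a3, fun k γ hγ => (a7 k γ hγ).trans_le hl,
    fun j => Finsupp.linearCombination 𝕜 h (t j), 41 / κ, fun j => ?_, a2 ▸ hn _ hc.le,
    fun k => ?_⟩
  · have b1 : Finsupp.linearCombination 𝕜 h (t j) ∈ Y' :=
      Y'.sum_mem fun i _ => Y'.smul_mem _ (h2 i).2.1
    have b2 : ∀ i ∈ (t j).support, ‖t j i‖ * κ ≤ 80 := fun i hi => by
      have := N_rs_le (hull_conn (y i)) (v j)
      conv_lhs at this => rw [← ht', Finsupp.linearCombination_apply, Finsupp.sum,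
        rs_hull_sum hs _ hi, N, map_smul, norm_smul]
      nlinarith [(a5 j).2.2.2, (h2 i).2.2.2.2.2, norm_nonneg (t j i)]
    have b3 : ‖J (v j) - P (Set.Iio l) (Finsupp.linearCombination 𝕜 h (t j))‖ ≤ 1 / 4 := by
      rw [← ht']
      simp only [Finsupp.linearCombination_apply, Finsupp.sum, map_sum, map_smul,
        ← sum_sub_distrib, ← smul_sub]
      refine (norm_sum_le _ _).trans ((sum_le_sum (g := fun i => 1 / 8 * (1 / 2 : ℝ) ^ i)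
        fun i hi => ?_).trans ?_)
      · rw [norm_smul]
        refine (mul_le_mul_of_nonneg_left (h2 i).2.2.2.2.1 (norm_nonneg _)).trans ?_
        have : (0 : ℝ) < (1 / 2) ^ i := by positivity
        nlinarith [b2 i hi]
      · rw [← mul_sum]
        linarith [summable_geometric_two.sum_le_tsum (t j).support fun _ _ => by positivity,
          tsum_geometric_two]
    refine ⟨hY' b1, ?_, ?_⟩
    · rw [le_div_iff₀ hκ, mul_comm]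
      have := norm_le_norm_sub_add (P (Set.Iio l) (Finsupp.linearCombination 𝕜 h (t j))) (J (v j))
      rw [norm_sub_rev, norm_J] at this
      linarith [h1 _ b1, (a5 j).2.2.2]
    · rw [← fn_mem_Supp (a1.bdd 0) Set.ordConnected_Iio fun γ hγ =>
        let ⟨k, hk⟩ := tl_ne_zero hγ; a7 k γ hk]
      have b4 : fn (tl w 0) (J (v j)) = pair (w j) (v j) := by
        rw [fn_J (a1.bdd 0)]
        refine pair_congr fun γ hγ => tl_zero_eq fun k hk => not_not.1 fun h' => ?_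
        rw [← ht'] at hγ
        have c1 := hsup (ht j) γ hγ
        have c2 := a6 k γ h'
        rcases lt_or_gt_of_ne hk with h3 | h3
        · exact c1.1.not_ge (c2.2.trans (hμ (a4.monotone h3)))
        · exact c2.1.not_ge (c1.2.trans (hμ (a4.monotone h3)))
      have b5 := (fn_le (a1.tl_le 0) _).trans b3
      rw [map_sub, b4] at b5
      linarith [(a5 j).2.2.1, norm_le_norm_sub_add (pair (w j) (v j))
        (fn (tl w 0) (P (Set.Iio l) (Finsupp.linearCombination 𝕜 h (t j))))]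
  · filter_upwards [eventually_gt_atTop k] with j hj
    rw [Finsupp.linearCombination_apply, Finsupp.sum, map_sum]
    refine sum_eq_zero fun i hi => ?_
    rw [map_smul, (h2 i).2.2.1 k ((hj.trans_le a4.le_apply).trans_le (ht j hi).1), smul_zero]

theorem exists_zero_branch [Nonempty Ω] (d : ℕ → ℕ) :
    ∃ c, IsBr (W Ω) 0 c ∧ ∀ k, c (k + 1) ≠ d k := by
  obtain ⟨c₀, hc, hc'⟩ := exists_root 0
  obtain ⟨w, c, pos, h1, -, -, h2, h3⟩ := exists_branch (Ω := Ω) (fun a _ w b => w = 0 ∧ b = a)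
    (fun a _ => ⟨0, a, rfl, rfl⟩) (fun a c w b h => ⟨h.1 ▸ node_zero c, h.2.ge⟩)
    (fun _ _ _ _ _ _ _ _ h _ _ _ _ h' => absurd (congrFun h.1 _) h') hc hc' d
  exact ⟨c, (funext fun k => (h2 k).1 : w = 0) ▸ h1, h3⟩

end Vale.Agent.P129
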