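import Vale.Agent.P129.CHClo
import Mathlib.Order.FixedPoints
import Mathlib.Analysis.Normed.Lp.lpSpace

/-! The norming set. -/

namespace Vale.Agent.P129

open Filter Topology Finset
open scoped ENNReal

variable {Ω : Type} [LinearOrder Ω]

/-- The support of `f` lies before the support of `g`. -/
def Succ {α β : Type*} [Zero α] [Zero β] (f : Ω → α) (g : Ω → β) : Prop :=
  ∀ a b, f a ≠ 0 → g b ≠ 0 → a < b

/-- Convex hull of the support. -/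
def hull {α : Type*} [Zero α] (f : Ω → α) : Set Ω := {γ | ∃ a b, f a ≠ 0 ∧ f b ≠ 0 ∧ a ≤ γ ∧ γ ≤ b}

theorem hull_conn {α : Type*} [Zero α] (f : Ω → α) : (hull f).OrdConnected :=
  ⟨fun _ ⟨a, _, h1, _, h2, _⟩ _ ⟨_, b, _, h3, _, h4⟩ _ h => ⟨a, b, h1, h3, h2.trans h.1, h.2.trans h4⟩⟩

theorem mem_hull {α : Type*} [Zero α] {f : Ω → α} {a : Ω} (h : f a ≠ 0) : a ∈ hull f :=
  ⟨a, a, h, h, le_rfl, le_rfl⟩

theorem Succ.hull_lt {α β : Type*} [Zero α] [Zero β] {f : Ω → α} {g : Ω → β} (h : Succ f g)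
    {a b : Ω} (ha : a ∈ hull f) (hb : b ∈ hull g) : a < b := by
  obtain ⟨_, x, _, h1, _, h2⟩ := ha
  obtain ⟨y, _, h3, _, h4, _⟩ := hb
  exact h2.trans_lt ((h x y h1 h3).trans_le h4)

omit [LinearOrder Ω] in
theorem ne_of_ind {E : Set Ω} {f : Ω → ℚ} {a : Ω} (h : E.indicator f a ≠ 0) : a ∈ E ∧ f a ≠ 0 :=
  Set.indicator_apply_ne_zero.1 h

/-- Weighted averages. -/
def Node (S : Set (Ω → ℚ)) (j : ℕ) (w : Ω → ℚ) : Prop :=
  ∃ f : ℕ → Ω → ℚ, (∀ r, f r ∈ S) ∧ (∀ r r', r < r' → Succ (f r) (f r')) ∧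
    w = (1 / wt j : ℚ) • ∑ r ∈ range (len j), f r

variable [Clo Ω]

/-- The colour `c` codes the type of `f`. -/
def Code (c : ℕ) (f : Ω → ℚ) : Prop := ∃ α, ∀ γ, f γ =
  if γ ∈ Clo.C (dec c).2.2 α then (dec c).2.1 (Clo.C (dec c).2.2 γ).card else 0

/-- Special sequences. -/
structure IsBr (S : Set (Ω → ℚ)) (w : ℕ → Ω → ℚ) (c : ℕ → ℕ) : Prop where
  node : ∀ k, Node S (c k) (w k)
  succ : ∀ k l, k < l → Succ (w k) (w l)
  mono : StrictMono c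
  pos : 1 ≤ c 0
  hist : ∀ k, (dec (c k)).1 = (List.range k).map c
  lev : ∀ k, c k ≤ (dec (c (k + 1))).2.2
  code : ∀ k, Code (c (k + 1)) (∑ i ∈ range (k + 1), w i)

theorem IsBr.eq_of_col {S : Set (Ω → ℚ)} {w w' : ℕ → Ω → ℚ} {c c' : ℕ → ℕ} (h : IsBr S w c)
    (h' : IsBr S w' c') {k k' : ℕ} (e : c k = c' k') : k = k' ∧ ∀ i ≤ k, c i = c' i := by
  have h1 := h.hist k
  rw [e, h'.hist] at h1
  have h2 : k = k' := by simpa using (congrArg List.length h1).symm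
  subst h2
  refine ⟨rfl, fun i hi => ?_⟩
  rcases hi.lt_or_eq with hi | rfl
  · exact (List.map_inj_left.1 h1 i (List.mem_range.2 hi)).symm
  · exact e

/-- Segments of special sequences. -/
structure Seg (Ω : Type) where
  w : ℕ → Ω → ℚ
  c : ℕ → ℕ
  E : Set Ω
  A : Finset ℕ

namespace Seg

/-- The functional of a segment. -/
noncomputable def fn (s : Seg Ω) : Ω → ℚ := ∑ k ∈ s.A, s.E.indicator (s.w k)

/-- Admissible segments. -/
structure OK (S : Set (Ω → ℚ)) (s : Seg Ω) : Prop where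
  br : IsBr S s.w s.c
  conn : s.E.OrdConnected
  conv : (s.A : Set ℕ).OrdConnected

/-- Restriction to a set of colours. -/
def cut (s : Seg Ω) (P : ℕ → Prop) [DecidablePred P] : Seg Ω :=
  { s with A := s.A.filter fun k => P (s.c k) }

/-- Restriction to an interval. -/
def res (s : Seg Ω) (E : Set Ω) : Seg Ω := { s with E := E ∩ s.E }

omit [LinearOrder Ω] [Clo Ω] in
theorem fn_cut (s : Seg Ω) (P : ℕ → Prop) [DecidablePred P] :
    s.fn = (s.cut P).fn + (s.cut fun j => ¬ P j).fn := (sum_filter_add_sum_filter_not _ _ _).symm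

omit [LinearOrder Ω] [Clo Ω] in
theorem fn_res (s : Seg Ω) (E : Set Ω) : (s.res E).fn = E.indicator s.fn := by
  simp only [fn, res, ← Set.indicator_indicator]
  funext γ
  by_cases h : γ ∈ E <;> simp [h]

theorem OK.cut {S : Set (Ω → ℚ)} {s : Seg Ω} (h : s.OK S) (P : ℕ → Prop) [DecidablePred P]
    (hP : ∀ a b c, a ≤ b → b ≤ c → P a → P c → P b) : (s.cut P).OK S :=
  ⟨h.br, h.conn, ⟨fun a ha b hb k hk => by
    simp only [Seg.cut, coe_filter, Set.mem_ofPred_eq] at ha hb ⊢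
    exact ⟨h.conv.out ha.1 hb.1 hk, hP _ _ _ (h.br.mono.monotone hk.1) (h.br.mono.monotone hk.2)
      ha.2 hb.2⟩⟩⟩

theorem OK.cut_le {S : Set (Ω → ℚ)} {s : Seg Ω} (h : s.OK S) (q : ℕ) : (s.cut (· ≤ q)).OK S :=
  h.cut _ fun _ _ _ _ h2 _ h3 => h2.trans h3

theorem OK.cut_gt {S : Set (Ω → ℚ)} {s : Seg Ω} (h : s.OK S) (q : ℕ) :
    (s.cut fun j => ¬ j ≤ q).OK S :=
  h.cut _ fun _ _ _ h1 _ h2 _ h3 => h2 (h1.trans h3)

theorem OK.res {S : Set (Ω → ℚ)} {s : Seg Ω} (h : s.OK S) {E : Set Ω} (hE : E.OrdConnected) :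
    (s.res E).OK S := ⟨h.br, hE.inter h.conn, h.conv⟩

end Seg

/-- Colour disjoint families. -/
def Disj {ι : Type} (T : Finset ι) (σ : ι → Seg Ω) : Prop :=
  ∀ l ∈ T, ∀ l' ∈ T, l ≠ l' → ∀ k ∈ (σ l).A, ∀ k' ∈ (σ l').A, (σ l).c k ≠ (σ l').c k'

/-- All colours are at least `p`. -/
def Big {ι : Type} (T : Finset ι) (σ : ι → Seg Ω) (p : ℕ) : Prop :=
  ∀ l ∈ T, ∀ k ∈ (σ l).A, p ≤ (σ l).c k

/-- The generating operation. -/
def op : Set (Ω → ℚ) →o Set (Ω → ℚ) where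
  toFun S := {f | (∃ (α : Ω) (ε : ℚ), (ε = 1 ∨ ε = -1) ∧ f = Pi.single α ε) ∨
    ∃ (ι : Type) (T : Finset ι) (σ : ι → Seg Ω) (ε : ι → ℚ), (∀ l ∈ T, (σ l).OK S) ∧ Disj T σ ∧
      Big T σ T.card ∧ (∀ l, ε l = 1 ∨ ε l = -1) ∧ f = ∑ l ∈ T, ε l • (σ l).fn}
  monotone' _ _ h _ hf := hf.imp_right fun ⟨ι, T, σ, ε, h1, h2⟩ => ⟨ι, T, σ, ε, fun l hl =>
    ⟨⟨fun k => let ⟨g, hg, hg'⟩ := (h1 l hl).br.node k; ⟨g, fun r => h (hg r), hg'⟩,
      (h1 l hl).br.succ, (h1 l hl).br.mono, (h1 l hl).br.pos, (h1 l hl).br.hist,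
      (h1 l hl).br.lev, (h1 l hl).br.code⟩, (h1 l hl).conn, (h1 l hl).conv⟩, h2⟩

variable (Ω) in
/-- The norming set. -/
def W : Set (Ω → ℚ) := (op (Ω := Ω)).lfp

theorem mem_W {f : Ω → ℚ} : f ∈ W Ω ↔ f ∈ op (W Ω) := by rw [W, OrderHom.map_lfp]

theorem sum_mem_W {ι : Type} {T : Finset ι} {σ : ι → Seg Ω} {ε : ι → ℚ}
    (h1 : ∀ l ∈ T, (σ l).OK (W Ω)) (h2 : Disj T σ) (h3 : Big T σ T.card)
    (h4 : ∀ l, ε l = 1 ∨ ε l = -1) : ∑ l ∈ T, ε l • (σ l).fn ∈ W Ω :=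
  mem_W.2 (Or.inr ⟨ι, T, σ, ε, h1, h2, h3, h4, rfl⟩)

theorem zero_mem_W : 0 ∈ W Ω := mem_W.2 (Or.inr ⟨Unit, ∅, fun _ => ⟨0, 0, ∅, ∅⟩, 1, by simp,
  by simp [Disj], by simp [Big], by simp, by simp⟩)

theorem single_mem_W (α : Ω) : Pi.single α 1 ∈ W Ω := mem_W.2 (Or.inl ⟨α, 1, Or.inl rfl, rfl⟩)

theorem Seg.OK.mem_W {s : Seg Ω} (h : s.OK (W Ω)) : s.fn ∈ W Ω := by
  have := sum_mem_W (T := {()}) (σ := fun _ => s) (ε := 1) (fun _ _ => h) (by simp [Disj])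
    (fun _ _ k _ => h.br.pos.trans (h.br.mono.monotone (Nat.zero_le k))) (by simp)
  simpa using this

theorem neg_mem_W {f : Ω → ℚ} (h : f ∈ W Ω) : -f ∈ W Ω := by
  rcases mem_W.1 h with ⟨α, ε, h1, rfl⟩ | ⟨ι, T, σ, ε, h1, h2, h3, h4, rfl⟩
  · exact mem_W.2 (Or.inl ⟨α, -ε, by rcases h1 with rfl | rfl <;> simp, (Pi.single_neg _ _).symm⟩)
  · have := sum_mem_W (ε := -ε) h1 h2 h3 fun l => by rcases h4 l with h | h <;> simp [h]
    simpa using this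

theorem sign_mem_W {f : Ω → ℚ} (h : f ∈ W Ω) {ε : ℚ} (hε : ε = 1 ∨ ε = -1) : ε • f ∈ W Ω := by
  rcases hε with rfl | rfl
  · simpa using h
  · simpa using neg_mem_W h

theorem indicator_mem_W {f : Ω → ℚ} (h : f ∈ W Ω) {E : Set Ω} (hE : E.OrdConnected) :
    E.indicator f ∈ W Ω := by
  rcases mem_W.1 h with ⟨α, ε, h1, rfl⟩ | ⟨ι, T, σ, ε, h1, h2, h3, h4, rfl⟩
  · by_cases hα : α ∈ E
    · rwa [Set.indicator_eq_self.2]
      exact Pi.support_single_subset.trans (Set.singleton_subset_iff.2 hα)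
    · rw [Set.indicator_eq_zero'.2]
      · exact zero_mem_W
      · exact (Set.disjoint_singleton_left.2 hα).mono_left Pi.support_single_subset
  · have := sum_mem_W (σ := fun l => (σ l).res E) (fun l hl => (h1 l hl).res hE) h2 h3 h4
    have e : E.indicator (∑ l ∈ T, ε l • (σ l).fn) = ∑ l ∈ T, ε l • ((σ l).res E).fn := by
      funext γ
      by_cases h : γ ∈ E <;> simp [Seg.fn_res, h]
    rwa [e]

theorem Node.indicator {j : ℕ} {w : Ω → ℚ} (h : Node (W Ω) j w) {E : Set Ω}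
    (hE : E.OrdConnected) : Node (W Ω) j (E.indicator w) := by
  obtain ⟨f, h1, h2, rfl⟩ := h
  refine ⟨fun r => E.indicator (f r), fun r => indicator_mem_W (h1 r) hE,
    fun r r' h a b ha hb => h2 r r' h a b (ne_of_ind ha).2 (ne_of_ind hb).2, ?_⟩
  funext γ
  by_cases h : γ ∈ E <;> simp [h]

theorem node_zero (j : ℕ) : Node (W Ω) j 0 :=
  ⟨0, fun _ => zero_mem_W, fun _ _ _ _ _ h => absurd rfl h, by simp⟩

theorem seg_sum_le {S : Set (Ω → ℚ)} {ι : Type} {T : Finset ι} {σ : ι → Seg Ω}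
    (h1 : ∀ l ∈ T, (σ l).OK S) (h2 : Disj T σ) {p : ℕ} (h3 : Big T σ p) (Φ : (Ω → ℚ) → ℝ)
    (h0 : Φ 0 ≤ 0) (hadd : ∀ f g, Φ (f + g) ≤ Φ f + Φ g) {L : ℝ} (hL : 0 ≤ L)
    (h : ∀ l ∈ T, ∀ k ∈ (σ l).A, Φ ((σ l).E.indicator ((σ l).w k)) ≤ L / wt ((σ l).c k)) :
    ∑ l ∈ T, Φ (σ l).fn ≤ L * (2 / wt p) := by
  classical
  calc _ ≤ ∑ l ∈ T, ∑ k ∈ (σ l).A, L * (1 / wt ((σ l).c k)) := sum_le_sum fun l hl =>
        (le_sum_of_subadditive Φ h0 hadd _ _).trans (sum_le_sum fun k hk => by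
          rw [mul_one_div]; exact h l hl k hk)
    _ = L * ∑ j ∈ (T.sigma fun l => (σ l).A).image (fun x => (σ x.1).c x.2), (1 : ℝ) / wt j := by
      rw [sum_sigma', sum_image, mul_sum]
      rintro ⟨l, k⟩ hx ⟨l', k'⟩ hy e
      simp only [coe_sigma, Set.mem_sigma_iff, SetLike.mem_coe] at hx hy
      by_cases hl : l = l'
      · subst hl
        obtain rfl : k = k' := (h1 l hx.1).br.mono.injective e
        rfl
      · exact absurd e (h2 l hx.1 l' hy.1 hl k hx.2 k' hy.2)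
    _ ≤ _ := mul_le_mul_of_nonneg_left (sum_inv_wt fun j hj => by
      obtain ⟨x, hx, rfl⟩ := mem_image.1 hj
      exact h3 _ (mem_sigma.1 hx).1 _ (mem_sigma.1 hx).2) hL

omit [Clo Ω] in
theorem Node.abs_le' {S : Set (Ω → ℚ)} (hS : ∀ f ∈ S, ∀ α, |(f α : ℝ)| ≤ 1) {j : ℕ} {w : Ω → ℚ}
    (h : Node S j w) (α : Ω) : |(w α : ℝ)| ≤ 1 / wt j := by
  obtain ⟨f, h1, h2, rfl⟩ := h
  have h3 : |((∑ r ∈ range (len j), f r α : ℚ) : ℝ)| ≤ 1 := by
    by_cases h : ∃ r ∈ range (len j), f r α ≠ 0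
    · obtain ⟨r, hr, h⟩ := h
      rw [sum_eq_single_of_mem r hr fun r' _ hne => by
        by_contra h'
        rcases lt_or_gt_of_ne hne with h3 | h3
        · exact lt_irrefl _ (h2 _ _ h3 α α h' h)
        · exact lt_irrefl _ (h2 _ _ h3 α α h h')]
      exact hS _ (h1 r) α
    · push Not at h
      simp [sum_eq_zero h]
  simp only [Pi.smul_apply, Finset.sum_apply, smul_eq_mul, Rat.cast_mul, abs_mul]
  have : |((1 / wt j : ℚ) : ℝ)| = 1 / wt j := by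
    push_cast; exact abs_of_pos (one_div_pos.2 (wt_pos j))
  rw [this]
  exact mul_le_of_le_one_right (one_div_pos.2 (wt_pos j)).le h3

omit [Clo Ω] in
theorem Node.finite' {S : Set (Ω → ℚ)} (hS : ∀ f ∈ S, f.support.Finite) {j : ℕ} {w : Ω → ℚ}
    (h : Node S j w) : w.support.Finite := by
  obtain ⟨f, h1, -, rfl⟩ := h
  refine Set.Finite.subset (Set.Finite.biUnion (range (len j)).finite_toSet fun r _ => hS _ (h1 r))
    fun γ hγ => ?_
  simp only [Function.mem_support, Pi.smul_apply, Finset.sum_apply, smul_eq_mul] at hγ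
  obtain ⟨r, hr, h⟩ := exists_ne_zero_of_sum_ne_zero (right_ne_zero_of_mul hγ)
  exact Set.mem_biUnion hr h

theorem W_good {f : Ω → ℚ} (h : f ∈ W Ω) : f.support.Finite ∧ ∀ α, |(f α : ℝ)| ≤ 1 := by
  refine OrderHom.lfp_le op (a := {f | f.support.Finite ∧ ∀ α, |(f α : ℝ)| ≤ 1}) ?_ h
  rintro _ (⟨α, ε, h1, rfl⟩ | ⟨ι, T, σ, ε, h1, h2, -, h4, rfl⟩)
  · refine ⟨(Set.finite_singleton α).subset Pi.support_single_subset, fun β => ?_⟩
    rw [Pi.single_apply]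
    rcases h1 with rfl | rfl <;> split_ifs <;> simp
  · refine ⟨Set.Finite.subset (Set.Finite.biUnion T.finite_toSet fun l hl =>
      Set.Finite.biUnion (σ l).A.finite_toSet fun k _ =>
        ((h1 l hl).br.node k).finite' fun _ h => h.1) fun γ hγ => ?_, fun α => ?_⟩
    · simp only [Function.mem_support, Pi.smul_apply, Finset.sum_apply, smul_eq_mul, Seg.fn] at hγ
      obtain ⟨l, hl, h⟩ := exists_ne_zero_of_sum_ne_zero hγ
      obtain ⟨k, hk, h⟩ := exists_ne_zero_of_sum_ne_zero (right_ne_zero_of_mul h)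
      exact Set.mem_biUnion hl (Set.mem_biUnion hk (ne_of_ind h).2)
    · have := seg_sum_le h1 h2 (p := 0) (fun _ _ _ _ => Nat.zero_le _) (fun f => |(f α : ℝ)|)
        (by simp) (fun f g => by simpa using abs_add_le _ _) zero_le_one fun l hl k _ => by
          refine le_trans ?_ (((h1 l hl).br.node k).abs_le' (fun _ h => h.2) α)
          by_cases h : α ∈ (σ l).E <;> simp [h]
      simp only [Finset.sum_apply, Pi.smul_apply, smul_eq_mul, Rat.cast_sum, Rat.cast_mul]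
      refine (abs_sum_le_sum_abs _ _).trans (le_trans (sum_le_sum fun l _ => ?_)
        (this.trans (by norm_num [wt])))
      rcases h4 l with h | h <;> simp [h]

theorem Node.abs_le {j : ℕ} {w : Ω → ℚ} (h : Node (W Ω) j w) (α : Ω) :
    |(w α : ℝ)| ≤ 1 / wt j := h.abs_le' (fun _ h => (W_good h).2) α

theorem Node.finite {j : ℕ} {w : Ω → ℚ} (h : Node (W Ω) j w) : w.support.Finite :=
  h.finite' fun _ h => (W_good h).1

theorem card_C_lt {p : ℕ} {α γ γ' : Ω} (h : γ ∈ Clo.C p α) (h' : γ' ∈ Clo.C p α) (hlt : γ < γ') :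
    (Clo.C p γ).card < (Clo.C p γ').card := by
  refine card_lt_card ⟨fun x hx => ?_, fun hs => ?_⟩
  · rw [Clo.coh p α γ h] at hx
    exact (Clo.coh p α γ' h' x).2 ⟨hx.1, hx.2.trans hlt.le⟩
  · exact absurd ((Clo.coh p α γ h γ').1 (hs (Clo.self p γ'))).2 hlt.not_ge

theorem exists_code [Nonempty Ω] {f : Ω → ℚ} (hf : f.support.Finite) (l : List ℕ) (B : ℕ) :
    ∃ c, B < c ∧ (dec c).1 = l ∧ B ≤ (dec c).2.2 ∧ Code c f := by
  classical
  obtain ⟨α, hα⟩ := hf.bddAbove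
  obtain ⟨p, hp, hp'⟩ := ((eventually_ge_atTop B).and (hf.eventually_all.2
    fun γ hγ => Clo.ev γ α (hα hγ))).exists
  obtain ⟨c, hc, e⟩ := dec_spec (l, ∑ γ ∈ Clo.C p α, Finsupp.single (Clo.C p γ).card (f γ), p) B
  refine ⟨c, hc, by rw [e], by rw [e]; exact hp, α, fun γ => ?_⟩
  rw [e]
  split_ifs with h
  · rw [Finsupp.finsetSum_apply, sum_eq_single_of_mem γ h, Finsupp.single_eq_same]
    intro γ' h' hne
    refine Finsupp.single_eq_of_ne' ?_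
    rcases lt_or_gt_of_ne hne with h3 | h3
    · exact (card_C_lt h' h h3).ne
    · exact (card_C_lt h h' h3).ne'
  · by_contra h0
    exact h (hp' γ h0)

theorem exists_branch [Nonempty Ω] (Q : ℕ → ℕ → (Ω → ℚ) → ℕ → Prop)
    (hQ : ∀ a c, ∃ w b, Q a c w b) (hN : ∀ a c w b, Q a c w b → Node (W Ω) c w ∧ a ≤ b)
    (hS : ∀ a c w b a' c' w' b', Q a c w b → Q a' c' w' b' → b ≤ a' → Succ w w')
    {c₀ : ℕ} (h0 : 1 ≤ c₀) (h0' : (dec c₀).1 = []) (d : ℕ → ℕ) :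
    ∃ (w : ℕ → Ω → ℚ) (c pos : ℕ → ℕ), IsBr (W Ω) w c ∧ c 0 = c₀ ∧ pos 0 = 0 ∧
      (∀ k, Q (pos k) (c k) (w k) (pos (k + 1))) ∧ ∀ k, c (k + 1) ≠ d k := by
  choose nw nb hnw using hQ
  choose cd hcd using fun (f : Ω → ℚ) (hf : f.support.Finite) => exists_code hf
  let St := {f : Ω → ℚ // f.support.Finite} × List ℕ × ℕ × ℕ
  let nxt : ℕ → St → St := fun k s =>
    let f : {f : Ω → ℚ // f.support.Finite} := ⟨s.1.1 + nw s.2.2.2 s.2.2.1,
      (s.1.2.union (hN _ _ _ _ (hnw _ _)).1.finite).subset (Function.support_add _ _)⟩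
    (f, s.2.1 ++ [s.2.2.1], cd f.1 f.2 (s.2.1 ++ [s.2.2.1]) (max s.2.2.1 (d k)),
      nb s.2.2.2 s.2.2.1)
  let s : ℕ → St := fun k => Nat.rec (⟨0, by simp⟩, [], c₀, 0) nxt k
  let c : ℕ → ℕ := fun k => (s k).2.2.1
  let pos : ℕ → ℕ := fun k => (s k).2.2.2
  let w : ℕ → Ω → ℚ := fun k => nw (pos k) (c k)
  have hq : ∀ k, Q (pos k) (c k) (w k) (pos (k + 1)) := fun k => hnw _ _
  have h1 : ∀ k, (s k).1.1 = ∑ i ∈ range k, w i := by
    intro k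
    induction k with
    | zero => rfl
    | succ k ih => rw [sum_range_succ, ← ih]
  have h2 : ∀ k, (s k).2.1 = (List.range k).map c := by
    intro k
    induction k with
    | zero => rfl
    | succ k ih => rw [List.range_succ, List.map_append, ← ih]; rfl
  have h3 : ∀ k, max (c k) (d k) < c (k + 1) ∧ (dec (c (k + 1))).1 = (s (k + 1)).2.1 ∧
      max (c k) (d k) ≤ (dec (c (k + 1))).2.2 ∧ Code (c (k + 1)) (s (k + 1)).1.1 :=
    fun k => hcd _ (s (k + 1)).1.2 _ _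
  have hpos : Monotone pos := monotone_nat_of_le_succ fun k => (hN _ _ _ _ (hq k)).2
  refine ⟨w, c, pos, ⟨fun k => (hN _ _ _ _ (hq k)).1,
    fun k l h => hS _ _ _ _ _ _ _ _ (hq k) (hq l) (hpos h),
    strictMono_nat_of_lt_succ fun k => (le_max_left _ _).trans_lt (h3 k).1, h0, fun k => ?_,
    fun k => (le_max_left _ _).trans (h3 k).2.2.1, fun k => h1 (k + 1) ▸ (h3 k).2.2.2⟩, rfl, rfl,
    hq, fun k => ((le_max_right _ _).trans_lt (h3 k).1).ne'⟩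
  rcases k with _ | k
  · exact h0'
  · exact (h3 k).2.1.trans (h2 (k + 1))

theorem exists_root (B : ℕ) : ∃ c, B < c ∧ (dec c).1 = [] := by
  obtain ⟨c, hc, e⟩ := dec_spec ([], 0, 0) B
  exact ⟨c, hc, by rw [e]⟩

theorem Node.mem_W [Nonempty Ω] {j : ℕ} {w : Ω → ℚ} (h : Node (W Ω) j w) (h0 : 1 ≤ j)
    (h0' : (dec j).1 = []) : w ∈ W Ω := by
  obtain ⟨w', c, pos, h1, h2, h3, h4, -⟩ := exists_branch
    (fun a c w' b => b = a + 1 ∧ w' = if a = 0 ∧ c = j then w else 0) (fun a c => ⟨_, _, rfl, rfl⟩)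
    (fun a c w' b hq => ⟨by
      rw [hq.2]
      split_ifs with h'
      · exact h'.2 ▸ h
      · exact node_zero c, by omega⟩)
    (fun a c w' b a' c' w'' b' hq hq' hb x y _ hy => absurd (by
      rw [hq'.2, if_neg (by omega)]; rfl) hy) h0 h0' id
  have := Seg.OK.mem_W (s := ⟨w', c, Set.univ, {0}⟩) ⟨h1, Set.ordConnected_univ, by
    simpa using Set.ordConnected_singleton⟩
  simpa [Seg.fn, (h4 0).2, h2, h3] using this

end Vale.Agent.P129
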