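import Vale.Agent.P129.Quot

namespace Vale.Agent.P129

open Filter Topology TopologicalSpace

variable {𝕜 X : Type*} [RCLike 𝕜] [NormedAddCommGroup X] [NormedSpace 𝕜 X]

theorem weak_null_of_dense {g : ℕ → StrongDual 𝕜 X} (hg : ∀ k, ‖g k‖ = 1) {Y : Set X}
    (hY : Dense Y) (hs : ∀ y ∈ Y, Tendsto (fun k => g k y) atTop (𝓝 0)) (x : X) :
    Tendsto (fun k => g k x) atTop (𝓝 0) := by
  rw [NormedAddGroup.tendsto_nhds_zero]
  intro ε hε
  obtain ⟨y, hy, hxy⟩ := hY.exists_dist_lt x (half_pos hε)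
  filter_upwards [NormedAddGroup.tendsto_nhds_zero.1 (hs y hy) _ (half_pos hε)] with k hk
  have h1 := (g k).le_opNorm (x - y)
  rw [hg, one_mul, ← dist_eq_norm, map_sub] at h1
  have h2 := norm_add_le (g k x - g k y) (g k y)
  rw [sub_add_cancel] at h2
  linarith

theorem biorth_extend {g : ℕ → StrongDual 𝕜 X} (hg : ∀ k, ‖g k‖ = 1)
    (hw : ∀ x, Tendsto (fun k => g k x) atTop (𝓝 0)) {n : ℕ} (h : Fin n → StrongDual 𝕜 X)
    (x : Fin n → X) (hb : ∀ i j, h i (x j) = if i = j then 1 else 0) (K : ℕ) {ε : ℝ}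
    (hε : 0 < ε) : ∃ k, K ≤ k ∧ ∃ (h' : StrongDual 𝕜 X) (x' : X), ‖h' - g k‖ ≤ ε ∧ ‖x'‖ ≤ 8 ∧
      h' x' = 1 ∧ ∀ l, h' (x l) = 0 ∧ h l x' = 0 := by
  let P : X →L[𝕜] X := ∑ l, (h l).smulRight (x l)
  have hP : ∀ w, P w = ∑ l, h l w • x l := fun w => by simp [P]
  have hPx : ∀ l, P (x l) = x l := fun l => by simp [hP, hb]
  have hhP : ∀ l w, h l (P w) = h l w := fun l w => by simp [hP, hb]
  have h1 : Tendsto (fun k => (g k).comp P) atTop (𝓝 0) := by
    have e : (fun k => (g k).comp P) = fun k => ∑ l, g k (x l) • h l := by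
      funext k; ext w; simp [hP, mul_comm]
    rw [e]
    have := tendsto_finsetSum Finset.univ fun l _ => (hw (x l)).smul_const (h l)
    have e0 : (∑ l, (0 : 𝕜) • h l) = 0 := by ext w; simp
    rwa [e0] at this
  choose y hy hgy using fun k => (g k).exists_lt_apply_of_lt_opNorm (r := 3 / 4)
    (by rw [hg]; norm_num)
  obtain ⟨v, -, φ, hφ, hv⟩ := tendsto_subseq_of_bounded (x := fun k l => h l (y k))
    (Metric.isBounded_closedBall (x := (0 : Fin n → 𝕜)) (r := ∑ l, ‖h l‖)) fun k => by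
      rw [mem_closedBall_zero_iff, pi_norm_le_iff_of_nonneg
        (Finset.sum_nonneg fun _ _ => norm_nonneg _)]
      intro l
      refine ((h l).le_opNorm _).trans ((mul_le_of_le_one_right (norm_nonneg _) (hy k).le).trans ?_)
      exact Finset.single_le_sum (f := fun l => ‖h l‖) (fun _ _ => norm_nonneg _) (Finset.mem_univ l)
  have h2 : Tendsto (fun i => P (y (φ i))) atTop (𝓝 (∑ l, v l • x l)) := by
    simp only [hP]
    exact tendsto_finsetSum _ fun l _ => (tendsto_pi_nhds.1 hv l).smul_const _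
  obtain ⟨N, hN⟩ := Metric.cauchySeq_iff'.1 h2.cauchySeq 1 one_pos
  have hφ' := hφ.tendsto_atTop
  obtain ⟨i, ⟨⟨hi1, hi2⟩, hi3⟩, hi4⟩ := ((((eventually_ge_atTop N).and
    (hφ'.eventually (eventually_ge_atTop K))).and
    (hφ'.eventually (NormedAddGroup.tendsto_nhds_zero.1 h1 (min ε (1 / 8)) (by positivity)))).and
    (hφ'.eventually (NormedAddGroup.tendsto_nhds_zero.1 (hw (y (φ N))) (1 / 8)
      (by positivity)))).exists
  set k := φ i
  let w := y k - y (φ N)
  have hw2 : ‖w‖ ≤ 2 := (norm_sub_le _ _).trans (by linarith [hy k, hy (φ N)])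
  have hPw : ‖P w‖ ≤ 1 := by
    have := hN i hi1
    rw [dist_eq_norm, ← map_sub] at this
    exact this.le
  let x₀ := w - P w
  have hx₀ : ∀ l, h l x₀ = 0 := fun l => by simp [x₀, hhP]
  have hPx₀ : P x₀ = 0 := by simp [hP, hx₀]
  have hgx : 3 / 8 ≤ ‖g k x₀‖ := by
    have a1 : ‖g k (P w)‖ ≤ 1 / 4 := by
      have := ((g k).comp P).le_opNorm w
      have b : ‖(g k).comp P‖ ≤ 1 / 8 := hi3.le.trans (min_le_right _ _)
      calc ‖g k (P w)‖ ≤ ‖(g k).comp P‖ * ‖w‖ := this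
        _ ≤ 1 / 8 * 2 := by gcongr
        _ = 1 / 4 := by norm_num
    have a2 : g k (y k) = g k x₀ + g k (y (φ N)) + g k (P w) := by simp only [x₀, w, map_sub]; ring
    have a3 := hgy k
    rw [a2] at a3
    have := norm_add₃_le (a := g k x₀) (b := g k (y (φ N))) (c := g k (P w))
    linarith
  have hne : g k x₀ ≠ 0 := by
    intro h0; rw [h0, norm_zero] at hgx; norm_num at hgx
  refine ⟨k, hi2, g k - (g k).comp P, (g k x₀)⁻¹ • x₀, ?_, ?_, ?_, fun l => ⟨?_, ?_⟩⟩
  · rw [sub_sub_cancel_left, norm_neg]; exact hi3.le.trans (min_le_left _ _)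
  · have : ‖x₀‖ ≤ 3 := (norm_sub_le _ _).trans (by linarith)
    rw [norm_smul, norm_inv, inv_mul_le_iff₀ (by linarith)]
    linarith
  · simp [hPx₀, hne]
  · simp [hPx]
  · simp [hx₀]

/-- A normalized sequence of functionals summable on a dense set gives a separable quotient. -/
theorem hasSepQuot_of_summable [CompleteSpace X] {g : ℕ → StrongDual 𝕜 X} (hg : ∀ k, ‖g k‖ = 1)
    {Y : Set X} (hY : Dense Y) (hs : ∀ y ∈ Y, Summable fun k => ‖g k y‖) : HasSepQuot 𝕜 X := by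
  have hw := weak_null_of_dense hg hY fun y hy => (hs y hy).of_norm.tendsto_atTop_zero
  obtain ⟨f, hf⟩ := exists_seq_hist (α := ℕ × StrongDual 𝕜 X × X)
    (fun n f a => (∀ i j, (f i).2.1 (f j).2.2 = if i = j then 1 else 0) →
      (∀ l, (f l).1 < a.1) ∧ ‖a.2.1 - g a.1‖ ≤ (1 / 2) ^ n ∧ ‖a.2.2‖ ≤ 8 ∧ a.2.1 a.2.2 = 1 ∧
        ∀ l, a.2.1 (f l).2.2 = 0 ∧ (f l).2.1 a.2.2 = 0) (fun n f => by
    by_cases hb : ∀ i j, (f i).2.1 (f j).2.2 = if i = j then 1 else 0
    · obtain ⟨k, hk, h', x', h1⟩ := biorth_extend hg hw _ _ hb (∑ l, (f l).1 + 1)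
        (ε := (1 / 2) ^ n) (by positivity)
      refine ⟨(k, h', x'), fun _ => ⟨fun l => ?_, h1⟩⟩
      have := Finset.single_le_sum (f := fun l => (f l).1) (fun _ _ => Nat.zero_le _)
        (Finset.mem_univ l)
      dsimp only at this ⊢
      omega
    · exact ⟨(0, 0, 0), fun h => absurd h hb⟩)
  have hb' : ∀ n, ∀ i < n, ∀ j < n, (f i).2.1 (f j).2.2 = if i = j then 1 else 0 := by
    intro n
    induction n with
    | zero => simp
    | succ n ih =>
      have := hf n fun i j => by simpa [Fin.ext_iff] using ih i i.2 j j.2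
      intro i hi j hj
      rcases Nat.lt_succ_iff_lt_or_eq.1 hi with hi | rfl <;>
        rcases Nat.lt_succ_iff_lt_or_eq.1 hj with hj | rfl
      · exact ih i hi j hj
      · rw [if_neg hi.ne]; exact (this.2.2.2.2 ⟨i, hi⟩).2
      · rw [if_neg hj.ne']; exact (this.2.2.2.2 ⟨j, hj⟩).1
      · rw [if_pos rfl]; exact this.2.2.2.1
  have hb : ∀ i j, (f i).2.1 (f j).2.2 = if i = j then 1 else 0 := fun i j =>
    hb' (max i j + 1) i (by omega) j (by omega)
  have hf' := fun n => hf n fun i j => by simpa [Fin.ext_iff] using hb i j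
  have hmono : StrictMono fun n => (f n).1 := fun i j hij => (hf' j).1 ⟨i, hij⟩
  refine hasSepQuot_of_biorth hb hY fun y hy => mem_closure_of_summable hb ?_
  refine Summable.of_norm_bounded (g := fun n => (‖g (f n).1 y‖ + (1 / 2) ^ n * ‖y‖) * 8)
    ((((hs y hy).comp_injective hmono.injective).add
      (summable_geometric_two.mul_right _)).mul_right _) fun n => ?_
  rw [norm_smul]
  refine mul_le_mul ?_ ((Submodule.Quotient.norm_mk_le _ _).trans (hf' n).2.2.1) (norm_nonneg _)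
    (by positivity)
  have h1 := ((f n).2.1 - g (f n).1).le_opNorm y
  have h2 := norm_add_le (g (f n).1 y) (((f n).2.1 - g (f n).1) y)
  have h3 := mul_le_mul_of_nonneg_right (hf' n).2.1 (norm_nonneg y)
  simp only [sub_apply, add_sub_cancel] at h1 h2
  linarith

/-- Finite linear combinations. -/
noncomputable abbrev lc (ψ : ℕ → StrongDual 𝕜 X) : (ℕ →₀ 𝕜) →ₗ[𝕜] StrongDual 𝕜 X :=
  Finsupp.linearCombination 𝕜 ψ

theorem lc_apply (ψ : ℕ → StrongDual 𝕜 X) (u : ℕ →₀ 𝕜) (x : X) :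
    lc ψ u x = ∑ j ∈ u.support, u j * ψ j x := by
  simp [Finsupp.linearCombination_apply, Finsupp.sum]

/-- Every finite combination is normed by a vector killed by the remaining functionals. -/
def Norming (ψ : ℕ → StrongDual 𝕜 X) : Prop :=
  ∀ u : ℕ →₀ 𝕜, ∃ x, ‖x‖ ≤ 1 ∧ (∀ j ∉ u.support, ψ j x = 0) ∧ ‖lc ψ u‖ ≤ 2 * ‖lc ψ u x‖

theorem hasSepQuot_of_tails [CompleteSpace X] {ψ : ℕ → StrongDual 𝕜 X} (h0 : ∀ i, ψ i ≠ 0)
    (hN : Norming ψ) (ht : ∀ x, ∀ ε > 0, ∃ n, ∀ u : ℕ →₀ 𝕜, (∀ j ∈ u.support, n ≤ j) →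
      ‖lc ψ u x‖ ≤ ε * ‖lc ψ u‖) : HasSepQuot 𝕜 X := by
  classical
  have hx : ∀ i, ∃ x, ∀ j, ψ j x = if j = i then 1 else 0 := by
    intro i
    obtain ⟨x, -, h1, h2⟩ := hN (Finsupp.single i 1)
    simp only [Finsupp.linearCombination_single, one_smul] at h2
    have hne : ψ i x ≠ 0 := by
      intro h; rw [h, norm_zero, mul_zero] at h2; exact h0 i (norm_le_zero_iff.1 h2)
    refine ⟨(ψ i x)⁻¹ • x, fun j => ?_⟩
    split_ifs with hj
    · simp [hj, hne]
    · rw [map_smul, h1 j (by simpa [Finsupp.support_single] using hj), smul_zero]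
  choose x hx' using hx
  have hx : ∀ i j, ψ i (x j) = if i = j then 1 else 0 := fun i j => hx' j i
  refine hasSepQuot_of_biorth hx dense_univ fun y _ => mem_closure_of_summable hx ?_
  rw [summable_iff_vanishing_norm]
  intro ε hε
  obtain ⟨n, hn⟩ := ht y (ε / 3) (by positivity)
  refine ⟨Finset.range n, fun s hs => ?_⟩
  obtain ⟨φ, hφ, hφz⟩ := exists_dual_vector'' 𝕜 (∑ i ∈ s, ψ i y • (kerAll ψ).mkQL (x i))
  let u : ℕ →₀ 𝕜 := Finsupp.onFinset s (fun i => if i ∈ s then φ ((kerAll ψ).mkQL (x i)) else 0)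
    (fun i hi => by by_contra h; simp [h] at hi)
  have hus : u.support ⊆ s := Finsupp.support_onFinset_subset
  have hu : ∀ w, lc ψ u w = φ (∑ i ∈ s, ψ i w • (kerAll ψ).mkQL (x i)) := by
    intro w
    rw [lc_apply, Finset.sum_subset hus (fun i _ hi => by simp [Finsupp.notMem_support_iff.1 hi]),
      map_sum]
    refine Finset.sum_congr rfl fun i hi => ?_
    simp [u, hi, mul_comm]
  have h2 : ‖lc ψ u‖ ≤ 2 := by
    obtain ⟨w, hw, hw0, hw2⟩ := hN u
    have e : ∑ i ∈ s, ψ i w • (kerAll ψ).mkQL (x i) = (kerAll ψ).mkQL w := by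
      simp only [← map_smul, ← map_sum]
      refine (Submodule.Quotient.eq _).2 (mem_kerAll.2 fun j => ?_)
      simp only [map_sub, map_sum, map_smul, hx, smul_eq_mul, mul_ite, mul_one, mul_zero,
        Finset.sum_ite_eq]
      split_ifs with hj
      · simp
      · simp [hw0 j fun h => hj (hus h)]
    rw [hu, e] at hw2
    have := (φ.le_opNorm ((kerAll ψ).mkQL w)).trans (mul_le_mul hφ
      ((Submodule.Quotient.norm_mk_le _ _).trans hw) (norm_nonneg _) zero_le_one)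
    linarith
  have h3 := hn u fun j hj => by
    have := Finset.disjoint_left.1 hs (hus hj)
    simpa using this
  rw [hu, hφz, RCLike.norm_ofReal, abs_norm] at h3
  nlinarith

end Vale.Agent.P129
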