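import Mathlib.Analysis.Normed.Group.Quotient
import Mathlib.Analysis.RCLike.Basic
import Mathlib.LinearAlgebra.FiniteDimensional.Defs

namespace Vale.Agent.P129

/-- `X` has a closed subspace `M` with `X ⧸ M` separable and infinite-dimensional. -/
def HasSepQuot (𝕜 X : Type*) [RCLike 𝕜] [NormedAddCommGroup X] [NormedSpace 𝕜 X] : Prop :=
  ∃ M : Submodule 𝕜 X, IsClosed (M : Set X) ∧ TopologicalSpace.SeparableSpace (X ⧸ M) ∧
    ¬ FiniteDimensional 𝕜 (X ⧸ M)

end Vale.Agent.P129
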