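import Vale.Agent.P129.Ell2

/-! A norming sequence of functionals gives a separable quotient. -/

namespace Vale.Agent.P129

open Filter Topology TopologicalSpace Finset

variable {𝕜 X : Type*} [RCLike 𝕜] [NormedAddCommGroup X] [NormedSpace 𝕜 X]

/-- Combinations of coefficient vectors. -/
noncomputable abbrev lin (v : ℕ → ℕ →₀ 𝕜) : (ℕ →₀ 𝕜) →ₗ[𝕜] (ℕ →₀ 𝕜) :=
  Finsupp.linearCombination 𝕜 v

theorem lin_apply (v : ℕ → ℕ →₀ 𝕜) (u : ℕ →₀ 𝕜) (j : ℕ) :
    lin v u j = ∑ k ∈ u.support, u k * v k j := by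
  simp [Finsupp.linearCombination_apply, Finsupp.sum, Finsupp.finsetSum_apply]

theorem lc_lin (b : ℕ → StrongDual 𝕜 X) (v : ℕ → ℕ →₀ 𝕜) (u : ℕ →₀ 𝕜) :
    lc b (lin v u) = lc (fun n => lc b (v n)) u :=
  Finsupp.apply_linearCombination _ _ _ _

theorem mem_support_lin {v : ℕ → ℕ →₀ 𝕜} {u : ℕ →₀ 𝕜} {j : ℕ} (h : j ∈ (lin v u).support) :
    ∃ k ∈ u.support, j ∈ (v k).support := by
  rw [Finsupp.mem_support_iff, lin_apply] at h
  obtain ⟨k, hk, h⟩ := exists_ne_zero_of_sum_ne_zero h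
  exact ⟨k, hk, Finsupp.mem_support_iff.2 (right_ne_zero_of_mul h)⟩

theorem lin_apply_of_mem {v : ℕ → ℕ →₀ 𝕜}
    (hv : ∀ m n, m ≠ n → Disjoint (v m).support (v n).support) (u : ℕ →₀ 𝕜) {k j : ℕ}
    (h : j ∈ (v k).support) : lin v u j = u k * v k j := by
  rw [lin_apply]
  refine sum_eq_single k (fun m _ hm => ?_) fun hk => by simp [Finsupp.notMem_support_iff.1 hk]
  rw [Finsupp.notMem_support_iff.1 (disjoint_right.1 (hv m k hm) h), mul_zero]

theorem n1_lin {v : ℕ → ℕ →₀ 𝕜} (hv : BS v) (u : ℕ →₀ 𝕜) : n1 (lin v u) = n1 u := by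
  rw [n1_eq (s := u.support.biUnion fun k => (v k).support)
    (fun j hj => mem_biUnion.2 (mem_support_lin hj)), sum_biUnion fun m _ n _ h => hv.disj m n h]
  refine sum_congr rfl fun k _ => ?_
  rw [sum_congr rfl fun j hj => by rw [lin_apply_of_mem hv.disj u hj, norm_mul], ← mul_sum]
  exact (congrArg _ (hv.one k)).trans (mul_one _)

theorem BS.comp {v w : ℕ → ℕ →₀ 𝕜} (hv : BS v) (hw : BS w) : BS fun n => lin v (w n) where
  one n := by rw [n1_lin hv, hw.one]
  disj m n hmn := disjoint_left.2 fun j h1 h2 => by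
    obtain ⟨k, hk, h1⟩ := mem_support_lin h1
    obtain ⟨l, hl, h2⟩ := mem_support_lin h2
    by_cases e : k = l
    · exact disjoint_left.1 (hw.disj m n hmn) hk (e ▸ hl)
    · exact disjoint_left.1 (hv.disj k l e) h1 h2
  far n j hj := by
    obtain ⟨k, hk, h1⟩ := mem_support_lin hj
    exact (hw.far n k hk).trans (hv.far k j h1)

theorem Norming.blocks {ψ : ℕ → StrongDual 𝕜 X} (hN : Norming ψ) {v : ℕ → ℕ →₀ 𝕜}
    (hv : ∀ m n, m ≠ n → Disjoint (v m).support (v n).support) :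
    Norming fun n => lc ψ (v n) := by
  intro u
  obtain ⟨x, hx, h0, h1⟩ := hN (lin v u)
  refine ⟨x, hx, fun n hn => ?_, by rwa [← lc_lin]⟩
  rw [lc_apply]
  refine sum_eq_zero fun j hj => ?_
  rw [h0 j, mul_zero]
  rw [Finsupp.notMem_support_iff, lin_apply_of_mem hv u hj, Finsupp.notMem_support_iff.1 hn,
    zero_mul]

theorem Norming.filter_le {b : ℕ → StrongDual 𝕜 X} (hN : Norming b) (u : ℕ →₀ 𝕜) (p : ℕ → Prop)
    [DecidablePred p] : ‖lc b (u.filter p)‖ ≤ 2 * ‖lc b u‖ := by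
  obtain ⟨x, hx, h0, h1⟩ := hN (u.filter p)
  have e : lc b (u.filter p) x = lc b u x := by
    rw [lc_apply, lc_apply, Finsupp.support_filter, sum_filter]
    refine sum_congr rfl fun j hj => ?_
    split_ifs with h
    · rw [Finsupp.filter_apply_pos _ _ h]
    · rw [h0 j (by simp [h]), mul_zero]
  rw [e] at h1
  have := ((lc b u).le_opNorm x).trans (mul_le_of_le_one_right (norm_nonneg _) hx)
  linarith

theorem lower_of_pos {b : ℕ → StrongDual 𝕜 X} (hN : Norming b) {x : X} {ε : ℝ}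
    (hx : ∀ k, ∃ r : ℝ, ε ≤ r ∧ b k x = r) (u : ℕ →₀ 𝕜) :
    ε * n1 u ≤ 8 * ‖x‖ * ‖lc b u‖ := by
  choose r hr hbr using hx
  have key : ∀ a : 𝕜, ‖a‖ ≤ 1 →
      ε * ∑ j ∈ u.support, max (RCLike.re (a * u j)) 0 ≤ 2 * ‖x‖ * ‖lc b u‖ := by
    intro a ha
    have h1 := hN.filter_le (a • u) fun j => 0 ≤ RCLike.re (a * u j)
    have h2 : ‖lc b (a • u)‖ ≤ ‖lc b u‖ := by
      rw [map_smul, norm_smul]; exact mul_le_of_le_one_left (norm_nonneg _) ha
    have h3 := (RCLike.re_le_norm _).trans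
      ((lc b ((a • u).filter fun j => 0 ≤ RCLike.re (a * u j))).le_opNorm x)
    rw [lc_apply, sum_subset (s₂ := u.support) (fun j hj => Finsupp.support_smul (b := a)
      (by rw [Finsupp.support_filter] at hj; exact filter_subset _ _ hj))
      (fun j _ hj => by rw [Finsupp.notMem_support_iff.1 hj, zero_mul]), map_sum] at h3
    refine le_trans ?_ (h3.trans ?_)
    · rw [mul_sum]
      refine sum_le_sum fun j _ => ?_
      rw [hbr, Finsupp.filter_apply]
      split_ifs with h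
      · rw [max_eq_left h, RCLike.re_mul_ofReal, mul_comm]
        exact mul_le_mul_of_nonneg_left (hr j) h
      · rw [max_eq_right (not_le.1 h).le]; simp
    · nlinarith [norm_nonneg x]
  have hI : ‖(RCLike.I : 𝕜)‖ ≤ 1 := by
    by_cases h : (RCLike.I : 𝕜) = 0
    · simp [h]
    · exact (RCLike.norm_I_of_ne_zero h).le
  rcases le_total ε 0 with hε | hε
  · exact (mul_nonpos_of_nonpos_of_nonneg hε (n1_nonneg u)).trans (by positivity)
  have h5 : n1 u ≤ ∑ j ∈ u.support, max (RCLike.re (1 * u j)) 0 +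
      ∑ j ∈ u.support, max (RCLike.re (-1 * u j)) 0 +
      ∑ j ∈ u.support, max (RCLike.re (RCLike.I * u j)) 0 +
      ∑ j ∈ u.support, max (RCLike.re (-RCLike.I * u j)) 0 := by
    simp only [← sum_add_distrib]
    refine sum_le_sum fun j _ => le_trans (b := |RCLike.re (u j)| + |RCLike.im (u j)|) ?_ ?_
    · conv_lhs => rw [← RCLike.re_add_im (u j)]
      refine (norm_add_le _ _).trans ?_
      rw [norm_mul, RCLike.norm_ofReal, RCLike.norm_ofReal]
      nlinarith [abs_nonneg (RCLike.im (u j))]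
    simp only [one_mul, neg_mul, map_neg, RCLike.I_mul_re, neg_neg]
    rcases abs_cases (RCLike.re (u j)) with h | h <;> rcases abs_cases (RCLike.im (u j)) with h' | h'
    all_goals linarith [le_max_left (RCLike.re (u j)) 0, le_max_right (RCLike.re (u j)) 0,
      le_max_left (-RCLike.re (u j)) 0, le_max_right (-RCLike.re (u j)) 0,
      le_max_left (RCLike.im (u j)) 0, le_max_right (RCLike.im (u j)) 0,
      le_max_left (-RCLike.im (u j)) 0, le_max_right (-RCLike.im (u j)) 0]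
  have := mul_le_mul_of_nonneg_left h5 hε
  linarith [key 1 (by simp), key (-1) (by simp), key _ hI, key (-RCLike.I) (by simpa using hI)]

theorem hasSepQuot_of_ell1 [CompleteSpace X] {b : ℕ → StrongDual 𝕜 X} (hN : Norming b)
    (hb : ∀ k, ‖b k‖ ≤ 1) {c : ℝ} (hc : 0 < c) (hl : ∀ u, c * n1 u ≤ ‖lc b u‖) :
    HasSepQuot 𝕜 X := by
  by_cases H : ∀ v : ℕ → ℕ →₀ 𝕜, BS v → ∀ ε > 0, ∃ w, BS w ∧
      ∀ x, ∀ᶠ n in atTop, ‖lc (fun k => lc b (v k)) (w n) x‖ ≤ ε * ‖x‖
  swap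
  · push Not at H
    obtain ⟨v, hv, ε, hε, H⟩ := H
    refine hasSepQuot_of_large (d := fun k => lc b (v k)) (fun k => ?_) hε fun w hw => ?_
    · refine ContinuousLinearMap.opNorm_le_bound _ zero_le_one fun x => ?_
      rw [← hv.one k]
      exact norm_lc_apply_le fun j _ =>
        ((b j).le_opNorm x).trans (mul_le_of_le_one_left (norm_nonneg _) (hb j))
    · simpa using H w hw
  choose w hw hs using H
  have h0 : BS (𝕜 := 𝕜) fun n => Finsupp.single n 1 :=
    ⟨fun n => by simp [n1, Finsupp.support_single],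
      fun m n h => by simp [Finsupp.support_single, h],
      fun n j hj => by simp [Finsupp.support_single] at hj; omega⟩
  let W : (m : ℕ) → (v : {v : ℕ → ℕ →₀ 𝕜 // BS v}) → ℕ → ℕ →₀ 𝕜 := fun m v =>
    w v.1 v.2 (1 / ((m : ℝ) + 1)) Nat.one_div_pos_of_nat
  let V : ℕ → {v : ℕ → ℕ →₀ 𝕜 // BS v} := fun m => Nat.rec ⟨_, h0⟩
    (fun m v => ⟨fun n => lin v.1 (W m v n), v.2.comp (hw _ _ _ _)⟩) m
  have hV : ∀ m n, lc b ((V (m + 1)).1 n) = lc (fun k => lc b ((V m).1 k)) (W m (V m) n) :=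
    fun m n => lc_lin _ _ _
  have hdom : ∀ m x r n₀, (∀ n ≥ n₀, ‖lc b ((V m).1 n) x‖ ≤ r) →
      ∀ m' ≥ m, ∀ n ≥ n₀, ‖lc b ((V m').1 n) x‖ ≤ r := by
    intro m x r n₀ h m' hm'
    induction m', hm' using Nat.le_induction with
    | base => exact h
    | succ m' _ ih =>
      intro n hn
      have hW : BS (W m' (V m')) := hw _ _ _ _
      rw [hV, ← one_mul r, ← hW.one n]
      exact norm_lc_apply_le fun j hj => ih j (hn.trans (hW.far n j hj))
  let N : ℕ → ℕ := fun m => Nat.rec 0 (fun m k => k + 1 + ((V m).1 k).support.sup id) m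
  have hNs : ∀ m, N (m + 1) = N m + 1 + ((V m).1 (N m)).support.sup id := fun m => rfl
  have hN' : StrictMono N := strictMono_nat_of_lt_succ fun m => by rw [hNs]; omega
  have hlt : ∀ m n, m < n → Disjoint ((V m).1 (N m)).support ((V n).1 (N n)).support :=
    fun m n h => disjoint_left.2 fun j h1 h2 => by
      have a1 := (V n).2.far _ j h2
      have a2 : j ≤ _ := le_sup (f := id) h1
      have a3 := hN'.monotone (Nat.succ_le_of_lt h)
      rw [hNs] at a3
      omega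
  have hd : BS fun m => (V m).1 (N m) := ⟨fun m => (V m).2.one _, fun m n h =>
    h.lt_or_gt.elim (hlt m n) fun h => (hlt n m h).symm,
    fun m j hj => hN'.le_apply.trans ((V m).2.far _ j hj)⟩
  refine hasSepQuot_of_tails (fun i h => ?_) (hN.blocks hd.disj) fun x ε hε => ?_
  · have := hl ((V i).1 (N i))
    rw [(V i).2.one, h, norm_zero] at this
    linarith
  obtain ⟨m, hm⟩ := exists_nat_one_div_lt (show 0 < ε * c / (‖x‖ + 1) by positivity)
  obtain ⟨n₀, hn₀⟩ := eventually_atTop.1 (hs (V m).1 (V m).2 _ (Nat.one_div_pos_of_nat (n := m)) x)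
  refine ⟨max (m + 1) n₀, fun u hu => ?_⟩
  have h1 := hdom (m + 1) x _ n₀ fun n hn => by rw [hV]; exact hn₀ n hn
  have h2 := norm_lc_apply_le (ψ := fun m => lc b ((V m).1 (N m))) (u := u) fun j hj =>
    h1 j ((le_max_left _ _).trans (hu j hj)) (N j)
      (((le_max_right _ _).trans (hu j hj)).trans hN'.le_apply)
  have h3 := hl (lin (fun m => (V m).1 (N m)) u)
  rw [n1_lin hd, lc_lin] at h3
  rw [lt_div_iff₀ (by positivity)] at hm
  have h4 : 1 / ((m : ℝ) + 1) * ‖x‖ ≤ ε * c := by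
    have : (0 : ℝ) < 1 / ((m : ℝ) + 1) := Nat.one_div_pos_of_nat
    nlinarith
  calc _ ≤ _ := h2
    _ ≤ n1 u * (ε * c) := mul_le_mul_of_nonneg_left h4 (n1_nonneg u)
    _ = ε * (c * n1 u) := by ring
    _ ≤ _ := mul_le_mul_of_nonneg_left h3 hε.le

theorem hasSepQuot_of_norming [CompleteSpace X] {ψ : ℕ → StrongDual 𝕜 X} (h0 : ∀ i, ψ i ≠ 0)
    (hN : Norming ψ) : HasSepQuot 𝕜 X := by
  by_cases ht : ∀ x, ∀ ε > 0, ∃ n, ∀ u : ℕ →₀ 𝕜, (∀ j ∈ u.support, n ≤ j) →
      ‖lc ψ u x‖ ≤ ε * ‖lc ψ u‖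
  · exact hasSepQuot_of_tails h0 hN ht
  push Not at ht
  obtain ⟨x, ε, hε, ht⟩ := ht
  have h1 : ∀ n, ∃ u : ℕ →₀ 𝕜, (∀ j ∈ u.support, n ≤ j) ∧ ‖lc ψ u‖ ≤ 1 ∧
      ∃ r : ℝ, ε ≤ r ∧ lc ψ u x = r := by
    intro n
    obtain ⟨u, hu, h⟩ := ht n
    have hp : 0 < ‖lc ψ u x‖ := lt_of_le_of_lt (by positivity) h
    have hq : 0 < ‖lc ψ u‖ := norm_pos_iff.2 fun e => by simp [e] at hp
    refine ⟨(((‖lc ψ u x‖ / ‖lc ψ u‖ : ℝ) : 𝕜) * (lc ψ u x)⁻¹) • u,
      fun j hj => hu j (Finsupp.support_smul hj), ?_, _, (le_div_iff₀ hq).2 h.le, ?_⟩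
    · rw [map_smul, norm_smul, norm_mul, RCLike.norm_ofReal, abs_of_pos (div_pos hp hq), norm_inv]
      apply le_of_eq
      field_simp
    · rw [map_smul, smul_apply, smul_eq_mul, mul_assoc, inv_mul_cancel₀ (norm_pos_iff.1 hp),
        mul_one]
  choose u hu hu1 hur using h1
  let N : ℕ → ℕ := fun m => Nat.rec 0 (fun _ k => k + 1 + (u k).support.sup id) m
  have hNs : ∀ m, N (m + 1) = N m + 1 + (u (N m)).support.sup id := fun m => rfl
  have hN' : StrictMono N := strictMono_nat_of_lt_succ fun m => by rw [hNs]; omega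
  have hlt : ∀ m n, m < n → Disjoint (u (N m)).support (u (N n)).support :=
    fun m n h => disjoint_left.2 fun j h1 h2 => by
      have a1 := hu _ j h2
      have a2 : j ≤ _ := le_sup (f := id) h1
      have a3 := hN'.monotone (Nat.succ_le_of_lt h)
      rw [hNs] at a3
      omega
  have hB := hN.blocks (v := fun m => u (N m)) fun m n h =>
    h.lt_or_gt.elim (hlt m n) fun h => (hlt n m h).symm
  refine hasSepQuot_of_ell1 hB (fun k => hu1 _) (c := ε / (8 * ‖x‖ + 1)) (by positivity) fun a => ?_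
  have := lower_of_pos hB (fun k => hur (N k)) a
  rw [div_mul_eq_mul_div, div_le_iff₀ (by positivity)]
  nlinarith [norm_nonneg (lc (fun m => lc ψ (u (N m))) a)]

end Vale.Agent.P129
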