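import Vale.Agent.P129.Free
import Mathlib.Analysis.InnerProductSpace.l2Space
import Mathlib.Analysis.InnerProductSpace.Dual
import Mathlib.Order.Filter.Ultrafilter.Basic
import Mathlib.Logic.Equiv.Finset
import Mathlib.Algebra.Order.Chebyshev

/-! Block sequences, Khintchine's inequality and quotients onto `ℓ²`. -/

namespace Vale.Agent.P129

open Filter Topology TopologicalSpace Finset

variable {𝕜 X : Type*} [RCLike 𝕜] [NormedAddCommGroup X] [NormedSpace 𝕜 X]

/-- The `ℓ¹` norm of a finitely supported vector. -/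
noncomputable def n1 (u : ℕ →₀ 𝕜) : ℝ := ∑ j ∈ u.support, ‖u j‖

theorem n1_eq {u : ℕ →₀ 𝕜} {s : Finset ℕ} (h : u.support ⊆ s) : n1 u = ∑ j ∈ s, ‖u j‖ :=
  sum_subset h fun j _ hj => by simp [Finsupp.notMem_support_iff.1 hj]

theorem n1_nonneg (u : ℕ →₀ 𝕜) : 0 ≤ n1 u := sum_nonneg fun _ _ => norm_nonneg _

theorem n1_smul (a : 𝕜) (u : ℕ →₀ 𝕜) : n1 (a • u) = ‖a‖ * n1 u := by
  rw [n1_eq Finsupp.support_smul, n1, mul_sum]
  simp

theorem norm_lc_apply_le {ψ : ℕ → StrongDual 𝕜 X} {u : ℕ →₀ 𝕜} {x : X} {r : ℝ}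
    (h : ∀ j ∈ u.support, ‖ψ j x‖ ≤ r) : ‖lc ψ u x‖ ≤ n1 u * r := by
  rw [lc_apply, n1, sum_mul]
  refine (norm_sum_le _ _).trans (sum_le_sum fun j hj => ?_)
  rw [norm_mul]
  exact mul_le_mul_of_nonneg_left (h j hj) (norm_nonneg _)

/-- Normalized block sequences of coefficient vectors. -/
structure BS (v : ℕ → ℕ →₀ 𝕜) : Prop where
  one : ∀ n, n1 (v n) = 1
  disj : ∀ m n, m ≠ n → Disjoint (v m).support (v n).support
  far : ∀ n, ∀ j ∈ (v n).support, n ≤ j

/-- Signed sums. -/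
noncomputable def sgnSum (h : ℕ → 𝕜) (s t : Finset ℕ) : 𝕜 :=
  ∑ m ∈ s, if m ∈ t then h m else -h m

theorem moments (h : ℕ → 𝕜) (s : Finset ℕ) :
    ∑ t ∈ s.powerset, ‖sgnSum h s t‖ ^ 2 = 2 ^ s.card * ∑ m ∈ s, ‖h m‖ ^ 2 ∧
    ∑ t ∈ s.powerset, ‖sgnSum h s t‖ ^ 4 ≤ 3 * 2 ^ s.card * (∑ m ∈ s, ‖h m‖ ^ 2) ^ 2 := by
  induction s using Finset.induction_on with
  | empty => simp [sgnSum]
  | insert a s ha ih =>
    have e1 : ∀ t ∈ s.powerset, sgnSum h (insert a s) t = sgnSum h s t - h a := by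
      intro t ht
      rw [sgnSum, sum_insert ha, if_neg fun h => ha (mem_powerset.1 ht h), sgnSum]
      ring
    have e2 : ∀ t ∈ s.powerset, sgnSum h (insert a s) (insert a t) = sgnSum h s t + h a := by
      intro t _
      rw [sgnSum, sum_insert ha, if_pos (mem_insert_self _ _), sgnSum, add_comm]
      congr 1
      refine sum_congr rfl fun m hm => ?_
      have : m ≠ a := fun e => ha (e ▸ hm)
      simp [this]
    have p2 : ∀ z : 𝕜, ‖z - h a‖ ^ 2 + ‖z + h a‖ ^ 2 = 2 * ‖z‖ ^ 2 + 2 * ‖h a‖ ^ 2 := fun z => by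
      have := parallelogram_law_with_norm 𝕜 z (h a)
      nlinarith
    have p4 : ∀ z : 𝕜, ‖z - h a‖ ^ 4 + ‖z + h a‖ ^ 4 ≤
        2 * ‖z‖ ^ 4 + 12 * ‖h a‖ ^ 2 * ‖z‖ ^ 2 + 2 * ‖h a‖ ^ 4 := fun z => by
      have h1 := norm_add_sq (𝕜 := 𝕜) z (h a)
      have h2 := norm_sub_sq (𝕜 := 𝕜) z (h a)
      have h3 : |RCLike.re (inner 𝕜 z (h a))| ≤ ‖z‖ * ‖h a‖ :=
        (RCLike.abs_re_le_norm _).trans (norm_inner_le_norm _ _)
      have h4 : RCLike.re (inner 𝕜 z (h a)) ^ 2 ≤ (‖z‖ * ‖h a‖) ^ 2 := by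
        rw [← sq_abs]; gcongr
      have e : ∀ r : ℝ, r ^ 4 = (r ^ 2) ^ 2 := fun r => by ring
      rw [e ‖z - h a‖, e ‖z + h a‖, h1, h2]
      nlinarith
    have e3 : ∀ k, ∑ t ∈ (insert a s).powerset, ‖sgnSum h (insert a s) t‖ ^ k =
        ∑ t ∈ s.powerset, (‖sgnSum h s t - h a‖ ^ k + ‖sgnSum h s t + h a‖ ^ k) := fun k => by
      rw [sum_powerset_insert ha, ← sum_add_distrib]
      exact sum_congr rfl fun t ht => by rw [e1 t ht, e2 t ht]
    rw [e3, e3, card_insert_of_notMem ha, sum_insert ha, pow_succ (2 : ℝ) s.card]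
    constructor
    · simp only [p2, sum_add_distrib, ← mul_sum, ih.1, sum_const, card_powerset, nsmul_eq_mul]
      push_cast
      ring
    · refine (sum_le_sum fun t _ => p4 _).trans ?_
      simp only [sum_add_distrib, ← mul_sum, ih.1, sum_const, card_powerset, nsmul_eq_mul]
      push_cast
      have := ih.2
      have h0 : (0 : ℝ) ≤ 2 ^ s.card * ‖h a‖ ^ 4 := by positivity
      nlinarith

theorem khintchine (h : ℕ → 𝕜) (s : Finset ℕ) {σ : ℝ} (hσ : 0 ≤ σ)
    (hs : σ ^ 2 = ∑ m ∈ s, ‖h m‖ ^ 2) :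
    2 ^ s.card * (2 / 9 * σ) ≤ ∑ t ∈ s.powerset, ‖sgnSum h s t‖ ∧
      ∑ t ∈ s.powerset, ‖sgnSum h s t‖ ≤ 2 ^ s.card * σ := by
  obtain ⟨h2, h4⟩ := moments h s
  rw [← hs] at h2 h4
  have hp : (0 : ℝ) < 2 ^ s.card := by positivity
  constructor
  · rcases hσ.eq_or_lt with rfl | hσ
    · simpa using sum_nonneg fun _ _ => norm_nonneg _
    have key : ∀ r : ℝ, 0 ≤ r → 9 * σ ^ 2 * r ^ 2 ≤ 27 * σ ^ 3 * r + r ^ 4 := fun r hr => by
      rcases le_total r (3 * σ) with h | h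
      · nlinarith [mul_nonneg (mul_nonneg (sq_nonneg σ) hr) (sub_nonneg.2 h), pow_nonneg hr 4]
      · have : 9 * σ ^ 2 ≤ r ^ 2 := by nlinarith
        nlinarith [mul_nonneg (pow_pos hσ 3).le hr, mul_le_mul_of_nonneg_right this (sq_nonneg r)]
    have h5 := sum_le_sum fun t (_ : t ∈ s.powerset) => key _ (norm_nonneg (sgnSum h s t))
    simp only [sum_add_distrib, ← mul_sum, h2] at h5
    refine le_of_mul_le_mul_left ?_ (show 0 < 27 * σ ^ 3 by positivity)
    nlinarith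
  · refine abs_le_of_sq_le_sq' ?_ (by positivity) |>.2
    have := sq_sum_le_card_mul_sum_sq (s := s.powerset) (f := fun t => ‖sgnSum h s t‖)
    rw [h2, card_powerset] at this
    push_cast at this
    nlinarith

/-- Position of a sign pattern. -/
def idx (n : ℕ) (t : Finset ℕ) : ℕ := Nat.pair n (Encodable.encode t)

/-- Rademacher blocks. -/
noncomputable def rad (n : ℕ) : (ℕ → 𝕜) →ₗ[𝕜] (ℕ →₀ 𝕜) where
  toFun h := ∑ t ∈ (range n).powerset, Finsupp.single (idx n t) (sgnSum h (range n) t)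
  map_add' g h := by
    rw [← sum_add_distrib]
    refine sum_congr rfl fun t _ => ?_
    rw [← Finsupp.single_add, sgnSum, sgnSum, sgnSum, ← sum_add_distrib]
    congr 1
    refine sum_congr rfl fun m _ => ?_
    split_ifs <;> simp [add_comm]
  map_smul' a h := by
    rw [smul_sum]
    refine sum_congr rfl fun t _ => ?_
    rw [Finsupp.smul_single, sgnSum, sgnSum, smul_sum]
    congr 1
    refine sum_congr rfl fun m _ => ?_
    split_ifs <;> simp

theorem idx_inj (n : ℕ) : Function.Injective (idx n) := fun _ _ h =>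
  Encodable.encode_injective (Nat.pair_eq_pair.1 h).2

theorem support_rad (n : ℕ) (h : ℕ → 𝕜) :
    (rad n h).support ⊆ (range n).powerset.image (idx n) := by
  intro j hj
  obtain ⟨t, ht, hj⟩ := mem_biUnion.1 (Finsupp.support_finsetSum hj)
  exact mem_image.2 ⟨t, ht, (mem_singleton.1 (Finsupp.support_single_subset hj)).symm⟩

theorem n1_rad (n : ℕ) (h : ℕ → 𝕜) :
    n1 (rad n h) = ∑ t ∈ (range n).powerset, ‖sgnSum h (range n) t‖ := by
  rw [n1_eq (support_rad n h), sum_image fun _ _ _ _ e => idx_inj n e]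
  refine sum_congr rfl fun t ht => ?_
  simp [rad, Finsupp.finsetSum_apply, Finsupp.single_apply, (idx_inj n).eq_iff, ht]

/-- The Hilbert space `ℓ²`. -/
abbrev H (𝕜 : Type*) [RCLike 𝕜] := lp (fun _ : ℕ => 𝕜) 2

theorem hasSum_H (h : H 𝕜) : HasSum (fun m => ‖h m‖ ^ 2) (‖h‖ ^ 2) := by
  simpa using lp.hasSum_norm (p := 2) (by norm_num) h

instance : SeparableSpace (H 𝕜) := by
  rw [← isSeparable_univ_iff]
  refine (((Set.countable_range fun m => (lp.single 2 m 1 : H 𝕜)).isSeparable.span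
    (R := 𝕜)).closure).mono fun h _ => ?_
  refine mem_closure_of_tendsto (lp.hasSum_single (by norm_num) h)
    (Eventually.of_forall fun s => Submodule.sum_mem _ fun m _ => ?_)
  have : (lp.single 2 m (h m) : H 𝕜) = h m • lp.single 2 m 1 := by
    rw [← lp.single_smul]; simp
  rw [this]
  exact Submodule.smul_mem _ _ (Submodule.subset_span ⟨m, rfl⟩)

theorem infinite_H : ¬ FiniteDimensional 𝕜 (H 𝕜) := fun _ => by
  have : Orthonormal 𝕜 fun m => (lp.single 2 m 1 : H 𝕜) := by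
    rw [orthonormal_iff_ite]
    intro i j
    rw [lp.inner_single_left, lp.single_apply]
    split_ifs with h <;> simp [h]
  exact (Module.Finite.not_linearIndependent_of_infinite _) this.linearIndependent

/-- If no normalized block sequence is pointwise small then `ℓ²` is a quotient. -/
theorem hasSepQuot_of_large [CompleteSpace X] {d : ℕ → StrongDual 𝕜 X} (hd : ∀ k, ‖d k‖ ≤ 1)
    {ε : ℝ} (hε : 0 < ε) (hl : ∀ w, BS w → ∃ x, ∃ᶠ n in atTop, ε * ‖x‖ < ‖lc d (w n) x‖) :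
    HasSepQuot 𝕜 X := by
  have hup : ∀ n (h : H 𝕜), n1 (rad n h) ≤ 2 ^ n * ‖h‖ := fun n h => by
    rw [n1_rad]
    have := (khintchine h (range n) (Real.sqrt_nonneg _) (Real.sq_sqrt (sum_nonneg fun _ _ => sq_nonneg _))).2
    rw [card_range] at this
    refine this.trans (mul_le_mul_of_nonneg_left (Real.sqrt_le_iff.2 ⟨norm_nonneg _, ?_⟩)
      (by positivity))
    exact sum_le_hasSum _ (fun _ _ => by positivity) (hasSum_H h)
  have hlo : ∀ h : H 𝕜, h ≠ 0 → ∀ᶠ n in atTop, 2 ^ n * (‖h‖ / 9) ≤ n1 (rad n h) := by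
    intro h h0
    have h1 : (‖h‖ / 2) ^ 2 < ‖h‖ ^ 2 := by nlinarith [norm_pos_iff.2 h0]
    filter_upwards [(hasSum_H h).tendsto_sum_nat.eventually (lt_mem_nhds h1)] with n hn
    rw [n1_rad]
    have := (khintchine h (range n) (Real.sqrt_nonneg _) (Real.sq_sqrt (sum_nonneg fun _ _ => sq_nonneg _))).1
    rw [card_range] at this
    refine le_trans (mul_le_mul_of_nonneg_left ?_ (by positivity)) this
    have := Real.le_sqrt_of_sq_le hn.le
    linarith
  let s : ℕ → H 𝕜 → X → 𝕜 := fun n h x => ((2 : 𝕜) ^ n)⁻¹ * lc d (rad n h) x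
  have hsn : ∀ n h x, ‖s n h x‖ = (2 ^ n)⁻¹ * ‖lc d (rad n h) x‖ := fun n h x => by simp [s]
  have hs : ∀ n h x, ‖s n h x‖ ≤ 1 * ‖h‖ * ‖x‖ := fun n h x => by
    rw [hsn, inv_mul_le_iff₀ (by positivity), one_mul, ← mul_assoc]
    refine (norm_lc_apply_le (r := ‖x‖) fun j _ => ?_).trans
      (mul_le_mul_of_nonneg_right (hup n h) (norm_nonneg _))
    exact ((d j).le_opNorm x).trans (mul_le_of_le_one_left (norm_nonneg _) (hd j))
  have step : ∀ (h : H 𝕜) (N : {N : Set ℕ // N.Infinite}), ∃ N' : {N : Set ℕ // N.Infinite},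
      N'.1 ⊆ N.1 ∧ ∃ x, ‖x‖ ≤ 1 ∧ ∀ n ∈ N'.1, ε / 9 * ‖h‖ ≤ ‖s n h x‖ := by
    intro h N
    by_cases h0 : h = 0
    · exact ⟨N, subset_rfl, 0, by simp, by simp [h0]⟩
    obtain ⟨φ, hφ, hφ'⟩ := extraction_of_frequently_atTop
      ((Nat.frequently_atTop_iff_infinite.2 N.2).and_eventually (hlo h h0))
    have hpos : ∀ k, 0 < n1 (rad (φ k) h) := fun k =>
      lt_of_lt_of_le (by have := norm_pos_iff.2 h0; positivity) (hφ' k).2
    have hsupp : ∀ k (a : 𝕜), ∀ j ∈ (a • rad (φ k) h).support, (Nat.unpair j).1 = φ k ∧ φ k ≤ j := by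
      intro k a j hj
      obtain ⟨t, -, rfl⟩ := mem_image.1 (support_rad _ _ (Finsupp.support_smul hj))
      exact ⟨by simp [idx], Nat.left_le_pair _ _⟩
    obtain ⟨x, hx⟩ := hl (fun k => (((n1 (rad (φ k) h))⁻¹ : ℝ) : 𝕜) • rad (φ k) h)
      ⟨fun k => by
        rw [n1_smul, RCLike.norm_ofReal, abs_of_pos (inv_pos.2 (hpos k)),
          inv_mul_cancel₀ (hpos k).ne'],
      fun m n hmn => disjoint_left.2 fun j h1 h2 =>
        hmn (hφ.injective ((hsupp _ _ j h1).1.symm.trans (hsupp _ _ j h2).1)),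
      fun k j hj => hφ.le_apply.trans (hsupp _ _ j hj).2⟩
    have hx0 : 0 < ‖x‖ := norm_pos_iff.2 fun e => by simpa [e] using hx.exists
    refine ⟨⟨φ '' _, (Nat.frequently_atTop_iff_infinite.1 hx).image hφ.injective.injOn⟩, ?_,
      ((‖x‖⁻¹ : ℝ) : 𝕜) • x, ?_, ?_⟩
    · rintro _ ⟨k, -, rfl⟩; exact (hφ' k).1
    · rw [norm_smul, RCLike.norm_ofReal, abs_of_pos (inv_pos.2 hx0), inv_mul_cancel₀ hx0.ne']
    · rintro _ ⟨k, hk, rfl⟩
      simp only [Set.mem_ofPred_eq, map_smul, smul_apply, norm_smul,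
        RCLike.norm_ofReal, abs_of_pos (inv_pos.2 (hpos k))] at hk
      rw [lt_inv_mul_iff₀ (hpos k)] at hk
      rw [hsn, map_smul, norm_smul, RCLike.norm_ofReal, abs_of_pos (inv_pos.2 hx0),
        le_inv_mul_iff₀ (by positivity), le_inv_mul_iff₀ hx0]
      have := mul_le_mul_of_nonneg_right (hφ' k).2 (mul_pos hε hx0).le
      linarith
  choose nxt hsub xx hxx hlow using step
  let q := denseSeq (H 𝕜)
  let N : ℕ → {N : Set ℕ // N.Infinite} := fun i =>
    Nat.rec ⟨Set.univ, Set.infinite_univ⟩ (fun i N => nxt (q i) N) i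
  have hanti : Antitone fun i => 𝓟 (N i).1 :=
    antitone_nat_of_succ_le fun i => principal_mono.2 (hsub _ _)
  have : NeBot (⨅ i, 𝓟 (N i).1) := iInf_neBot_of_directed hanti.directed_ge
    fun i => principal_neBot_iff.2 (N i).2.nonempty
  let U := Ultrafilter.of (⨅ i, 𝓟 (N i).1)
  have hU : ∀ i, (N i).1 ∈ U := fun i =>
    le_principal_iff.1 ((Ultrafilter.of_le _).trans (iInf_le _ i))
  have hlim : ∀ h x, ∃ z, Tendsto (fun n => s n h x) U (𝓝 z) := fun h x => by
    obtain ⟨z, -, hz⟩ := (isCompact_closedBall (0 : 𝕜) (1 * ‖h‖ * ‖x‖)).ultrafilter_le_nhds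
      (U.map fun n => s n h x) (le_principal_iff.2 (mem_map.2 (Eventually.of_forall
        fun n => by simpa using hs n h x)))
    exact ⟨z, hz⟩
  choose z hz using hlim
  let S : H 𝕜 →L[𝕜] StrongDual 𝕜 X := LinearMap.mkContinuous₂ (LinearMap.mk₂ 𝕜 z
    (fun g h x => tendsto_nhds_unique (hz _ _) (by
      simpa only [s, lp.coeFn_add, mul_add, map_add, add_apply] using (hz g x).add (hz h x)))
    (fun a h x => tendsto_nhds_unique (hz _ _) (by
      simpa [s, lp.coeFn_smul, mul_left_comm] using (hz h x).const_mul a))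
    (fun h x y => tendsto_nhds_unique (hz _ _) (by
      simpa [s, mul_add] using (hz h x).add (hz h y)))
    (fun a h x => tendsto_nhds_unique (hz _ _) (by
      simpa [s, mul_left_comm] using (hz h x).const_mul a))) 1
    fun h x => le_of_tendsto' (hz h x).norm fun n => hs n h x
  have hS : ∀ h, ε / 9 * ‖h‖ ≤ ‖S h‖ := fun h => by
    refine (denseRange_denseSeq (H 𝕜)).induction_on h (isClosed_le (by fun_prop) (by fun_prop))
      fun i => ?_
    have h1 : ε / 9 * ‖q i‖ ≤ ‖z (q i) (xx (q i) (N i))‖ :=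
      ge_of_tendsto (hz _ _).norm (mem_of_superset (hU (i + 1)) (hlow (q i) (N i)))
    exact h1.trans (((S (q i)).le_opNorm _).trans
      (mul_le_of_le_one_right (norm_nonneg _) (hxx _ _)))
  let D := InnerProductSpace.toDual 𝕜 (H 𝕜)
  have : SeparableSpace (StrongDual 𝕜 (H 𝕜)) := D.surjective.denseRange.separableSpace D.continuous
  refine hasSepQuot_of_surjective (dual_infinite infinite_H) S.flip
    (surjective_of_dual_bound _ (c := ε / 9) (by positivity) fun φ => ?_)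
  let y := D.symm (LinearMap.mkContinuous
    { toFun := fun w => starRingEnd 𝕜 (φ (D w))
      map_add' := fun a b => by simp
      map_smul' := fun a b => by rw [D.map_smulₛₗ]; simp } ‖φ‖ fun w => by simpa using φ.le_opNorm (D w))
  have hy : ∀ f, φ f = f y := fun f => by
    obtain ⟨w, rfl⟩ := D.surjective f
    rw [InnerProductSpace.toDual_apply_apply, ← inner_conj_symm,
      InnerProductSpace.toDual_symm_apply]
    simp
  have e : φ.comp S.flip = S y := by ext x; simp [hy]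
  rw [e]
  refine le_trans (mul_le_mul_of_nonneg_left ?_ (by positivity)) (hS y)
  exact φ.opNorm_le_bound (norm_nonneg _) fun f => by rw [hy, mul_comm]; exact f.le_opNorm y

end Vale.Agent.P129
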