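import Vale.Agent.P129.Ell1
import Mathlib.MeasureTheory.Measure.WithDensityFinite
import Mathlib.MeasureTheory.Measure.Lebesgue.Basic

/-! Separable quotients below `cov(N)` and under a total extension of measure. -/

namespace Vale.Agent.P129

open Filter Topology TopologicalSpace MeasureTheory Set

variable {𝕜 X : Type*} [RCLike 𝕜] [NormedAddCommGroup X] [NormedSpace 𝕜 X]

theorem hasSepQuot_of_not_cover [CompleteSpace X] (hX : ¬ FiniteDimensional 𝕜 X) {D : Set X}
    (hD : Dense D) (h : ∀ N : D → Set ℝ, (∀ x, volume (N x) = 0) → ⋃ x, N x ≠ univ) :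
    HasSepQuot 𝕜 X := by
  obtain ⟨g, hg, hs⟩ := exists_random_seq hX (volume : Measure ℝ).toFinite
    fun x => toFinite_absolutelyContinuous _ (measure_singleton x)
  obtain ⟨ω, hω⟩ := (ne_univ_iff_exists_notMem _).1
    (h _ fun x => absolutelyContinuous_toFinite _ (hs x))
  refine hasSepQuot_of_summable (hg ω) hD fun y hy => ?_
  by_contra hc
  exact hω (mem_iUnion.2 ⟨⟨y, hy⟩, hc⟩)

theorem exists_vanish {Y : Submodule 𝕜 X} (hY : ¬ Dense (Y : Set X)) :
    ∃ φ : StrongDual 𝕜 X, φ ≠ 0 ∧ ∀ y ∈ Y, φ y = 0 := by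
  obtain ⟨x, hx⟩ := not_forall.1 hY
  have : IsClosed (Y.topologicalClosure : Set X) := Y.isClosed_topologicalClosure
  obtain ⟨φ, -, hφ⟩ := exists_dual_vector'' 𝕜 (Y.topologicalClosure.mkQL x)
  refine ⟨φ.comp Y.topologicalClosure.mkQL, fun h => hx ?_, fun y hy => ?_⟩
  · have h1 := congrArg (fun f => f x) h
    simp only [ContinuousLinearMap.comp_apply, hφ, zero_apply, RCLike.ofReal_eq_zero,
      norm_eq_zero] at h1
    exact (Submodule.Quotient.mk_eq_zero _).1 h1
  · have : Y.topologicalClosure.mkQL y = 0 :=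
      (Submodule.Quotient.mk_eq_zero _).2 (Y.le_topologicalClosure hy)
    simp [this]

theorem exists_countable_norming {E : Set (StrongDual 𝕜 X)} (hE : IsSeparable E) :
    ∃ D : Set X, D.Countable ∧ ∀ φ ∈ E, ∃ x ∈ D, ‖x‖ ≤ 1 ∧ ‖φ‖ ≤ 2 * ‖φ x‖ := by
  obtain ⟨c, hc, hE⟩ := hE
  have h1 : ∀ φ : StrongDual 𝕜 X, ∃ x, ‖x‖ ≤ 1 ∧ 3 / 4 * ‖φ‖ ≤ ‖φ x‖ := fun φ => by
    rcases (norm_nonneg φ).eq_or_lt with h | h
    · exact ⟨0, by simp, by simp [← h]⟩
    · obtain ⟨x, hx, h2⟩ := φ.exists_lt_apply_of_lt_opNorm (r := 3 / 4 * ‖φ‖) (by linarith)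
      exact ⟨x, hx.le, h2.le⟩
  choose x hx hx' using h1
  refine ⟨insert 0 (x '' c), (hc.image x).insert 0, fun φ hφ => ?_⟩
  rcases (norm_nonneg φ).eq_or_lt with h | h
  · exact ⟨0, mem_insert _ _, by simp, by simp [← h]⟩
  obtain ⟨f, hf, hd⟩ := Metric.mem_closure_iff.1 (hE hφ) (‖φ‖ / 8) (by positivity)
  rw [dist_eq_norm] at hd
  refine ⟨x f, mem_insert_of_mem _ ⟨f, hf, rfl⟩, hx f, ?_⟩
  have h1 := ((φ - f).le_opNorm (x f)).trans (mul_le_of_le_one_right (norm_nonneg _) (hx f))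
  have h2 := norm_sub_norm_le φ f
  have h3 := norm_sub_norm_le (f (x f)) (φ (x f))
  rw [norm_sub_rev, ← sub_apply] at h3
  linarith [hx' f]

theorem hasSepQuot_of_total [CompleteSpace X] (hX : ¬ FiniteDimensional 𝕜 X) {T : Type*}
    [MeasurableSpace T] [DiscreteMeasurableSpace T] (ν : Measure T) [IsProbabilityMeasure ν]
    (hν : ∀ t, ν {t} = 0) (ι : T → ℝ) (hι : Function.Injective ι) : HasSepQuot 𝕜 X := by
  have hm : Measurable ι := Measurable.of_discrete
  obtain ⟨g, hg, hs⟩ := exists_random_seq hX (ν.map ι) fun x => by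
    rw [Measure.map_apply hm (measurableSet_singleton x)]
    rcases (subsingleton_singleton.preimage hι :
      (ι ⁻¹' {x}).Subsingleton).eq_empty_or_singleton with h | ⟨t, h⟩ <;> simp [h, hν]
  by_contra hQ
  let Y : ℝ → Submodule 𝕜 X := fun ω =>
    { carrier := {x | Summable fun k => ‖g ω k x‖}
      add_mem' := fun ha hb => (ha.add hb).of_nonneg_of_le (fun _ => norm_nonneg _)
        fun k => by rw [map_add]; exact norm_add_le _ _
      zero_mem' := by simp [summable_zero]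
      smul_mem' := fun a x hx => by
        simpa using Summable.mul_left ‖a‖ (hx : Summable fun k => ‖g ω k x‖) }
  choose ψ hψ0 hψ using fun ω => exists_vanish (Y := Y ω)
    fun h => hQ (hasSepQuot_of_summable (hg ω) h fun y hy => hy)
  choose D hD hD' using fun (A : Finset ℕ) (w : A → T) => exists_countable_norming
    ((countable_range fun i => ψ (ι (w i))).isSeparable.span (R := 𝕜))
  obtain ⟨s, hs'⟩ := exists_free ν (ν.map ι) ι
    (fun S hS => ae_of_ae_map hm.aemeasurable (measure_eq_zero_iff_ae_notMem.1 hS))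
    (fun A w => ⋃ x ∈ D A w, {ω | ¬ Summable fun k => ‖g ω k x‖})
    fun A w => (measure_biUnion_null_iff (hD A w)).2 fun x _ => hs x
  refine hQ (hasSepQuot_of_norming (ψ := fun j => ψ (ι (s j))) (fun _ => hψ0 _) fun u => ?_)
  obtain ⟨x, hx, h1, h2⟩ := hD' u.support (fun i => s i) (lc (fun j => ψ (ι (s j))) u) (by
    rw [Finsupp.linearCombination_apply]
    exact Submodule.sum_mem _ fun j hj =>
      Submodule.smul_mem _ _ (Submodule.subset_span ⟨⟨j, hj⟩, rfl⟩))
  refine ⟨x, h1, fun j hj => hψ _ x ?_, h2⟩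
  by_contra hc
  exact hs' u.support j hj (mem_iUnion₂.2 ⟨x, hx, hc⟩)

end Vale.Agent.P129
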