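import Vale.Agent.P129.Defs
import Mathlib.Analysis.Normed.Operator.Banach
import Mathlib.Analysis.Normed.Module.HahnBanach
import Mathlib.Analysis.LocallyConvex.Separation
import Mathlib.Analysis.Normed.Module.FiniteDimension
import Mathlib.Topology.Algebra.Module.ContinuousLinearMap.Quotient
import Mathlib.Topology.MetricSpace.Sequences
import Mathlib.Analysis.RCLike.Lemmas

/-! Criteria for a separable infinite-dimensional quotient. -/

namespace Vale.Agent.P129

open Filter Topology TopologicalSpace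

variable {𝕜 X : Type*} [RCLike 𝕜] [NormedAddCommGroup X] [NormedSpace 𝕜 X]

/-- Common kernel of a sequence of functionals. -/
def kerAll (h : ℕ → StrongDual 𝕜 X) : Submodule 𝕜 X := ⨅ i, (h i).ker

theorem mem_kerAll {h : ℕ → StrongDual 𝕜 X} {x : X} : x ∈ kerAll h ↔ ∀ i, h i x = 0 := by
  simp [kerAll]

instance isClosed_kerAll (h : ℕ → StrongDual 𝕜 X) : IsClosed (kerAll h : Set X) := by
  have : (kerAll h : Set X) = ⋂ i, (h i) ⁻¹' {0} := by
    ext x; simp [mem_kerAll]
  rw [this]
  exact isClosed_iInter fun i => isClosed_singleton.preimage (h i).continuous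

theorem kerAll_le (h : ℕ → StrongDual 𝕜 X) (i : ℕ) : kerAll h ≤ (h i).ker := iInf_le _ i

theorem hasSepQuot_of_biorth {h : ℕ → StrongDual 𝕜 X} {x : ℕ → X}
    (hb : ∀ i j, h i (x j) = if i = j then 1 else 0) {Y : Set X} (hY : Dense Y)
    (hd : ∀ y ∈ Y, (kerAll h).mkQL y ∈
      closure (Submodule.span 𝕜 (Set.range fun i => (kerAll h).mkQL (x i)) : Set _)) :
    HasSepQuot 𝕜 X := by
  refine ⟨kerAll h, isClosed_kerAll h, ?_, fun hf => ?_⟩
  · rw [← isSeparable_univ_iff]
    have h1 : IsSeparable (closure (Submodule.span 𝕜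
        (Set.range fun i => (kerAll h).mkQL (x i)) : Set (X ⧸ kerAll h))) :=
      (Set.countable_range _).isSeparable.span.closure
    refine h1.mono fun z _ => ?_
    obtain ⟨y, rfl⟩ := (kerAll h).mkQ_surjective z
    have := map_mem_closure (kerAll h).mkQL.continuous (hY y) hd
    rwa [closure_closure] at this
  · have hli : LinearIndependent 𝕜 fun i => (kerAll h).mkQL (x i) := by
      rw [linearIndependent_iff']
      intro s g hg i hi
      have := congrArg ((kerAll h).liftQL (h i) (kerAll_le h i)) hg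
      simp only [map_sum, map_smul, Submodule.coe_mkQL, Submodule.mkQ_apply,
        Submodule.liftQL_apply, Submodule.liftQ_apply, ContinuousLinearMap.coe_coe, hb,
        smul_eq_mul, mul_ite, mul_one, mul_zero, map_zero] at this
      simpa [hi] using this
    exact Module.Finite.not_linearIndependent_of_infinite _ hli

theorem hasSepQuot_of_surjective [CompleteSpace X] {Y : Type*} [NormedAddCommGroup Y]
    [NormedSpace 𝕜 Y] [CompleteSpace Y] [SeparableSpace Y] (hY : ¬ FiniteDimensional 𝕜 Y)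
    (R : X →L[𝕜] Y) (hR : Function.Surjective R) : HasSepQuot 𝕜 X := by
  have : IsClosed (R.ker : Set X) := R.isClosed_ker
  let e := ContinuousLinearEquiv.ofBijective (R.ker.liftQL R le_rfl)
    (Submodule.ker_liftQ_eq_bot _ _ _ le_rfl)
    (by rw [Submodule.toLinearMap_liftQL, Submodule.range_liftQ, LinearMap.range_eq_top]; exact hR)
  refine ⟨R.ker, R.isClosed_ker, e.symm.surjective.denseRange.separableSpace e.symm.continuous,
    fun hf => hY e.toLinearEquiv.finiteDimensional⟩

theorem surjective_of_dual_bound [CompleteSpace X] {Y : Type*} [NormedAddCommGroup Y]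
    [NormedSpace 𝕜 Y] (f : X →L[𝕜] Y) {c : ℝ} (hc : 0 < c)
    (hb : ∀ φ : StrongDual 𝕜 Y, c * ‖φ‖ ≤ ‖φ.comp f‖) : Function.Surjective f := by
  let : NormedSpace ℝ X := NormedSpace.restrictScalars ℝ 𝕜 X
  let : NormedSpace ℝ Y := NormedSpace.restrictScalars ℝ 𝕜 Y
  have : IsScalarTower ℝ 𝕜 X := IsScalarTower.restrictScalars ℝ 𝕜 X
  have : IsScalarTower ℝ 𝕜 Y := IsScalarTower.restrictScalars ℝ 𝕜 Y
  have hC : ∀ y, ∃ x, dist (f x) y ≤ 1 / 2 * ‖y‖ ∧ ‖x‖ ≤ c⁻¹ * ‖y‖ := by
    intro y
    by_cases hy : y = 0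
    · exact ⟨0, by simp [hy], by simp [hy]⟩
    have hy' : 0 < ‖y‖ := norm_pos_iff.2 hy
    have hmem : y ∈ closure (f '' Metric.closedBall 0 (c⁻¹ * ‖y‖)) := by
      by_contra hn
      have hconv : Convex ℝ (f '' Metric.closedBall 0 (c⁻¹ * ‖y‖)) :=
        (convex_closedBall _ _).linear_image ((f.restrictScalars ℝ : X →L[ℝ] Y) : X →ₗ[ℝ] Y)
      obtain ⟨φ, u, h1, h2⟩ := RCLike.geometric_hahn_banach_closed_point (𝕜 := 𝕜) hconv.closure
        isClosed_closure hn
      have hr : 0 < c⁻¹ * ‖y‖ := by positivity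
      have hu : 0 < u := by
        have := h1 0 (subset_closure ⟨0, by simp [hr.le], by simp⟩)
        simpa using this
      have h3 : ‖φ.comp f‖ ≤ u / (c⁻¹ * ‖y‖) := by
        refine ContinuousLinearMap.opNorm_le_of_unit_norm (by positivity) fun x hx => ?_
        obtain ⟨θ, hθ, hθ'⟩ : ∃ θ : 𝕜, ‖θ‖ = 1 ∧ θ * φ (f x) = ‖φ (f x)‖ := by
          obtain ⟨θ, h1, h2⟩ := RCLike.exists_norm_eq_mul_self (φ (f x))
          exact ⟨θ, h1, h2.symm⟩
        have := h1 (f (((c⁻¹ * ‖y‖ : ℝ) : 𝕜) • θ • x)) (subset_closure ⟨_, by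
          simp [norm_smul, hθ, hx, abs_of_pos hc], rfl⟩)
        simp only [map_smul, smul_eq_mul, hθ'] at this
        rw [← RCLike.ofReal_mul, RCLike.ofReal_re] at this
        rw [le_div_iff₀ hr, mul_comm]
        exact this.le
      have h4 : RCLike.re (φ y) ≤ ‖φ‖ * ‖y‖ := (RCLike.re_le_norm _).trans (φ.le_opNorm y)
      have h5 := (hb φ).trans h3
      rw [le_div_iff₀ hr] at h5
      have : c * ‖φ‖ * (c⁻¹ * ‖y‖) = ‖φ‖ * ‖y‖ := by field_simp
      linarith
    obtain ⟨_, ⟨x, hx, rfl⟩, h⟩ := Metric.mem_closure_iff.1 hmem (1 / 2 * ‖y‖) (by positivity)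
    exact ⟨x, by rw [dist_comm]; exact h.le, by simpa using hx⟩
  set C := c⁻¹
  choose g hg using hC
  let h y := y - f (g y)
  have hle : ∀ y, ‖h y‖ ≤ 1 / 2 * ‖y‖ := by
    intro y
    rw [← dist_eq_norm, dist_comm]
    exact (hg y).1
  intro y
  have hnle : ∀ n : ℕ, ‖h^[n] y‖ ≤ (1 / 2) ^ n * ‖y‖ := by
    intro n
    induction n with
    | zero => simp
    | succ n IH =>
      rw [Function.iterate_succ']
      apply le_trans (hle _) _
      rw [pow_succ', mul_assoc]
      gcongr
  let u n := g (h^[n] y)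
  have C0 : 0 ≤ C := by positivity
  have ule : ∀ n, ‖u n‖ ≤ (1 / 2) ^ n * (C * ‖y‖) := fun n ↦ by
    apply le_trans (hg _).2
    calc
      C * ‖h^[n] y‖ ≤ C * ((1 / 2) ^ n * ‖y‖) := by gcongr; exact hnle n
      _ = (1 / 2) ^ n * (C * ‖y‖) := by ring
  have sNu : Summable fun n => ‖u n‖ := by
    refine .of_nonneg_of_le (fun n => norm_nonneg _) ule ?_
    exact Summable.mul_right _ (summable_geometric_of_lt_one (by simp) (by norm_num))
  have su : Summable u := sNu.of_norm
  let x := tsum u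
  have fsumeq : ∀ n : ℕ, f (∑ i ∈ Finset.range n, u i) = y - h^[n] y := by
    intro n
    induction n with
    | zero => simp
    | succ n IH => rw [Finset.sum_range_succ, f.map_add, IH, Function.iterate_succ_apply', sub_add]
  have : Tendsto (fun n => ∑ i ∈ Finset.range n, u i) atTop (𝓝 x) := su.hasSum.tendsto_sum_nat
  have L₁ : Tendsto (fun n => f (∑ i ∈ Finset.range n, u i)) atTop (𝓝 (f x)) :=
    (f.continuous.tendsto _).comp this
  simp only [fsumeq] at L₁
  have L₂ : Tendsto (fun n => y - h^[n] y) atTop (𝓝 (y - 0)) := by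
    refine tendsto_const_nhds.sub ?_
    rw [tendsto_iff_norm_sub_tendsto_zero]
    simp only [sub_zero]
    refine squeeze_zero (fun _ => norm_nonneg _) hnle ?_
    rw [← zero_mul ‖y‖]
    refine (_root_.tendsto_pow_atTop_nhds_zero_of_lt_one ?_ ?_).mul tendsto_const_nhds <;> norm_num
  have feq : f x = y - 0 := tendsto_nhds_unique L₁ L₂
  rw [sub_zero] at feq
  exact ⟨x, feq⟩

theorem exists_seq_hist {α : Type*} (R : (n : ℕ) → (Fin n → α) → α → Prop)
    (h : ∀ n f, ∃ a, R n f a) : ∃ f : ℕ → α, ∀ n, R n (fun i => f i) (f n) := by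
  choose g hg using h
  let f : ℕ → α := fun n => Nat.strongRec (motive := fun _ => α)
    (fun n ih => g n fun i => ih i i.2) n
  refine ⟨f, fun n => ?_⟩
  have : f n = g n fun i => f i := by
    simp only [f]
    rw [Nat.strongRec_eq]
  rw [this]
  exact hg n _

/-- If a series `∑ h i y • q (x i)` converges in the quotient, it converges to `q y`. -/
theorem mem_closure_of_summable {h : ℕ → StrongDual 𝕜 X} {x : ℕ → X}
    (hb : ∀ i j, h i (x j) = if i = j then 1 else 0) {y : X}
    (hs : Summable fun i => h i y • (kerAll h).mkQL (x i)) : (kerAll h).mkQL y ∈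
      closure (Submodule.span 𝕜 (Set.range fun i => (kerAll h).mkQL (x i)) : Set _) := by
  obtain ⟨z, hz⟩ := hs
  have h1 : z = (kerAll h).mkQL y := by
    obtain ⟨w, rfl⟩ := (kerAll h).mkQ_surjective z
    refine (Submodule.Quotient.eq _).2 (mem_kerAll.2 fun j => ?_)
    have h2 := hz.mapL ((kerAll h).liftQL (h j) (kerAll_le h j))
    simp only [map_smul, Submodule.coe_mkQL, Submodule.mkQ_apply,
      Submodule.liftQL_apply, Submodule.liftQ_apply, ContinuousLinearMap.coe_coe, hb,
      smul_eq_mul, mul_ite, mul_one, mul_zero] at h2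
    have h3 : HasSum (fun i => if j = i then h i y else 0) (h j y) := by
      simpa using hasSum_single (f := fun i => if j = i then h i y else 0) j
        fun i hi => if_neg (Ne.symm hi)
    rw [map_sub, h2.unique h3, sub_self]
  rw [← h1]
  refine mem_closure_of_tendsto hz.tendsto_sum_nat (Eventually.of_forall fun n => ?_)
  exact Submodule.sum_mem _ fun i _ => Submodule.smul_mem _ _ (Submodule.subset_span ⟨i, rfl⟩)

end Vale.Agent.P129
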